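import Vale.Agent.P333.ST.Text
import Vale.Agent.P333.ST.SumBound

/-!
P333, box O: from a minimum cycle cover, given as a function `p` on the indices `0, …, n - 1`, to the
list of the opened cycles. The programs are on lists and natural numbers only.
-/

namespace Vale.Agent.P333.Open

open Vale.Agent.P333.ST Function

/-! ### Programs -/

/-- `[i, p i, p (p i), …]`, `k` terms. -/
def orb (p : ℕ → ℕ) : ℕ → ℕ → List ℕ
  | 0, _ => []
  | k + 1, i => i :: orb p k (p i)

/-- `c` is the last node of its cycle: its outgoing link has the smallest overlap of the cycle,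
ties are broken by the index. -/
def isLast (n : ℕ) (o : ℕ → ℕ → ℕ) (p : ℕ → ℕ) (c : ℕ) : Bool :=
  (orb p n c).all fun t =>
    decide (o c (p c) < o t (p t)) || (decide (o c (p c) = o t (p t)) && decide (c ≤ t))

/-- The last nodes, one for every cycle. -/
def lasts (n : ℕ) (o : ℕ → ℕ → ℕ) (p : ℕ → ℕ) : List ℕ := (List.range n).filter (isLast n o p)

/-- Follow `p` from `i` until `c` is reached. -/
def walkTo (p : ℕ → ℕ) (c : ℕ) : ℕ → ℕ → List ℕ
  | 0, _ => []
  | k + 1, i => i :: (if i = c then [] else walkTo p c k (p i))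

/-- The cycle of `c`, from `p c` to `c`. -/
def cycFrom (n : ℕ) (p : ℕ → ℕ) (c : ℕ) : List ℕ := walkTo p c n (p c)

/-- Append the strings of the list to `acc`, whose last string is `i`. -/
def mergeFrom {α : Type*} (s : ℕ → List α) (o : ℕ → ℕ → ℕ) : List α → ℕ → List ℕ → List α
  | acc, _, [] => acc
  | acc, i, j :: l => mergeFrom s o (acc ++ (s j).drop (o i j)) j l

/-- Merge the strings of a list of nodes along the overlaps `o`. -/
def merge {α : Type*} (s : ℕ → List α) (o : ℕ → ℕ → ℕ) : List ℕ → List α
  | [] => []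
  | i :: l => mergeFrom s o (s i) i l

/-- The opened cycles. -/
def opened {α : Type*} (n : ℕ) (s : ℕ → List α) (o : ℕ → ℕ → ℕ) (p : ℕ → ℕ) : List (List α) :=
  (lasts n o p).map fun c => merge s o (cycFrom n p c)

/-! ### Orbits -/

theorem mem_orb {p : ℕ → ℕ} {k i t : ℕ} : t ∈ orb p k i ↔ ∃ j < k, p^[j] i = t := by
  induction k generalizing i with
  | zero => simp [orb]
  | succ k ih =>
    rw [orb, List.mem_cons, ih]
    constructor
    · rintro (rfl | ⟨j, hj, rfl⟩)
      · exact ⟨0, by omega, rfl⟩
      · exact ⟨j + 1, by omega, rfl⟩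
    · rintro ⟨j, hj, rfl⟩
      cases j with
      | zero => exact Or.inl rfl
      | succ j => exact Or.inr ⟨j, by omega, rfl⟩

theorem length_orb (p : ℕ → ℕ) (k i : ℕ) : (orb p k i).length = k := by
  induction k generalizing i with
  | zero => rfl
  | succ k ih => simp [orb, ih]

theorem walkTo_eq {p : ℕ → ℕ} {c : ℕ} (m k i : ℕ) (hm : p^[m] i = c)
    (hlt : ∀ j < m, p^[j] i ≠ c) (hk : m < k) : walkTo p c k i = orb p (m + 1) i := by
  induction m generalizing k i with
  | zero =>
    obtain ⟨k, rfl⟩ : ∃ k', k = k' + 1 := ⟨k - 1, by omega⟩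
    have : i = c := hm
    simp [walkTo, orb, this]
  | succ m ih =>
    obtain ⟨k, rfl⟩ : ∃ k', k = k' + 1 := ⟨k - 1, by omega⟩
    have h0 : i ≠ c := hlt 0 (by omega)
    rw [walkTo, if_neg h0, orb]
    congr 1
    apply ih
    · exact hm
    · intro j hj
      exact hlt (j + 1) (by omega)
    · omega

/-! ### Merging along a path -/

section Merge

variable {α : Type*} {s : ℕ → List α} {o : ℕ → ℕ → ℕ}

/-- Merge of `i, p i, …, p^k i`. -/
def pw (s : ℕ → List α) (o : ℕ → ℕ → ℕ) (p : ℕ → ℕ) (i : ℕ) : ℕ → List α
  | 0 => s i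
  | k + 1 => pw s o p i k ++ (s (p^[k + 1] i)).drop (o (p^[k] i) (p^[k + 1] i))

theorem mergeFrom_orb (p : ℕ → ℕ) (i k m : ℕ) :
    mergeFrom s o (pw s o p i k) (p^[k] i) (orb p m (p^[k + 1] i)) = pw s o p i (k + m) := by
  induction m generalizing k with
  | zero => rfl
  | succ m ih =>
    rw [orb, mergeFrom]
    have h := ih (k + 1)
    rw [show k + (m + 1) = k + 1 + m from by omega, ← h]
    rw [show p^[k + 1 + 1] i = p (p^[k + 1] i) from Function.iterate_succ_apply' p (k + 1) i]
    rfl

theorem merge_orb (p : ℕ → ℕ) (i m : ℕ) : merge s o (orb p (m + 1) i) = pw s o p i m := by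
  have h := mergeFrom_orb (s := s) (o := o) p i 0 m
  rw [show 0 + m = m from Nat.zero_add m] at h
  exact h

/-- Consecutive overlaps of a list. -/
def links (o : ℕ → ℕ → ℕ) : List ℕ → ℕ
  | [] => 0
  | [_] => 0
  | i :: j :: l => o i j + links o (j :: l)

theorem length_mergeFrom (acc : List α) (i : ℕ) (l : List ℕ)
    (ho : ∀ i j, o i j ≤ (s j).length) :
    (mergeFrom s o acc i l).length + links o (i :: l) =
      acc.length + (l.map fun j => (s j).length).sum := by
  induction l generalizing acc i with
  | nil => simp [mergeFrom, links]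
  | cons j l ih =>
    have h := ih (acc ++ (s j).drop (o i j)) j
    have h2 := ho i j
    rw [mergeFrom, links, List.map_cons, List.sum_cons]
    rw [List.length_append, List.length_drop] at h
    omega

/-- Length of the merged word. -/
theorem length_merge (l : List ℕ) (ho : ∀ i j, o i j ≤ (s j).length) :
    (merge s o l).length + links o l = (l.map fun j => (s j).length).sum := by
  cases l with
  | nil => rfl
  | cons i l =>
    rw [merge, length_mergeFrom _ _ _ ho, List.map_cons, List.sum_cons]

theorem mergeFrom_prefix (acc : List α) (i : ℕ) (l : List ℕ) : acc <+: mergeFrom s o acc i l := by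
  induction l generalizing acc i with
  | nil => exact List.prefix_refl _
  | cons j l ih =>
    exact (List.prefix_append _ _).trans (ih _ j)

theorem infix_mergeFrom (acc : List α) (i : ℕ) (l : List ℕ) (hacc : s i <:+ acc)
    (ho : ∀ i j, o i j ≤ (s i).length ∧ o i j ≤ (s j).length ∧
      (s j).take (o i j) = (s i).drop ((s i).length - o i j)) :
    ∀ j ∈ l, s j <:+: mergeFrom s o acc i l := by
  induction l generalizing acc i with
  | nil => simp
  | cons j l ih =>
    have hj : s j <:+ acc ++ (s j).drop (o i j) := by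
      obtain ⟨x, hx⟩ := hacc
      obtain ⟨h1, h2, h3⟩ := ho i j
      refine ⟨x ++ (s i).take ((s i).length - o i j), ?_⟩
      conv_lhs => rw [← List.take_append_drop (o i j) (s j)]
      rw [h3, ← hx, List.append_assoc, List.append_assoc, ← List.append_assoc (List.take _ (s i)),
        List.take_append_drop]
    intro t ht
    rw [mergeFrom]
    rcases List.mem_cons.1 ht with rfl | ht
    · exact hj.isInfix.trans (mergeFrom_prefix _ _ _).isInfix
    · exact ih _ _ hj t ht

/-- Every string of the list is a factor of the merged word. -/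
theorem infix_merge (l : List ℕ)
    (ho : ∀ i j, o i j ≤ (s i).length ∧ o i j ≤ (s j).length ∧
      (s j).take (o i j) = (s i).drop ((s i).length - o i j)) :
    ∀ j ∈ l, s j <:+: merge s o l := by
  cases l with
  | nil => simp
  | cons i l =>
    intro j hj
    rw [merge]
    rcases List.mem_cons.1 hj with rfl | hj
    · exact (mergeFrom_prefix _ _ _).isInfix
    · exact infix_mergeFrom _ _ _ (List.suffix_refl _) ho j hj

end Merge

end Vale.Agent.P333.Open
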