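import Mathlib

/-!
P333, box M2: break the cycles of a partial injection (given as a list of edges sorted by
decreasing weight) at their lightest edges and glue the paths.
-/

namespace Vale.Agent.P333.M

open List

variable {V : Type*}

/-- consecutive pairs -/
def prs (P : List V) : List (V × V) := P.zip P.tail

/-- cyclically consecutive pairs -/
def cyc (P : List V) : List (V × V) := P.zip (P.rotate 1)

/-- weight of the path through the list `P` -/
def pw (w : V → V → ℕ) (P : List V) : ℕ := ((prs P).map (fun e => w e.1 e.2)).sum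

/-- weight of the closing edge of a path -/
def clo (w : V → V → ℕ) (P : List V) : ℕ :=
  match P.getLast?, P.head? with
  | some x, some y => w x y
  | _, _ => 0

/-- one edge is processed: state = (active paths, closed paths) -/
def step [DecidableEq V] (s : List (List V) × List (List V)) (e : V × V) :
    List (List V) × List (List V) :=
  match s.1.find? (fun P => decide (P.getLast? = some e.1)),
      s.1.find? (fun Q => decide (Q.head? = some e.2)) with
  | some P, some Q =>
      if P = Q then (s.1.erase P, P :: s.2) else ((P ++ Q) :: (s.1.erase P).erase Q, s.2)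
  | _, _ => s

/-- the paths after processing all edges -/
def breakS [DecidableEq V] (nodes : List V) (edges : List (V × V)) :
    List (List V) × List (List V) :=
  edges.foldl step (nodes.map (fun v => [v]), [])

/-- the resulting order of the nodes -/
def breakC [DecidableEq V] (nodes : List V) (edges : List (V × V)) : List V :=
  ((breakS nodes edges).2 ++ (breakS nodes edges).1).flatten

theorem prs_cons_cons (a b : V) (l : List V) : prs (a :: b :: l) = (a, b) :: prs (b :: l) := rfl

theorem prs_append {P Q : List V} {x y : V} (hx : P.getLast? = some x) (hy : Q.head? = some y) :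
    prs (P ++ Q) = prs P ++ (x, y) :: prs Q := by
  induction P with
  | nil => simp at hx
  | cons a P ih =>
    cases P with
    | nil =>
      simp only [List.getLast?_singleton, Option.some.injEq] at hx
      subst hx
      cases Q with
      | nil => simp at hy
      | cons b Q =>
        simp only [List.head?_cons, Option.some.injEq] at hy
        subst hy
        simp [prs]
    | cons b P =>
      have h1 : (b :: P).getLast? = some x := by
        rw [← hx]; simp
      have := ih h1
      rw [List.cons_append, List.cons_append, prs_cons_cons, ← List.cons_append, this,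
        prs_cons_cons]
      rfl

theorem pw_append {w : V → V → ℕ} {P Q : List V} {x y : V} (hx : P.getLast? = some x)
    (hy : Q.head? = some y) : pw w (P ++ Q) = pw w P + w x y + pw w Q := by
  unfold pw
  rw [prs_append hx hy]
  simp
  omega

theorem pw_append_ge (w : V → V → ℕ) (P Q : List V) : pw w P + pw w Q ≤ pw w (P ++ Q) := by
  rcases hP : P.getLast? with _ | x
  · rw [List.getLast?_eq_none_iff] at hP
    subst hP
    simp [pw, prs]
  · rcases hQ : Q.head? with _ | y
    · rw [List.head?_eq_none_iff] at hQ
      subst hQ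
      simp [pw, prs]
    · rw [pw_append hP hQ]; omega

theorem pw_flatten_ge (w : V → V → ℕ) (L : List (List V)) :
    (L.map (pw w)).sum ≤ pw w L.flatten := by
  induction L with
  | nil => simp
  | cons P L ih =>
    simp only [List.map_cons, List.sum_cons, List.flatten_cons]
    have := pw_append_ge w P L.flatten
    omega

/-- the closing pair is the last pair of `cyc` -/
theorem cyc_eq {P : List V} {x y : V} (hx : P.getLast? = some x) (hy : P.head? = some y) :
    cyc P = prs P ++ [(x, y)] := by
  cases P with
  | nil => simp at hx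
  | cons a P =>
    simp only [List.head?_cons, Option.some.injEq] at hy
    subst hy
    have : (a :: P).rotate 1 = P ++ [a] := by simp
    unfold cyc
    rw [this]
    clear this
    have key : ∀ (P : List V) (a c : V), (a :: P).getLast? = some x →
        (a :: P).zip (P ++ [c]) = prs (a :: P) ++ [(x, c)] := by
      intro P
      induction P with
      | nil => intro a c h; simp at h; subst h; simp [prs]
      | cons b P ih =>
        intro a c h
        have h1 : (b :: P).getLast? = some x := by rw [← h]; simp
        rw [List.cons_append, List.zip_cons_cons, ih b c h1, prs_cons_cons]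
        rfl
    exact key P a a hx

theorem map_fst_cyc (P : List V) : (cyc P).map Prod.fst = P := by
  unfold cyc
  rw [List.map_fst_zip]
  simp

/-- invariant of the process -/
structure Inv (w : V → V → ℕ) (nodes : List V) (D : List (V × V)) (A B : List (List V)) :
    Prop where
  perm : (B ++ A).flatten ~ nodes
  ne : ∀ P ∈ B ++ A, P ≠ []
  sub : ∀ P ∈ B ++ A, ∀ e ∈ prs P, e ∈ D
  cl : ∀ P ∈ B, ∃ x y, P.getLast? = some x ∧ P.head? = some y ∧ (x, y) ∈ D ∧
    ∀ e ∈ prs P, w x y ≤ w e.1 e.2
  out : ∀ x ∈ nodes, x ∉ D.map Prod.fst → ∃ P ∈ A, P.getLast? = some x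
  inn : ∀ x ∈ nodes, x ∉ D.map Prod.snd → ∃ P ∈ A, P.head? = some x
  val : (A.map (pw w)).sum + (B.map (pw w)).sum + (B.map (clo w)).sum =
    (D.map (fun e => w e.1 e.2)).sum

theorem inv_init (w : V → V → ℕ) (nodes : List V) :
    Inv w nodes [] (nodes.map (fun v => [v])) [] where
  perm := by
    have : (nodes.map (fun v => [v])).flatten = nodes := by
      induction nodes with
      | nil => rfl
      | cons a l ih => simp [ih]
    simp [this]
  ne := by simp
  sub := by
    intro P hP e he
    simp only [List.nil_append, List.mem_map] at hP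
    obtain ⟨v, _, rfl⟩ := hP
    simp [prs] at he
  cl := by simp
  out := fun x hx _ => ⟨[x], by simpa using hx, by simp⟩
  inn := fun x hx _ => ⟨[x], by simpa using hx, by simp⟩
  val := by
    have : ∀ l : List V, ((l.map (fun v => [v])).map (pw w)).sum = 0 := by
      intro l
      induction l with
      | nil => rfl
      | cons a l ih =>
        simp only [List.map_cons, List.sum_cons]
        rw [ih]
        simp [pw, prs]
    simp only [List.map_nil, List.sum_nil, Nat.add_zero]
    exact this nodes

variable [DecidableEq V]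

theorem inv_step {w : V → V → ℕ} {nodes : List V} {D : List (V × V)} {A B : List (List V)}
    (h : Inv w nodes D A B) {x y : V} (hx : x ∈ nodes) (hy : y ∈ nodes)
    (hxD : x ∉ D.map Prod.fst) (hyD : y ∉ D.map Prod.snd)
    (hmin : ∀ d ∈ D, w x y ≤ w d.1 d.2) :
    Inv w nodes ((x, y) :: D) (step (A, B) (x, y)).1 (step (A, B) (x, y)).2 := by
  obtain ⟨P0, hP0, hP0x⟩ := h.out x hx hxD
  obtain ⟨Q0, hQ0, hQ0y⟩ := h.inn y hy hyD
  obtain ⟨P, hP⟩ : ∃ P, A.find? (fun P => decide (P.getLast? = some x)) = some P := by
    rw [← Option.isSome_iff_exists, List.find?_isSome]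
    exact ⟨P0, hP0, by simp [hP0x]⟩
  obtain ⟨Q, hQ⟩ : ∃ Q, A.find? (fun Q => decide (Q.head? = some y)) = some Q := by
    rw [← Option.isSome_iff_exists, List.find?_isSome]
    exact ⟨Q0, hQ0, by simp [hQ0y]⟩
  have hPA : P ∈ A := List.mem_of_find?_eq_some hP
  have hQA : Q ∈ A := List.mem_of_find?_eq_some hQ
  have hPx : P.getLast? = some x := by simpa using List.find?_some hP
  have hQy : Q.head? = some y := by simpa using List.find?_some hQ
  have hA1 : A ~ P :: A.erase P := List.perm_cons_erase hPA
  by_cases hPQ : P = Q
  · -- closing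
    subst hPQ
    have hst : step (A, B) (x, y) = (A.erase P, P :: B) := by
      unfold step
      simp only [hP, hQ, if_true]
    rw [hst]
    have hper : (P :: B) ++ A.erase P ~ B ++ A := by
      have h1 : (P :: B) ++ A.erase P ~ B ++ (P :: A.erase P) := by
        rw [List.cons_append]
        exact List.perm_middle.symm
      exact h1.trans (List.Perm.append_left B hA1.symm)
    refine ⟨?_, ?_, ?_, ?_, ?_, ?_, ?_⟩
    · exact (List.Perm.flatten hper).trans h.perm
    · intro R hR
      exact h.ne R (hper.mem_iff.1 hR)
    · intro R hR e he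
      exact List.mem_cons_of_mem _ (h.sub R (hper.mem_iff.1 hR) e he)
    · intro R hR
      rcases List.mem_cons.1 hR with rfl | hR
      · exact ⟨x, y, hPx, hQy, by simp, fun e he =>
          hmin e (h.sub R (List.mem_append_right _ hPA) e he)⟩
      · obtain ⟨a, b, h1, h2, h3, h4⟩ := h.cl R hR
        exact ⟨a, b, h1, h2, List.mem_cons_of_mem _ h3, h4⟩
    · intro z hz hzD
      simp only [List.map_cons, List.mem_cons, not_or] at hzD
      obtain ⟨R, hR, hRz⟩ := h.out z hz hzD.2
      refine ⟨R, ?_, hRz⟩
      apply (List.mem_erase_of_ne _).2 hR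
      rintro rfl
      rw [hPx] at hRz
      exact hzD.1 (Option.some.inj hRz).symm
    · intro z hz hzD
      simp only [List.map_cons, List.mem_cons, not_or] at hzD
      obtain ⟨R, hR, hRz⟩ := h.inn z hz hzD.2
      refine ⟨R, ?_, hRz⟩
      apply (List.mem_erase_of_ne _).2 hR
      rintro rfl
      rw [hQy] at hRz
      exact hzD.1 (Option.some.inj hRz).symm
    · have hv := h.val
      have h1 : (A.map (pw w)).sum = pw w P + ((A.erase P).map (pw w)).sum := by
        rw [(hA1.map (pw w)).sum_eq]; simp
      have h2 : clo w P = w x y := by simp [clo, hPx, hQy]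
      simp only [List.map_cons, List.sum_cons]
      rw [h1] at hv
      rw [h2]
      omega
  · -- merging
    have hst : step (A, B) (x, y) = ((P ++ Q) :: (A.erase P).erase Q, B) := by
      unfold step
      simp only [hP, hQ, if_neg hPQ]
    rw [hst]
    have hQ1 : Q ∈ A.erase P := (List.mem_erase_of_ne (Ne.symm hPQ)).2 hQA
    have hA2 : A ~ P :: Q :: (A.erase P).erase Q :=
      hA1.trans (List.Perm.cons P (List.perm_cons_erase hQ1))
    set R := (A.erase P).erase Q with hR
    have hPne : P ≠ [] := h.ne P (List.mem_append_right _ hPA)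
    have hQne : Q ≠ [] := h.ne Q (List.mem_append_right _ hQA)
    refine ⟨?_, ?_, ?_, ?_, ?_, ?_, ?_⟩
    · have h1 : (B ++ (P ++ Q) :: R).flatten ~ (B ++ A).flatten := by
        rw [List.flatten_append, List.flatten_append]
        apply List.Perm.append_left
        have h2 := List.Perm.flatten hA2
        simp only [List.flatten_cons, List.append_assoc] at h2 ⊢
        exact h2.symm
      exact h1.trans h.perm
    · intro S hS
      rcases List.mem_append.1 hS with hS | hS
      · exact h.ne S (List.mem_append_left _ hS)
      · rcases List.mem_cons.1 hS with rfl | hS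
        · simp [hPne]
        · exact h.ne S (List.mem_append_right _ (hA2.mem_iff.2 (by simp [hS])))
    · intro S hS e he
      rcases List.mem_append.1 hS with hS | hS
      · exact List.mem_cons_of_mem _ (h.sub S (List.mem_append_left _ hS) e he)
      · rcases List.mem_cons.1 hS with rfl | hS
        · rw [prs_append hPx hQy] at he
          rcases List.mem_append.1 he with he | he
          · exact List.mem_cons_of_mem _ (h.sub P (List.mem_append_right _ hPA) e he)
          · rcases List.mem_cons.1 he with rfl | he
            · simp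
            · exact List.mem_cons_of_mem _ (h.sub Q (List.mem_append_right _ hQA) e he)
        · exact List.mem_cons_of_mem _
            (h.sub S (List.mem_append_right _ (hA2.mem_iff.2 (by simp [hS]))) e he)
    · intro S hS
      obtain ⟨a, b, h1, h2, h3, h4⟩ := h.cl S hS
      exact ⟨a, b, h1, h2, List.mem_cons_of_mem _ h3, h4⟩
    · intro z hz hzD
      simp only [List.map_cons, List.mem_cons, not_or] at hzD
      obtain ⟨S, hS, hSz⟩ := h.out z hz hzD.2
      rcases List.mem_cons.1 (hA2.mem_iff.1 hS) with rfl | hS'
      · rw [hPx] at hSz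
        exact absurd (Option.some.inj hSz).symm hzD.1
      · rcases List.mem_cons.1 hS' with rfl | hS'
        · refine ⟨P ++ S, by simp, ?_⟩
          rw [List.getLast?_append_of_ne_nil _ hQne]
          exact hSz
        · exact ⟨S, List.mem_cons_of_mem _ hS', hSz⟩
    · intro z hz hzD
      simp only [List.map_cons, List.mem_cons, not_or] at hzD
      obtain ⟨S, hS, hSz⟩ := h.inn z hz hzD.2
      rcases List.mem_cons.1 (hA2.mem_iff.1 hS) with rfl | hS'
      · refine ⟨S ++ Q, by simp, ?_⟩
        rw [List.head?_append_of_ne_nil _ hPne]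
        exact hSz
      · rcases List.mem_cons.1 hS' with rfl | hS'
        · rw [hQy] at hSz
          exact absurd (Option.some.inj hSz).symm hzD.1
        · exact ⟨S, List.mem_cons_of_mem _ hS', hSz⟩
    · have hv := h.val
      have h1 : (A.map (pw w)).sum = pw w P + (pw w Q + (R.map (pw w)).sum) := by
        rw [(hA2.map (pw w)).sum_eq]; simp
      simp only [List.map_cons, List.sum_cons]
      rw [h1] at hv
      rw [pw_append hPx hQy]
      omega

theorem inv_fold {w : V → V → ℕ} {nodes : List V} (L : List (V × V)) :
    ∀ (D : List (V × V)) (s : List (List V) × List (List V)), Inv w nodes D s.1 s.2 →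
    ((L ++ D).map Prod.fst).Nodup → ((L ++ D).map Prod.snd).Nodup →
    (∀ e ∈ L, e.1 ∈ nodes ∧ e.2 ∈ nodes) →
    (∀ e ∈ L, ∀ d ∈ D, w e.1 e.2 ≤ w d.1 d.2) →
    L.Pairwise (fun e f => w f.1 f.2 ≤ w e.1 e.2) →
    ∃ D', D' ~ L ++ D ∧ Inv w nodes D' (L.foldl step s).1 (L.foldl step s).2 := by
  induction L with
  | nil => intro D s h _ _ _ _ _; exact ⟨D, by simp, h⟩
  | cons e L ih =>
    intro D s h h1 h2 h3 h4 h5
    obtain ⟨x, y⟩ := e
    obtain ⟨A, B⟩ := s
    have hx1 : x ∉ D.map Prod.fst := by
      simp only [List.cons_append, List.map_cons, List.map_append, List.nodup_cons,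
        List.mem_append, not_or] at h1
      exact h1.1.2
    have hy1 : y ∉ D.map Prod.snd := by
      simp only [List.cons_append, List.map_cons, List.map_append, List.nodup_cons,
        List.mem_append, not_or] at h2
      exact h2.1.2
    have hi := inv_step h (h3 (x, y) (by simp)).1 (h3 (x, y) (by simp)).2 hx1 hy1
      (fun d hd => h4 (x, y) (by simp) d hd)
    have hp : L ++ (x, y) :: D ~ (x, y) :: L ++ D := by
      rw [List.cons_append]; exact List.perm_middle
    rw [List.pairwise_cons] at h5
    obtain ⟨D', hD', hinv⟩ := ih ((x, y) :: D) (step (A, B) (x, y)) hi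
      ((hp.map _).nodup_iff.2 h1) ((hp.map _).nodup_iff.2 h2)
      (fun e he => h3 e (List.mem_cons_of_mem _ he))
      (by
        intro e he d hd
        rcases List.mem_cons.1 hd with rfl | hd
        · exact h5.1 e he
        · exact h4 e (List.mem_cons_of_mem _ he) d hd)
      h5.2
    exact ⟨D', hD'.trans hp, hinv⟩

/-- the output is an order of the nodes, and the value is at least the weight of all edges minus
any charge `g` that pays for the lightest edge of every cycle -/
theorem breakC_spec (w : V → V → ℕ) (nodes : List V) (hn : nodes.Nodup) (F : List (V × V))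
    (hF1 : (F.map Prod.fst).Nodup) (hF2 : (F.map Prod.snd).Nodup)
    (hFn : ∀ e ∈ F, e.1 ∈ nodes ∧ e.2 ∈ nodes)
    (hs : F.Pairwise (fun e f => w f.1 f.2 ≤ w e.1 e.2))
    (g : V × V → ℚ) (hg0 : ∀ e ∈ F, 0 ≤ g e)
    (hg : ∀ P : List V, P ≠ [] → P.Nodup → (∀ e ∈ cyc P, e ∈ F) →
      ∀ e0 ∈ cyc P, (∀ e ∈ cyc P, w e0.1 e0.2 ≤ w e.1 e.2) →
      (w e0.1 e0.2 : ℚ) ≤ ((cyc P).map g).sum) :
    breakC nodes F ~ nodes ∧
      ((F.map (fun e => w e.1 e.2)).sum : ℚ) ≤ (pw w (breakC nodes F) : ℚ) + (F.map g).sum := by
  obtain ⟨D, hD, hi⟩ := inv_fold (w := w) (nodes := nodes) F [] (nodes.map (fun v => [v]), [])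
    (inv_init w nodes) (by simpa using hF1) (by simpa using hF2) hFn (by simp) hs
  rw [List.append_nil] at hD
  have hA : (F.foldl step (nodes.map (fun v => [v]), [])) = breakS nodes F := rfl
  rw [hA] at hi
  set A := (breakS nodes F).1 with hAd
  set B := (breakS nodes F).2 with hBd
  have hout : breakC nodes F = (B ++ A).flatten := rfl
  refine ⟨by rw [hout]; exact hi.perm, ?_⟩
  -- value
  have h1 : ((A.map (pw w)).sum + (B.map (pw w)).sum : ℕ) ≤ pw w (breakC nodes F) := by
    have := pw_flatten_ge w (B ++ A)
    rw [List.map_append, List.sum_append] at this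
    rw [hout]; omega
  have h2 : (D.map (fun e => w e.1 e.2)).sum = (F.map (fun e => w e.1 e.2)).sum :=
    (hD.map _).sum_eq
  have hval := hi.val
  rw [h2] at hval
  -- the closed paths
  have hBnd : B.flatten.Nodup := by
    have : (B ++ A).flatten.Nodup := hi.perm.nodup_iff.2 hn
    rw [List.flatten_append] at this
    exact (List.nodup_append.1 this).1
  have hcl : ∀ P ∈ B, (∀ e ∈ cyc P, e ∈ F) ∧ ((clo w P : ℕ) : ℚ) ≤ ((cyc P).map g).sum := by
    intro P hP
    obtain ⟨x, y, hx, hy, hxy, hm⟩ := hi.cl P hP
    have hc := cyc_eq hx hy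
    have hsub : ∀ e ∈ cyc P, e ∈ F := by
      intro e he
      rw [hc] at he
      rcases List.mem_append.1 he with he | he
      · exact hD.mem_iff.1 (hi.sub P (List.mem_append_left _ hP) e he)
      · simp only [List.mem_singleton] at he
        rw [he]; exact hD.mem_iff.1 hxy
    refine ⟨hsub, ?_⟩
    have hclo : clo w P = w x y := by simp [clo, hx, hy]
    rw [hclo]
    apply hg P (hi.ne P (List.mem_append_left _ hP)) _ hsub (x, y)
    · rw [hc]; simp
    · intro e he
      rw [hc] at he
      rcases List.mem_append.1 he with he | he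
      · exact hm e he
      · simp only [List.mem_singleton] at he
        rw [he]
    · exact (List.nodup_flatten.1 hBnd).1 P hP
  have h3 : (((B.map (clo w)).sum : ℕ) : ℚ) ≤ (F.map g).sum := by
    have h4 : (((B.map (clo w)).sum : ℕ) : ℚ) ≤ ((B.flatMap cyc).map g).sum := by
      have gen : ∀ C : List (List V), (∀ P ∈ C, ((clo w P : ℕ) : ℚ) ≤ ((cyc P).map g).sum) →
          (((C.map (clo w)).sum : ℕ) : ℚ) ≤ ((C.flatMap cyc).map g).sum := by
        intro C
        induction C with
        | nil => intro _; simp
        | cons P C ih =>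
          intro hC
          have h5 := hC P (by simp)
          have h6 := ih (fun Q hQ => hC Q (by simp [hQ]))
          simp only [List.map_cons, List.sum_cons, List.flatMap_cons, List.map_append,
            List.sum_append]
          push_cast at h6 ⊢
          linarith
      exact gen B (fun P hP => (hcl P hP).2)
    have h5 : (B.flatMap cyc).Nodup := by
      have : ((B.flatMap cyc).map Prod.fst).Nodup := by
        have gen : ∀ C : List (List V), (C.flatMap cyc).map Prod.fst = C.flatten := by
          intro C
          induction C with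
          | nil => rfl
          | cons P C ih =>
            rw [List.flatMap_cons, List.map_append, map_fst_cyc, List.flatten_cons, ih]
        have h6 := gen B
        rw [h6]; exact hBnd
      exact List.Nodup.of_map _ this
    have h6 : ∀ e ∈ B.flatMap cyc, e ∈ F := by
      intro e he
      rw [List.mem_flatMap] at he
      obtain ⟨P, hP, he⟩ := he
      exact (hcl P hP).1 e he
    have h7 : (B.flatMap cyc).Subperm F := List.Nodup.subperm h5 h6
    obtain ⟨l, hl1, hl2⟩ := h7
    have h8 : ((B.flatMap cyc).map g).sum = (l.map g).sum := (hl1.symm.map g).sum_eq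
    have h9 : (l.map g).sum ≤ (F.map g).sum := by
      apply List.Sublist.sum_le_sum (hl2.map g)
      intro a ha
      rw [List.mem_map] at ha
      obtain ⟨e, he, rfl⟩ := ha
      exact hg0 e he
    linarith
  have h1' : (((A.map (pw w)).sum : ℕ) : ℚ) + (((B.map (pw w)).sum : ℕ) : ℚ) ≤
      (pw w (breakC nodes F) : ℚ) := by exact_mod_cast h1
  have hval' : (((A.map (pw w)).sum : ℕ) : ℚ) + (((B.map (pw w)).sum : ℕ) : ℚ)
      + (((B.map (clo w)).sum : ℕ) : ℚ) = (((F.map (fun e => w e.1 e.2)).sum : ℕ) : ℚ) := by
    exact_mod_cast hval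
  linarith

end Vale.Agent.P333.M

namespace Vale.Agent.P333.M

open List

variable {V : Type*} [DecidableEq V]

/-- break the cycles of `F` at their lightest edges and glue the paths (`F` is first sorted by
decreasing weight, by insertion) -/
def breakF (w : V → V → ℕ) (nodes : List V) (F : List (V × V)) : List V :=
  breakC nodes (F.insertionSort (fun e f => w f.1 f.2 ≤ w e.1 e.2))

theorem breakF_spec (w : V → V → ℕ) (nodes : List V) (hn : nodes.Nodup) (F : List (V × V))
    (hF1 : (F.map Prod.fst).Nodup) (hF2 : (F.map Prod.snd).Nodup)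
    (hFn : ∀ e ∈ F, e.1 ∈ nodes ∧ e.2 ∈ nodes)
    (g : V × V → ℚ) (hg0 : ∀ e ∈ F, 0 ≤ g e)
    (hg : ∀ P : List V, P ≠ [] → P.Nodup → (∀ e ∈ cyc P, e ∈ F) →
      ∀ e0 ∈ cyc P, (∀ e ∈ cyc P, w e0.1 e0.2 ≤ w e.1 e.2) →
      (w e0.1 e0.2 : ℚ) ≤ ((cyc P).map g).sum) :
    breakF w nodes F ~ nodes ∧
      ((F.map (fun e => w e.1 e.2)).sum : ℚ) ≤ (pw w (breakF w nodes F) : ℚ) + (F.map g).sum := by
  have hp : F.insertionSort (fun e f => w f.1 f.2 ≤ w e.1 e.2) ~ F := List.perm_insertionSort _ F
  have hs : (F.insertionSort (fun e f => w f.1 f.2 ≤ w e.1 e.2)).Pairwise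
      (fun e f => w f.1 f.2 ≤ w e.1 e.2) := by
    have : Std.Total (fun e f : V × V => w f.1 f.2 ≤ w e.1 e.2) :=
      ⟨fun a b => le_total _ _⟩
    have : IsTrans (V × V) (fun e f : V × V => w f.1 f.2 ≤ w e.1 e.2) :=
      ⟨fun a b c h1 h2 => le_trans h2 h1⟩
    exact List.pairwise_insertionSort _ F
  have h := breakC_spec w nodes hn _ ((hp.map _).nodup_iff.2 hF1) ((hp.map _).nodup_iff.2 hF2)
    (fun e he => hFn e (hp.mem_iff.1 he)) hs g (fun e he => hg0 e (hp.mem_iff.1 he))
    (fun P h1 h2 h3 => hg P h1 h2 (fun e he => hp.mem_iff.1 (h3 e he)))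
  refine ⟨h.1, ?_⟩
  have e1 := (hp.map (fun e => w e.1 e.2)).sum_eq
  have e2 := (hp.map g).sum_eq
  have h2 := h.2
  rw [e1, e2] at h2
  exact h2

end Vale.Agent.P333.M
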