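import Vale.Agent.P333.M.AuctionL
import Vale.Agent.P333.M.Break

/-!
P333, box M: the program. Input: a number `n` of nodes `0, ..., n - 1`, a weight function `w` and
a bound `C` for the weights. Output: an order of all nodes whose total weight (sum of `w` over
consecutive nodes) is at least `6 / 11` of the maximum.
-/

namespace Vale.Agent.P333.M

/-- the successor of `x` in the assignment `p` -/
def nx (p : List ℕ) (x : ℕ) : ℕ := p.getD x 0

/-- `x, p x, p (p x), ...` (`k` entries) -/
def orb (p : List ℕ) (x : ℕ) : ℕ → List ℕ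
  | 0 => []
  | k + 1 => x :: orb p (nx p x) k

/-- the smallest node of the cycle of `x` -/
def rep (n : ℕ) (p : List ℕ) (x : ℕ) : ℕ := (orb p x n).foldl min x

/-- For every cycle of `p` there is one coin; `q[r]` is twice the probability that the coin of the
cycle with smallest node `r` shows heads. Heads: the only arc of the cycle that is kept is the arc
out of the smallest node. Tails: all other arcs are kept. `kq` is twice the probability that the
arc `x → p x` is kept. -/
def kq (n : ℕ) (p q : List ℕ) (x : ℕ) : ℕ :=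
  if nx p x = x then 0
  else if rep n p x = x then q.getD (rep n p x) 0
  else 2 - q.getD (rep n p x) 0

/-- contribution of the arc `x → p1 x` -/
def arcTerm (w : ℕ → ℕ → ℕ) (n : ℕ) (p1 q : List ℕ) (x : ℕ) : ℕ :=
  4 * kq n p1 q x * w x (nx p1 x)

/-- contribution of the arc `x → p2 x`, which can only be used if it joins different cycles of
`p1`, and if neither the `p1`-arc out of `x` nor the `p1`-arc into `p2 x` is kept -/
def linkTerm (w : ℕ → ℕ → ℕ) (n : ℕ) (p1 p2 q : List ℕ) (x : ℕ) : ℕ :=
  if rep n p1 x = rep n p1 (nx p2 x) then 0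
  else (2 - kq n p1 q x) * (2 - kq n p1 q (p1.idxOf (nx p2 x))) * w x (nx p2 x)

/-- eight times the expected value of (weight of the kept arcs + one half of the weight of the
usable arcs) -/
def obj (w : ℕ → ℕ → ℕ) (n : ℕ) (p1 p2 q : List ℕ) : ℕ :=
  ((List.range n).map (fun x => arcTerm w n p1 q x + linkTerm w n p1 p2 q x)).sum

/-- the coins are fixed one after the other, such that the expected value does not decrease -/
def bits (w : ℕ → ℕ → ℕ) (n : ℕ) (p1 p2 : List ℕ) : List ℕ :=
  (List.range n).foldl
    (fun q r => if obj w n p1 p2 (q.set r 2) ≤ obj w n p1 p2 (q.set r 0) then q.set r 0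
      else q.set r 2)
    (List.replicate n 1)

/-- all arcs of the first assignment, without loops -/
def arcsA (n : ℕ) (p1 : List ℕ) : List (ℕ × ℕ) :=
  ((List.range n).filter (fun x => nx p1 x ≠ x)).map (fun x => (x, nx p1 x))

/-- the kept arcs of the first assignment -/
def arcsK (n : ℕ) (p1 q : List ℕ) : List (ℕ × ℕ) :=
  ((List.range n).filter (fun x => kq n p1 q x = 2)).map (fun x => (x, nx p1 x))

/-- the usable arcs of the second assignment -/
def arcsL (n : ℕ) (p1 p2 q : List ℕ) : List (ℕ × ℕ) :=
  ((List.range n).filter (fun x => rep n p1 x ≠ rep n p1 (nx p2 x) ∧ kq n p1 q x = 0 ∧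
    kq n p1 q (p1.idxOf (nx p2 x)) = 0)).map (fun x => (x, nx p2 x))

/-- weights of the first assignment problem: loops are worth nothing -/
def wt1 (w : ℕ → ℕ → ℕ) (x y : ℕ) : ℕ := if x = y then 0 else w x y

/-- weights of the second assignment problem: arcs inside a cycle of `p1` are worth nothing -/
def wt2 (w : ℕ → ℕ → ℕ) (n : ℕ) (p1 : List ℕ) (x y : ℕ) : ℕ :=
  if rep n p1 x = rep n p1 y then 0 else w x y

/-- the heavier one of two orders -/
def heavier (w : ℕ → ℕ → ℕ) (A B : List ℕ) : List ℕ := if pw w B ≤ pw w A then A else B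

/-- the two candidates, for given assignments `p1`, `p2` -/
def atspOf (w : ℕ → ℕ → ℕ) (n : ℕ) (p1 p2 : List ℕ) : List ℕ :=
  heavier w (breakF w (List.range n) (arcsA n p1))
    (breakF w (List.range n)
      (arcsK n p1 (bits w n p1 p2) ++ arcsL n p1 p2 (bits w n p1 p2)))

/-- the second assignment -/
def atspOf2 (n C : ℕ) (w : ℕ → ℕ → ℕ) (p1 : List ℕ) : List ℕ :=
  atspOf w n p1 (Auction.assign n C (wt2 w n p1))

/-- the algorithm -/
def atsp (n C : ℕ) (w : ℕ → ℕ → ℕ) : List ℕ := atspOf2 n C w (Auction.assign n C (wt1 w))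

end Vale.Agent.P333.M
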