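import Vale.Agent.P333.M.Break

/-!
P333, box M: charges for the lightest edges of the cycles (hypothesis `hg` of `breakF_spec`).
-/

namespace Vale.Agent.P333.M

open List

variable {V : Type*}

theorem map_snd_cyc (P : List V) : (cyc P).map Prod.snd = P.rotate 1 := by
  unfold cyc
  rw [List.map_snd_zip]
  simp

theorem sum_filter {β : Type*} [AddCommMonoid β] {α : Type*} (l : List α) (p : α → Bool)
    (h : α → β) (hz : ∀ x ∈ l, p x = false → h x = 0) :
    ((l.filter p).map h).sum = (l.map h).sum := by
  induction l with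
  | nil => rfl
  | cons a l ih =>
    have ih' := ih (fun x hx => hz x (List.mem_cons_of_mem _ hx))
    by_cases ha : p a = true
    · rw [List.filter_cons_of_pos ha]
      simp only [List.map_cons, List.sum_cons, ih']
    · have ha' : p a = false := by simpa using ha
      rw [List.filter_cons_of_neg (by simpa using ha')]
      simp only [List.map_cons, List.sum_cons, ih', hz a (by simp) ha', zero_add]

/-- a cyclic sequence cannot change its class exactly once -/
theorem not_one_change {C : Type*} [DecidableEq C] (cls : V → C) (P : List V) (e1 : V × V)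
    (h : (cyc P).filter (fun e => decide (cls e.1 ≠ cls e.2)) = [e1]) : False := by
  have h1 : cls e1.1 ≠ cls e1.2 := by
    have : e1 ∈ (cyc P).filter (fun e => decide (cls e.1 ≠ cls e.2)) := by rw [h]; simp
    have := (List.mem_filter.1 this).2
    simpa using this
  let f : C → ℤ := fun c => if c = cls e1.1 then 1 else 0
  have h2 : ((cyc P).map (fun e => f (cls e.2) - f (cls e.1))).sum =
      f (cls e1.2) - f (cls e1.1) := by
    rw [← sum_filter (cyc P) (fun e => decide (cls e.1 ≠ cls e.2)), h]
    · simp
    · intro e _ he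
      have : cls e.1 = cls e.2 := by simpa using he
      rw [this]; simp
  have h3 : ((cyc P).map (fun e => f (cls e.2))).sum = ((cyc P).map (fun e => f (cls e.1))).sum := by
    have e2 : (cyc P).map (fun e => f (cls e.2)) = (P.rotate 1).map (fun x => f (cls x)) := by
      rw [← map_snd_cyc, List.map_map]; rfl
    have e1 : (cyc P).map (fun e => f (cls e.1)) = P.map (fun x => f (cls x)) := by
      conv_rhs => rw [← map_fst_cyc P]
      rw [List.map_map]; rfl
    rw [e1, e2]
    exact ((List.rotate_perm P 1).map _).sum_eq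
  have h4 : ((cyc P).map (fun e => f (cls e.2) - f (cls e.1))).sum = 0 := by
    have : ∀ l : List (V × V), (l.map (fun e => f (cls e.2) - f (cls e.1))).sum =
        (l.map (fun e => f (cls e.2))).sum - (l.map (fun e => f (cls e.1))).sum := by
      intro l
      induction l with
      | nil => simp
      | cons a l ih => simp only [List.map_cons, List.sum_cons, ih]; ring
    rw [this, h3]; ring
  rw [h4] at h2
  have h5 : f (cls e1.1) = 1 := by simp [f]
  have h6 : f (cls e1.2) = 0 := by simp [f, Ne.symm h1]
  rw [h5, h6] at h2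
  norm_num at h2

/-- candidate B: every cycle contains at least two arcs of `U`; the charge is half of the weight
of the arcs of `U` -/
theorem charge_B {C : Type*} [DecidableEq C] (cls : V → C) (w : V → V → ℕ) (F K : List (V × V))
    (hFK : ∀ e ∈ F, cls e.1 = cls e.2 → e ∈ K)
    (hac : ∀ P : List V, P ≠ [] → P.Nodup → ¬ ∀ e ∈ cyc P, e ∈ K) :
    ∀ P : List V, P ≠ [] → P.Nodup → (∀ e ∈ cyc P, e ∈ F) →
      ∀ e0 ∈ cyc P, (∀ e ∈ cyc P, w e0.1 e0.2 ≤ w e.1 e.2) →
      (w e0.1 e0.2 : ℚ) ≤ ((cyc P).map
        (fun e => if cls e.1 = cls e.2 then (0 : ℚ) else (w e.1 e.2 : ℚ) / 2)).sum := by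
  intro P hP hnd hF e0 he0 hmin
  set g : V × V → ℚ := fun e => if cls e.1 = cls e.2 then (0 : ℚ) else (w e.1 e.2 : ℚ) / 2 with hg
  rw [← sum_filter (cyc P) (fun e => decide (cls e.1 ≠ cls e.2))]
  · rcases hl : (cyc P).filter (fun e => decide (cls e.1 ≠ cls e.2)) with _ | ⟨a, _ | ⟨b, l⟩⟩
    · exfalso
      apply hac P hP hnd
      intro e he
      apply hFK e (hF e he)
      by_contra hne
      have : e ∈ (cyc P).filter (fun e => decide (cls e.1 ≠ cls e.2)) :=
        List.mem_filter.2 ⟨he, by simpa using hne⟩
      rw [hl] at this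
      simp at this
    · exact (not_one_change cls P a hl).elim
    · have ha : a ∈ (cyc P).filter (fun e => decide (cls e.1 ≠ cls e.2)) := by rw [hl]; simp
      have hb : b ∈ (cyc P).filter (fun e => decide (cls e.1 ≠ cls e.2)) := by rw [hl]; simp
      have ha' := List.mem_filter.1 ha
      have hb' := List.mem_filter.1 hb
      have hga : g a = (w a.1 a.2 : ℚ) / 2 := by
        have : cls a.1 ≠ cls a.2 := by simpa using ha'.2
        simp [hg, this]
      have hgb : g b = (w b.1 b.2 : ℚ) / 2 := by
        have : cls b.1 ≠ cls b.2 := by simpa using hb'.2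
        simp [hg, this]
      have h1 : (w e0.1 e0.2 : ℚ) ≤ w a.1 a.2 := by exact_mod_cast hmin a ha'.1
      have h2 : (w e0.1 e0.2 : ℚ) ≤ w b.1 b.2 := by exact_mod_cast hmin b hb'.1
      have h3 : 0 ≤ (l.map g).sum := by
        apply List.sum_nonneg
        intro x hx
        rw [List.mem_map] at hx
        obtain ⟨e, _, rfl⟩ := hx
        change (0 : ℚ) ≤ if cls e.1 = cls e.2 then (0 : ℚ) else (w e.1 e.2 : ℚ) / 2
        split_ifs
        · exact le_refl _
        · positivity
      have h4 : ((a :: b :: l).map g).sum = g a + (g b + (l.map g).sum) := by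
        rw [List.map_cons, List.map_cons, List.sum_cons, List.sum_cons]
      rw [hl, h4, hga, hgb]
      linarith
  · intro e _ he
    have : cls e.1 = cls e.2 := by simpa using he
    exact if_pos this

/-- arcs of a map `s` that miss an arc of every orbit contain no cycle -/
theorem acyclic_of_missing (s : V → V) (K : List (V × V)) (hK : ∀ e ∈ K, e.2 = s e.1)
    (hx : ∀ x, ∃ n : ℕ, (s^[n] x, s (s^[n] x)) ∉ K) :
    ∀ P : List V, P ≠ [] → P.Nodup → ¬ ∀ e ∈ cyc P, e ∈ K := by
  intro P hP _ hall
  obtain ⟨x, hxP⟩ := List.exists_mem_of_ne_nil P hP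
  have hcl : ∀ z ∈ P, (z, s z) ∈ cyc P ∧ s z ∈ P := by
    intro z hz
    rw [← map_fst_cyc P, List.mem_map] at hz
    obtain ⟨e, he, rfl⟩ := hz
    have h1 := hK e (hall e he)
    have h2 : (e.1, s e.1) = e := by rw [← h1]
    refine ⟨by rw [h2]; exact he, ?_⟩
    rw [← h1]
    have h3 : e.2 ∈ (cyc P).map Prod.snd := List.mem_map_of_mem he
    rw [map_snd_cyc] at h3
    exact (List.rotate_perm P 1).mem_iff.1 h3
  obtain ⟨n, hn⟩ := hx x
  have hn' : ∀ n : ℕ, s^[n] x ∈ P := by
    intro n
    induction n with
    | zero => exact hxP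
    | succ n ih =>
      rw [Function.iterate_succ_apply']
      exact (hcl _ ih).2
  exact hn (hall _ (hcl _ (hn' n)).1)

end Vale.Agent.P333.M
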