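import Mathlib

/-!
P333, box M, row M3: the weight of a path is bounded by two optimal assignments.
-/

namespace Vale.Agent.P333.M

open Finset

variable {V : Type*} [Fintype V] [DecidableEq V]

/-- weight of a path given as a list of nodes -/
def pathWeight (w : V → V → ℕ) (l : List V) : ℕ := ((l.zip l.tail).map (fun e => w e.1 e.2)).sum

/-- weights of the first assignment problem: the diagonal is zero -/
def w0 (w : V → V → ℕ) (x y : V) : ℕ := if x = y then 0 else w x y

/-- weights of the second assignment problem: only arcs between different cycles of `s1` -/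
def w2 (w : V → V → ℕ) (s1 : Equiv.Perm V) (x y : V) : ℕ := if s1.SameCycle x y then 0 else w x y

/-- twice the sum of the heavier arcs of the two-cycles -/
def twoM1 (w : V → V → ℕ) (s1 : Equiv.Perm V) : ℕ :=
  ∑ x ∈ univ.filter (fun x => s1 x ≠ x ∧ s1 (s1 x) = x), max (w x (s1 x)) (w (s1 x) x)

/-- weight of the two-cycles -/
def wD (w : V → V → ℕ) (s1 : Equiv.Perm V) : ℕ :=
  ∑ x ∈ univ.filter (fun x => s1 x ≠ x ∧ s1 (s1 x) = x), w x (s1 x)

/-- weight of the cycles of length at least three -/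
def wE (w : V → V → ℕ) (s1 : Equiv.Perm V) : ℕ :=
  ∑ x ∈ univ.filter (fun x => s1 (s1 x) ≠ x), w x (s1 x)

omit [Fintype V] in
/-- the arcs of a duplicate-free list as a partial function -/
lemma path_fun [Fintype V] (l : List V) (hl : l.Nodup) :
    ∃ (A : Finset V) (f : V → V), Set.InjOn f A ∧ (∀ x ∈ A, f x ≠ x) ∧
      (∀ x ∈ A, f x ∈ A → f (f x) ≠ x) ∧
      ∀ g : V → V → ℕ, pathWeight g l = ∑ x ∈ A, g x (f x) := by
  classical
  set f : V → V := fun x => if h : l.idxOf x + 1 < l.length then l[l.idxOf x + 1] else x with hf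
  set A : Finset V := univ.filter (fun x => l.idxOf x + 1 < l.length) with hA
  have hA' : ∀ x, x ∈ A ↔ l.idxOf x + 1 < l.length := by intro x; simp [hA]
  have hfx : ∀ x (h : l.idxOf x + 1 < l.length), f x = l[l.idxOf x + 1] := by
    intro x h
    simp only [hf]
    rw [dif_pos h]
  have hidx : ∀ x ∈ A, l.idxOf (f x) = l.idxOf x + 1 := by
    intro x hx
    rw [hA'] at hx
    rw [hfx x hx, hl.idxOf_getElem]
  have hmem : ∀ x ∈ A, x ∈ l := by
    intro x hx
    rw [hA'] at hx
    exact List.idxOf_lt_length_iff.1 (by omega)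
  have hinj : ∀ x ∈ l, ∀ y ∈ l, l.idxOf x = l.idxOf y → x = y := by
    intro x hx y hy h
    have h1 := List.idxOf_lt_length_iff.2 hx
    have h2 := List.idxOf_lt_length_iff.2 hy
    have e1 : l[l.idxOf x] = x := List.getElem_idxOf h1
    have e2 : l[l.idxOf y] = y := List.getElem_idxOf h2
    rw [← e1, ← e2]
    simp only [h]
  refine ⟨A, f, ?_, ?_, ?_, ?_⟩
  · intro x hx y hy hxy
    have h1 := hidx x hx
    have h2 := hidx y hy
    rw [hxy] at h1
    exact hinj x (hmem x hx) y (hmem y hy) (by omega)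
  · intro x hx h
    have h1 := hidx x hx
    rw [h] at h1
    omega
  · intro x hx hx2 h
    have h1 := hidx x hx
    have h2 := hidx _ hx2
    rw [h] at h2
    omega
  · intro g
    unfold pathWeight
    rw [← Fin.sum_univ_getElem]
    refine sum_bij (fun (i : Fin ((l.zip l.tail).map (fun e => g e.1 e.2)).length) _ =>
      l[i.1]'(by
        have := i.2
        simp only [List.length_map, List.length_zip, List.length_tail] at this
        omega)) ?_ ?_ ?_ ?_
    · intro i _
      have h := i.2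
      simp only [List.length_map, List.length_zip, List.length_tail] at h
      rw [hA', hl.idxOf_getElem]
      omega
    · intro i _ j _ hij
      have h := (List.Nodup.getElem_inj_iff hl).1 hij
      exact Fin.ext h
    · intro x hx
      have hxl := (hA' x).1 hx
      refine ⟨⟨l.idxOf x, ?_⟩, mem_univ _, ?_⟩
      · simp only [List.length_map, List.length_zip, List.length_tail]
        omega
      · exact List.getElem_idxOf _
    · intro i _
      have h := i.2
      simp only [List.length_map, List.length_zip, List.length_tail] at h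
      have h1 : l.idxOf (l[i.1]'(by omega)) = i.1 := hl.idxOf_getElem i.1 (by omega)
      have h2 : f (l[i.1]'(by omega)) = l[i.1 + 1]'(by omega) := by
        rw [hfx _ (by rw [h1]; omega)]
        simp only [h1]
      rw [h2]
      simp

omit [Fintype V] in
/-- extension of a partial injection to a permutation equal to `s` off `U` -/
lemma extend [Fintype V] (U A : Finset V) (s : Equiv.Perm V) (hU : ∀ x, x ∈ U ↔ s x ∈ U)
    (hA : A ⊆ U) (f : V → V) (hf : Set.InjOn f A) (hfU : ∀ x ∈ A, f x ∈ U) :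
    ∃ r : Equiv.Perm V, (∀ x ∈ A, r x = f x) ∧ ∀ x, x ∉ U → r x = s x := by
  classical
  have hcard : Fintype.card (↥U) = U.card := Fintype.card_coe U
  obtain ⟨g, hg⟩ := Finset.exists_equiv_extend_of_card_eq (t := U) hcard
    (s := univ.filter (fun x : ↥U => x.1 ∈ A)) (f := fun x => f x.1) (by
      intro y hy
      rw [mem_image] at hy
      obtain ⟨x, hx, rfl⟩ := hy
      rw [mem_filter] at hx
      exact hfU x.1 hx.2) (by
      intro x hx y hy hxy
      simp only [coe_filter, mem_univ, true_and, Set.mem_ofPred_eq] at hx hy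
      exact Subtype.ext (hf hx hy hxy))
  set r : V → V := fun x => if h : x ∈ U then (g ⟨x, h⟩).1 else s x with hr
  have hrU : ∀ x (h : x ∈ U), r x = (g ⟨x, h⟩).1 := by
    intro x h; simp only [hr]; rw [dif_pos h]
  have hrN : ∀ x, x ∉ U → r x = s x := by
    intro x h; simp only [hr]; rw [dif_neg h]
  have hinj : Function.Injective r := by
    intro x y hxy
    by_cases hx : x ∈ U <;> by_cases hy : y ∈ U
    · rw [hrU x hx, hrU y hy] at hxy
      have := g.injective (Subtype.ext hxy)
      exact congrArg Subtype.val this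
    · rw [hrU x hx, hrN y hy] at hxy
      exact absurd ((hU y).2 (hxy ▸ (g ⟨x, hx⟩).2)) hy
    · rw [hrN x hx, hrU y hy] at hxy
      exact absurd ((hU x).2 (hxy ▸ (g ⟨y, hy⟩).2)) hx
    · rw [hrN x hx, hrN y hy] at hxy
      exact s.injective hxy
  refine ⟨Equiv.ofBijective r (Finite.injective_iff_bijective.1 hinj), ?_, ?_⟩
  · intro x hx
    rw [Equiv.ofBijective_apply, hrU x (hA hx)]
    exact hg ⟨x, hA hx⟩ (by simpa using hx)
  · intro x hx
    rw [Equiv.ofBijective_apply, hrN x hx]

lemma sum_w0 (w : V → V → ℕ) (s1 : Equiv.Perm V) :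
    ∑ x, w0 w x (s1 x) = wD w s1 + wE w s1 := by
  classical
  unfold wD wE
  rw [← sum_filter_add_sum_filter_not univ (fun x => s1 (s1 x) = x)]
  congr 1
  · rw [sum_filter, sum_filter]
    apply sum_congr rfl
    intro x _
    by_cases h1 : s1 (s1 x) = x
    · by_cases h2 : s1 x = x
      · simp [h1, h2, w0]
      · have : ¬ x = s1 x := fun h => h2 h.symm
        simp [h1, h2, w0, this]
    · simp [h1]
  · apply sum_congr rfl
    intro x hx
    rw [mem_filter] at hx
    unfold w0
    rw [if_neg]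
    intro h
    apply hx.2
    rw [← h, ← h]

/-- (a) -/
theorem pathWeight_le_C1 (w : V → V → ℕ) (s1 : Equiv.Perm V)
    (h1 : ∀ t : Equiv.Perm V, ∑ x, w0 w x (t x) ≤ ∑ x, w0 w x (s1 x)) (l : List V)
    (hl : l.Nodup) : pathWeight w l ≤ wD w s1 + wE w s1 := by
  classical
  obtain ⟨A, f, hf, hne, _, hsum⟩ := path_fun l hl
  obtain ⟨r, hr, _⟩ := extend univ A s1 (fun x => by simp) (subset_univ _) f hf
    (fun x _ => mem_univ _)
  rw [← sum_w0, hsum w]
  refine le_trans ?_ (h1 r)
  calc ∑ x ∈ A, w x (f x) = ∑ x ∈ A, w0 w x (r x) := by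
        apply sum_congr rfl
        intro x hx
        rw [hr x hx]
        unfold w0
        rw [if_neg (fun h => hne x hx h.symm)]
    _ ≤ ∑ x, w0 w x (r x) := sum_le_sum_of_subset (subset_univ _)

lemma sameCycle_two {s1 : Equiv.Perm V} {x y : V} (h2 : s1 (s1 x) = x) (h : s1.SameCycle x y)
    (hne : y ≠ x) : y = s1 x := by
  obtain ⟨i, hi⟩ := h
  have h3 : (s1 ^ 2) x = x := by rw [pow_two, Equiv.Perm.mul_apply, h2]
  have h4 : ∀ j : ℤ, (s1 ^ (2 * j)) x = x := by
    intro j
    have : (s1 ^ (2 * j)) x = ((s1 ^ 2) ^ j) x := by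
      rw [zpow_mul]; norm_cast
    rw [this]
    exact Equiv.Perm.zpow_apply_eq_self_of_apply_eq_self h3 j
  rcases Int.even_or_odd' i with ⟨j, rfl | rfl⟩
  · rw [h4 j] at hi
    exact absurd hi.symm hne
  · have : (s1 ^ (2 * j + 1)) x = s1 x := by
      rw [add_comm, zpow_add, zpow_one, Equiv.Perm.mul_apply, h4 j]
    rw [← hi, this]

lemma sameCycle_long {s1 : Equiv.Perm V} {x y : V} (h2 : s1 (s1 x) ≠ x)
    (h : s1.SameCycle x y) : s1 (s1 y) ≠ y := by
  intro hy
  obtain ⟨i, hi⟩ := h.symm
  apply h2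
  rw [← hi]
  have e : ∀ z, s1 (s1 z) = (s1 ^ (2 : ℤ)) z := by
    intro z
    rw [show (2 : ℤ) = 1 + 1 from rfl, zpow_add, zpow_one, Equiv.Perm.mul_apply]
  rw [e, ← Equiv.Perm.mul_apply, ← zpow_add, add_comm, zpow_add, Equiv.Perm.mul_apply, ← e, hy]

/-- (b): the second assignment problem -/
theorem path_le (w : V → V → ℕ) (s1 s2 : Equiv.Perm V)
    (h1 : ∀ t : Equiv.Perm V, ∑ x, w0 w x (t x) ≤ ∑ x, w0 w x (s1 x))
    (h2 : ∀ t : Equiv.Perm V, ∑ x, w2 w s1 x (t x) ≤ ∑ x, w2 w s1 x (s2 x))
    (l : List V) (hl : l.Nodup) :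
    2 * pathWeight w l ≤ 2 * ∑ x, w2 w s1 x (s2 x) + twoM1 w s1 + 2 * wE w s1 := by
  classical
  obtain ⟨A, f, hf, hne, hno, hsum⟩ := path_fun l hl
  rw [hsum w]
  -- split
  set Ai : Finset V := A.filter (fun x => ¬ s1.SameCycle x (f x)) with hAi
  set Ap : Finset V := A.filter (fun x => s1.SameCycle x (f x) ∧ s1 (s1 x) = x) with hAp
  set Al : Finset V := A.filter (fun x => s1.SameCycle x (f x) ∧ s1 (s1 x) ≠ x) with hAl
  have hsplit : ∑ x ∈ A, w x (f x) =
      ∑ x ∈ Ai, w x (f x) + ∑ x ∈ Ap, w x (f x) + ∑ x ∈ Al, w x (f x) := by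
    rw [hAi, hAp, hAl, sum_filter, sum_filter, sum_filter, ← sum_add_distrib, ← sum_add_distrib]
    apply sum_congr rfl
    intro x _
    by_cases ha : s1.SameCycle x (f x) <;> by_cases hb : s1 (s1 x) = x <;> simp [ha, hb]
  -- arcs between different cycles
  have hi : ∑ x ∈ Ai, w x (f x) ≤ ∑ x, w2 w s1 x (s2 x) := by
    obtain ⟨r, hr, _⟩ := extend univ A s1 (fun x => by simp) (subset_univ _) f hf
      (fun x _ => mem_univ _)
    refine le_trans ?_ (h2 r)
    calc ∑ x ∈ Ai, w x (f x) = ∑ x ∈ Ai, w2 w s1 x (r x) := by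
          apply sum_congr rfl
          intro x hx
          rw [hAi, mem_filter] at hx
          rw [hr x hx.1]
          unfold w2
          rw [if_neg hx.2]
      _ ≤ ∑ x, w2 w s1 x (r x) := sum_le_sum_of_subset (subset_univ _)
  -- long cycles
  have hlng : ∑ x ∈ Al, w x (f x) ≤ wE w s1 := by
    set U : Finset V := univ.filter (fun x => s1 (s1 x) ≠ x) with hU
    have hAlU : Al ⊆ U := by
      intro x hx
      rw [hAl, mem_filter] at hx
      rw [hU, mem_filter]
      exact ⟨mem_univ _, hx.2.2⟩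
    have hAlA : Al ⊆ A := filter_subset _ _
    obtain ⟨r, hr, hr'⟩ := extend U Al s1 (fun x => by
        rw [hU, mem_filter, mem_filter]
        simp only [mem_univ, true_and]
        exact not_congr ⟨fun h => by rw [h], fun h => s1.injective h⟩) hAlU f
      (fun x hx y hy h => hf (hAlA hx) (hAlA hy) h) (fun x hx => by
        rw [hAl, mem_filter] at hx
        rw [hU, mem_filter]
        exact ⟨mem_univ _, sameCycle_long hx.2.2 hx.2.1⟩)
    have hle := h1 r
    rw [← sum_filter_add_sum_filter_not univ (fun x => s1 (s1 x) ≠ x) (fun x => w0 w x (r x)),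
      ← sum_filter_add_sum_filter_not univ (fun x => s1 (s1 x) ≠ x)
        (fun x => w0 w x (s1 x))] at hle
    have heq : ∑ x ∈ univ.filter (fun x => ¬ (s1 (s1 x) ≠ x)), w0 w x (r x) =
        ∑ x ∈ univ.filter (fun x => ¬ (s1 (s1 x) ≠ x)), w0 w x (s1 x) := by
      apply sum_congr rfl
      intro x hx
      rw [hr' x (by rw [hU, mem_filter]; rw [mem_filter] at hx; exact fun h => hx.2 h.2)]
    rw [heq] at hle
    have hle' : ∑ x ∈ U, w0 w x (r x) ≤ ∑ x ∈ U, w0 w x (s1 x) := by
      rw [hU]; omega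
    calc ∑ x ∈ Al, w x (f x) = ∑ x ∈ Al, w0 w x (r x) := by
          apply sum_congr rfl
          intro x hx
          rw [hr x hx]
          unfold w0
          rw [if_neg (fun h => hne x (hAlA hx) h.symm)]
      _ ≤ ∑ x ∈ U, w0 w x (r x) := sum_le_sum_of_subset hAlU
      _ ≤ ∑ x ∈ U, w0 w x (s1 x) := hle'
      _ ≤ wE w s1 := by
          unfold wE
          apply sum_le_sum
          intro x _
          unfold w0
          split_ifs
          · exact Nat.zero_le _
          · exact le_rfl
  -- pairs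
  have hp : 2 * ∑ x ∈ Ap, w x (f x) ≤ twoM1 w s1 := by
    set m : V → ℕ := fun x => max (w x (s1 x)) (w (s1 x) x) with hm
    have hAp' : ∀ x ∈ Ap, x ∈ A ∧ f x = s1 x ∧ s1 (s1 x) = x ∧ s1 x ≠ x := by
      intro x hx
      rw [hAp, mem_filter] at hx
      have h3 := sameCycle_two hx.2.2 hx.2.1 (hne x hx.1)
      exact ⟨hx.1, h3, hx.2.2, fun h => hne x hx.1 (h3.trans h)⟩
    have hdisj : Disjoint Ap (Ap.image s1) := by
      rw [disjoint_left]
      intro x hx hx'
      rw [mem_image] at hx'
      obtain ⟨y, hy, rfl⟩ := hx'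
      obtain ⟨a1, a2, a3, a4⟩ := hAp' y hy
      obtain ⟨b1, b2, b3, b4⟩ := hAp' _ hx
      apply hno y a1
      · rw [a2]; exact b1
      · rw [a2, b2, a3]
    calc 2 * ∑ x ∈ Ap, w x (f x) ≤ 2 * ∑ x ∈ Ap, m x := by
          apply Nat.mul_le_mul_left
          apply sum_le_sum
          intro x hx
          rw [(hAp' x hx).2.1]
          exact le_max_left _ _
      _ = ∑ x ∈ Ap, m x + ∑ x ∈ Ap.image s1, m x := by
          rw [sum_image (fun x _ y _ h => s1.injective h), two_mul]
          congr 1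
          apply sum_congr rfl
          intro x hx
          simp only [hm]
          rw [(hAp' x hx).2.2.1, max_comm]
      _ = ∑ x ∈ Ap ∪ Ap.image s1, m x := (sum_union hdisj).symm
      _ ≤ twoM1 w s1 := by
          unfold twoM1
          apply sum_le_sum_of_subset
          intro x hx
          rw [mem_union, mem_image] at hx
          rw [mem_filter]
          refine ⟨mem_univ _, ?_⟩
          rcases hx with hx | ⟨y, hy, rfl⟩
          · exact ⟨(hAp' x hx).2.2.2, (hAp' x hx).2.2.1⟩
          · refine ⟨fun h => (hAp' y hy).2.2.2 (s1.injective h), ?_⟩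
            rw [(hAp' y hy).2.2.1]
  rw [hsplit]
  omega

/-- (c) -/
theorem wD_le (w : V → V → ℕ) (s1 : Equiv.Perm V) : wD w s1 ≤ twoM1 w s1 := by
  unfold wD twoM1
  exact sum_le_sum (fun x _ => le_max_left _ _)

end Vale.Agent.P333.M
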