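import Vale.Agent.P333.M.Prog
import Vale.Agent.P333.M.CoverIneq
import Vale.Agent.P333.M.Charge

/-!
P333, box M: the first candidate (all cycles of the first assignment, opened at their lightest
arcs).
-/

namespace Vale.Agent.P333.M

open List

theorem sum_range_filter {β : Type*} [AddCommMonoid β] (n : ℕ) (q : ℕ → Prop) [DecidablePred q]
    (h : ℕ → β) :
    (((List.range n).filter (fun x => decide (q x))).map h).sum =
      ∑ i : Fin n, if q i then h i else 0 := by
  rw [← Finset.sum_range (fun i => if q i then h i else 0)]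
  induction n with
  | zero => simp
  | succ n ih =>
    rw [List.range_succ, List.filter_append, List.map_append, List.sum_append, ih,
      Finset.sum_range_succ]
    congr 1
    by_cases hq : q n <;> simp [hq]

theorem nodup_cyc {V : Type*} {P : List V} (h : P.Nodup) : (cyc P).Nodup := by
  have : ((cyc P).map Prod.fst).Nodup := by rw [map_fst_cyc]; exact h
  exact this.of_map _

/-- arcs of a cycle of a map -/
theorem cyc_closed {V : Type*} (s : V → V) (P : List V) (hP : ∀ e ∈ cyc P, e.2 = s e.1) :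
    ∀ z ∈ P, (z, s z) ∈ cyc P ∧ s z ∈ P := by
  intro z hz
  rw [← map_fst_cyc P, List.mem_map] at hz
  obtain ⟨e, he, rfl⟩ := hz
  have h1 := hP e he
  have h2 : (e.1, s e.1) = e := by rw [← h1]
  refine ⟨by rw [h2]; exact he, ?_⟩
  rw [← h1]
  have h3 : e.2 ∈ (cyc P).map Prod.snd := List.mem_map_of_mem he
  rw [map_snd_cyc] at h3
  exact (List.rotate_perm P 1).mem_iff.1 h3

/-- the charge of the first candidate -/
def gA (w : ℕ → ℕ → ℕ) (p : List ℕ) (e : ℕ × ℕ) : ℚ :=
  if nx p e.2 = e.1 then (min (w e.1 e.2) (w e.2 e.1) : ℕ) / 2 else (w e.1 e.2 : ℚ) / 3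

theorem gA_nonneg (w : ℕ → ℕ → ℕ) (p : List ℕ) (e : ℕ × ℕ) : 0 ≤ gA w p e := by
  unfold gA
  split_ifs <;> positivity

theorem charge_A (w : ℕ → ℕ → ℕ) (n : ℕ) (p : List ℕ) :
    ∀ P : List ℕ, P ≠ [] → P.Nodup → (∀ e ∈ cyc P, e ∈ arcsA n p) →
      ∀ e0 ∈ cyc P, (∀ e ∈ cyc P, w e0.1 e0.2 ≤ w e.1 e.2) →
      (w e0.1 e0.2 : ℚ) ≤ ((cyc P).map (gA w p)).sum := by
  intro P hP hnd hF e0 he0 hmin
  have hA : ∀ e ∈ cyc P, e.2 = nx p e.1 ∧ nx p e.1 ≠ e.1 := by
    intro e he
    have := hF e he
    unfold arcsA at this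
    simp only [List.mem_map, List.mem_filter, decide_eq_true_eq] at this
    obtain ⟨x, ⟨_, hx⟩, rfl⟩ := this
    exact ⟨rfl, hx⟩
  have hcl := cyc_closed (nx p) P (fun e he => (hA e he).1)
  have hsum : ((cyc P).map (gA w p)).sum = ∑ e ∈ (cyc P).toFinset, gA w p e := by
    rw [List.sum_toFinset _ (nodup_cyc hnd)]
  rw [hsum]
  obtain ⟨x, hx⟩ := List.exists_mem_of_ne_nil P hP
  have h1 := hcl x hx
  have h2 := hcl _ h1.2
  have h3 := hcl _ h2.2
  have n1 := (hA _ h1.1).2
  have n2 := (hA _ h2.1).2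
  have n3 := (hA _ h3.1).2
  have l1 : (w e0.1 e0.2 : ℚ) ≤ w x (nx p x) := by exact_mod_cast hmin _ h1.1
  have l2 : (w e0.1 e0.2 : ℚ) ≤ w (nx p x) (nx p (nx p x)) := by exact_mod_cast hmin _ h2.1
  have l3 : (w e0.1 e0.2 : ℚ) ≤ w (nx p (nx p x)) (nx p (nx p (nx p x))) := by
    exact_mod_cast hmin _ h3.1
  by_cases hpair : ∃ y ∈ P, nx p (nx p y) = y
  · obtain ⟨y, hy, hyy⟩ := hpair
    have k1 := hcl y hy
    have k2 := hcl _ k1.2
    have m1 := (hA _ k1.1).2
    simp only at m1
    rw [hyy] at k2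
    have r1 : w e0.1 e0.2 ≤ w y (nx p y) := hmin _ k1.1
    have r2 : w e0.1 e0.2 ≤ w (nx p y) y := hmin _ k2.1
    have hsub : ({(y, nx p y), (nx p y, y)} : Finset (ℕ × ℕ)) ⊆ (cyc P).toFinset := by
      intro e he
      rw [Finset.mem_insert, Finset.mem_singleton] at he
      rcases he with rfl | rfl
      · exact List.mem_toFinset.2 k1.1
      · exact List.mem_toFinset.2 k2.1
    refine le_trans ?_ (Finset.sum_le_sum_of_subset_of_nonneg hsub
      (fun e _ _ => gA_nonneg w p e))
    rw [Finset.sum_pair (by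
      intro h
      exact m1 (congrArg Prod.fst h).symm)]
    unfold gA
    simp only
    rw [if_pos hyy, if_pos trivial, min_comm (w (nx p y) y) (w y (nx p y))]
    have : (w e0.1 e0.2 : ℚ) ≤ (min (w y (nx p y)) (w (nx p y) y) : ℕ) := by
      exact_mod_cast le_min r1 r2
    linarith
  · push Not at hpair
    have hg : ∀ z ∈ P, gA w p (z, nx p z) = (w z (nx p z) : ℚ) / 3 := by
      intro z hz
      unfold gA
      simp only
      rw [if_neg (hpair z hz)]
    have hsub : ({(x, nx p x), (nx p x, nx p (nx p x)),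
        (nx p (nx p x), nx p (nx p (nx p x)))} : Finset (ℕ × ℕ)) ⊆ (cyc P).toFinset := by
      intro e he
      rw [Finset.mem_insert, Finset.mem_insert, Finset.mem_singleton] at he
      rcases he with rfl | rfl | rfl
      · exact List.mem_toFinset.2 h1.1
      · exact List.mem_toFinset.2 h2.1
      · exact List.mem_toFinset.2 h3.1
    refine le_trans ?_ (Finset.sum_le_sum_of_subset_of_nonneg hsub
      (fun e _ _ => gA_nonneg w p e))
    have d1 : x ≠ nx p x := fun h => n1 h.symm
    have d2 : x ≠ nx p (nx p x) := fun h => hpair x hx h.symm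
    have d3 : nx p x ≠ nx p (nx p x) := fun h => n2 h.symm
    rw [Finset.sum_insert, Finset.sum_insert, Finset.sum_singleton, hg x hx, hg _ h1.2,
      hg _ h2.2]
    · linarith
    · rw [Finset.mem_singleton]
      intro h
      exact d3 (congrArg Prod.fst h)
    · rw [Finset.mem_insert, Finset.mem_singleton]
      rintro (h | h)
      · exact d1 (congrArg Prod.fst h)
      · exact d2 (congrArg Prod.fst h)

theorem sum_arcsA {β : Type*} [AddCommMonoid β] (n : ℕ) (p : List ℕ) (s : Equiv.Perm (Fin n))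
    (hs : ∀ i : Fin n, p.getD i 0 = s i) (h : ℕ × ℕ → β) :
    ((arcsA n p).map h).sum = ∑ i : Fin n, if s i = i then 0 else h (i, s i) := by
  unfold arcsA
  rw [List.map_map]
  rw [sum_range_filter n (fun x => nx p x ≠ x)]
  apply Finset.sum_congr rfl
  intro i _
  have h1 : nx p i = s i := hs i
  have h2 : (nx p i ≠ i) ↔ ¬ (s i = i) := by rw [h1, Ne, Fin.val_inj]
  by_cases h3 : s i = i
  · rw [if_neg (by rw [h2]; exact fun h => h h3), if_pos h3]
  · rw [if_pos (h2.2 h3), if_neg h3]
    simp only [Function.comp, h1]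

theorem arcsA_fst (n : ℕ) (p : List ℕ) : ((arcsA n p).map Prod.fst).Nodup := by
  unfold arcsA
  rw [List.map_map]
  have : (Prod.fst ∘ fun x : ℕ => (x, nx p x)) = id := rfl
  rw [this, List.map_id]
  exact List.nodup_range.filter _

theorem arcsA_snd (n : ℕ) (p : List ℕ) (s : Equiv.Perm (Fin n))
    (hs : ∀ i : Fin n, p.getD i 0 = s i) : ((arcsA n p).map Prod.snd).Nodup := by
  unfold arcsA
  rw [List.map_map]
  apply List.Nodup.map_on _ (List.nodup_range.filter _)
  intro x hx y hy hxy
  have hx' := List.mem_range.1 (List.mem_filter.1 hx).1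
  have hy' := List.mem_range.1 (List.mem_filter.1 hy).1
  simp only [Function.comp] at hxy
  have e1 : nx p x = s ⟨x, hx'⟩ := hs ⟨x, hx'⟩
  have e2 : nx p y = s ⟨y, hy'⟩ := hs ⟨y, hy'⟩
  rw [e1, e2] at hxy
  have := s.injective (Fin.val_injective hxy)
  exact congrArg Fin.val this

theorem candA (w : ℕ → ℕ → ℕ) (n : ℕ) (p : List ℕ) (s : Equiv.Perm (Fin n))
    (hs : ∀ i : Fin n, p.getD i 0 = s i) :
    (breakF w (List.range n) (arcsA n p)).Perm (List.range n) ∧
    3 * twoM1 (fun i j : Fin n => w i j) s + 4 * wE (fun i j : Fin n => w i j) s ≤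
      6 * pw w (breakF w (List.range n) (arcsA n p)) := by
  have hspec := breakF_spec w (List.range n) List.nodup_range (arcsA n p) (arcsA_fst n p)
    (arcsA_snd n p s hs) (by
      intro e he
      unfold arcsA at he
      simp only [List.mem_map, List.mem_filter, decide_eq_true_eq] at he
      obtain ⟨x, ⟨hx, _⟩, rfl⟩ := he
      refine ⟨hx, ?_⟩
      have hx' := List.mem_range.1 hx
      have e1 : nx p x = s ⟨x, hx'⟩ := hs ⟨x, hx'⟩
      rw [e1, List.mem_range]
      exact Fin.is_lt _) (gA w p) (fun e _ => gA_nonneg w p e) (charge_A w n p)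
  refine ⟨hspec.1, ?_⟩
  have h := hspec.2
  have e1 : ((arcsA n p).map (fun e => w e.1 e.2)).sum =
      wD (fun i j : Fin n => w i j) s + wE (fun i j : Fin n => w i j) s := by
    rw [sum_arcsA n p s hs, ← sum_w0]
    apply Finset.sum_congr rfl
    intro i _
    unfold w0
    by_cases h3 : s i = i
    · rw [if_pos h3, if_pos h3.symm]
    · rw [if_neg h3, if_neg (fun h => h3 h.symm)]
  -- the charges
  set m : Fin n → ℕ := fun i => min (w i (s i)) (w (s i) i) with hm
  have e2 : ((arcsA n p).map (gA w p)).sum =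
      (∑ i ∈ Finset.univ.filter (fun i => s i ≠ i ∧ s (s i) = i), (m i : ℚ)) / 2 +
        (wE (fun i j : Fin n => w i j) s : ℚ) / 3 := by
    rw [sum_arcsA n p s hs]
    unfold wE
    push_cast
    rw [Finset.sum_div, Finset.sum_div, Finset.sum_filter, Finset.sum_filter,
      ← Finset.sum_add_distrib]
    apply Finset.sum_congr rfl
    intro i _
    have h1 : nx p (s i : Fin n) = s (s i) := hs (s i)
    unfold gA
    simp only [h1]
    by_cases h3 : s i = i
    · simp [h3]
    · by_cases h4 : s (s i) = i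
      · have h5 : ((s (s i) : Fin n) : ℕ) = i := by rw [h4]
        simp [h3, h4, hm]
      · have h5 : ¬ ((s (s i) : Fin n) : ℕ) = i := by rw [Fin.val_inj]; exact h4
        simp [h3, h4, h5]
  have e3 : ∑ i ∈ Finset.univ.filter (fun i => s i ≠ i ∧ s (s i) = i), m i +
      twoM1 (fun i j : Fin n => w i j) s = 2 * wD (fun i j : Fin n => w i j) s := by
    have hre : ∑ i ∈ Finset.univ.filter (fun i => s i ≠ i ∧ s (s i) = i), w (s i) i =
        wD (fun i j : Fin n => w i j) s := by
      unfold wD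
      refine Finset.sum_bij (fun i _ => s i) ?_ ?_ ?_ ?_
      · intro i hi
        rw [Finset.mem_filter] at hi ⊢
        refine ⟨Finset.mem_univ _, fun h => hi.2.1 (s.injective h), ?_⟩
        rw [hi.2.2]
      · intro i _ j _ hij
        exact s.injective hij
      · intro i hi
        rw [Finset.mem_filter] at hi
        refine ⟨s i, ?_, hi.2.2⟩
        rw [Finset.mem_filter]
        refine ⟨Finset.mem_univ _, fun h => hi.2.1 (s.injective h), ?_⟩
        rw [hi.2.2]
      · intro i hi
        rw [Finset.mem_filter] at hi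
        simp only [hi.2.2]
    rw [two_mul]
    nth_rw 2 [← hre]
    unfold twoM1 wD
    rw [← Finset.sum_add_distrib, ← Finset.sum_add_distrib]
    apply Finset.sum_congr rfl
    intro i _
    simp only [hm]
    exact min_add_max _ _
  rw [e2] at h
  have h' : (((arcsA n p).map (fun e => w e.1 e.2)).sum : ℚ) =
      (wD (fun i j : Fin n => w i j) s : ℚ) + (wE (fun i j : Fin n => w i j) s : ℚ) := by
    exact_mod_cast e1
  rw [h'] at h
  have e3' : (∑ i ∈ Finset.univ.filter (fun i => s i ≠ i ∧ s (s i) = i), (m i : ℚ)) +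
      (twoM1 (fun i j : Fin n => w i j) s : ℚ) =
      2 * (wD (fun i j : Fin n => w i j) s : ℚ) := by
    exact_mod_cast e3
  have : (3 * (twoM1 (fun i j : Fin n => w i j) s : ℚ) +
      4 * (wE (fun i j : Fin n => w i j) s : ℚ)) ≤
      6 * (pw w (breakF w (List.range n) (arcsA n p)) : ℚ) := by
    linarith
  exact_mod_cast this

end Vale.Agent.P333.M
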