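import Vale.Agent.P333.M.Round
import Vale.Agent.P333.M.Charge

/-!
P333, box M: the second candidate (kept arcs of the first assignment and usable arcs of the
second one).
-/

namespace Vale.Agent.P333.M

open List

namespace CandB

variable {n : ℕ} {p1 p2 q : List ℕ}

lemma mem_K {e : ℕ × ℕ} : e ∈ arcsK n p1 q ↔ e.1 < n ∧ e.2 = nx p1 e.1 ∧ kq n p1 q e.1 = 2 := by
  unfold arcsK
  rw [List.mem_map]
  constructor
  · rintro ⟨x, hx, rfl⟩
    rw [List.mem_filter] at hx
    simp only [List.mem_range, decide_eq_true_eq] at hx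
    exact ⟨hx.1, rfl, hx.2⟩
  · rintro ⟨h1, h2, h3⟩
    refine ⟨e.1, ?_, ?_⟩
    · rw [List.mem_filter]
      simp only [List.mem_range, decide_eq_true_eq]
      exact ⟨h1, h3⟩
    · rw [← h2]

lemma mem_L {e : ℕ × ℕ} : e ∈ arcsL n p1 p2 q ↔ e.1 < n ∧ e.2 = nx p2 e.1 ∧
    rep n p1 e.1 ≠ rep n p1 (nx p2 e.1) ∧ kq n p1 q e.1 = 0 ∧
    kq n p1 q (p1.idxOf (nx p2 e.1)) = 0 := by
  unfold arcsL
  rw [List.mem_map]
  constructor
  · rintro ⟨x, hx, rfl⟩
    rw [List.mem_filter] at hx
    simp only [List.mem_range, decide_eq_true_eq] at hx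
    exact ⟨hx.1, rfl, hx.2.1, hx.2.2.1, hx.2.2.2⟩
  · rintro ⟨h1, h2, h3, h4, h5⟩
    refine ⟨e.1, ?_, ?_⟩
    · rw [List.mem_filter]
      simp only [List.mem_range, decide_eq_true_eq]
      exact ⟨h1, h3, h4, h5⟩
    · rw [← h2]

lemma idx_nx (h1 : p1 ~ List.range n) {x : ℕ} (hx : x < n) : p1.idxOf (nx p1 x) = x :=
  Round.nx_inj h1 (Round.idx_lt h1 (Round.nx_lt h1 hx)) hx
    (Round.nx_idx h1 (Round.nx_lt h1 hx))

lemma fst_nodup : ((arcsK n p1 q ++ arcsL n p1 p2 q).map Prod.fst).Nodup := by
  rw [List.map_append, List.nodup_append]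
  refine ⟨?_, ?_, ?_⟩
  · unfold arcsK
    rw [List.map_map]
    exact List.Nodup.map_on (fun x _ y _ h => h) (List.nodup_range.filter _)
  · unfold arcsL
    rw [List.map_map]
    exact List.Nodup.map_on (fun x _ y _ h => h) (List.nodup_range.filter _)
  · intro a ha b hb hab
    rw [List.mem_map] at ha hb
    obtain ⟨e, he, rfl⟩ := ha
    obtain ⟨f, hf, rfl⟩ := hb
    rw [mem_K] at he
    rw [mem_L] at hf
    have h1 := he.2.2
    have h2 := hf.2.2.2.1
    rw [hab] at h1
    omega

lemma snd_nodup (h1 : p1 ~ List.range n) (h2 : p2 ~ List.range n) :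
    ((arcsK n p1 q ++ arcsL n p1 p2 q).map Prod.snd).Nodup := by
  rw [List.map_append, List.nodup_append]
  refine ⟨?_, ?_, ?_⟩
  · unfold arcsK
    rw [List.map_map]
    refine List.Nodup.map_on ?_ (List.nodup_range.filter _)
    intro x hx y hy h
    have hx' : x < n := by simpa using (List.mem_filter.1 hx).1
    have hy' : y < n := by simpa using (List.mem_filter.1 hy).1
    exact Round.nx_inj h1 hx' hy' h
  · unfold arcsL
    rw [List.map_map]
    refine List.Nodup.map_on ?_ (List.nodup_range.filter _)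
    intro x hx y hy h
    have hx' : x < n := by simpa using (List.mem_filter.1 hx).1
    have hy' : y < n := by simpa using (List.mem_filter.1 hy).1
    exact Round.nx_inj h2 hx' hy' h
  · intro a ha b hb hab
    rw [List.mem_map] at ha hb
    obtain ⟨e, he, rfl⟩ := ha
    obtain ⟨f, hf, rfl⟩ := hb
    rw [mem_K] at he
    rw [mem_L] at hf
    have h3 := he.2.2
    have h4 := hf.2.2.2.2
    rw [← hf.2.1, ← hab, he.2.1, idx_nx h1 he.1] at h4
    omega

lemma arcs_lt (h1 : p1 ~ List.range n) (h2 : p2 ~ List.range n) :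
    ∀ e ∈ arcsK n p1 q ++ arcsL n p1 p2 q, e.1 ∈ List.range n ∧ e.2 ∈ List.range n := by
  intro e he
  rw [List.mem_range, List.mem_range]
  rw [List.mem_append, mem_K, mem_L] at he
  rcases he with he | he
  · exact ⟨he.1, by rw [he.2.1]; exact Round.nx_lt h1 he.1⟩
  · exact ⟨he.1, by rw [he.2.1]; exact Round.nx_lt h2 he.1⟩

/-- every cycle has an arc that is not kept -/
lemma missing (h1 : p1 ~ List.range n) (hq : ∀ k, q.getD k 0 = 0 ∨ q.getD k 0 = 2) (x : ℕ) :
    ∃ k : ℕ, ((nx p1)^[k] x, nx p1 ((nx p1)^[k] x)) ∉ arcsK n p1 q := by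
  by_cases hx : x < n
  · by_cases hf : nx p1 x = x
    · refine ⟨0, ?_⟩
      rw [mem_K]
      rintro ⟨_, _, h⟩
      simp only [Function.iterate_zero, id_eq] at h
      unfold kq at h
      rw [if_pos hf] at h
      omega
    · obtain ⟨i, hi⟩ := Round.rep_mem n p1 x
      have hr := Round.rep_lt h1 hx
      -- the representative is not a fixed point
      have hrr : rep n p1 (rep n p1 x) = rep n p1 x := by
        rw [hi]
        have : ∀ k, rep n p1 ((nx p1)^[k] x) = rep n p1 x := by
          intro k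
          induction k with
          | zero => rfl
          | succ k ih =>
            rw [Function.iterate_succ_apply', Round.rep_nx h1 (Round.iter_lt h1 hx k), ih]
        rw [this i, hi]
      have hrf : nx p1 (rep n p1 x) ≠ rep n p1 x := by
        intro e
        obtain ⟨d, hd0, hdn, hd⟩ := Round.exists_period h1 hx
        have h5 : (nx p1)^[d * i - i] ((nx p1)^[i] x) = x := by
          rw [← Function.iterate_add_apply, Nat.sub_add_cancel (Nat.le_mul_of_pos_left i hd0)]
          exact Function.IsPeriodicPt.mul_const hd i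
        rw [← hi, Function.iterate_fixed e] at h5
        rw [h5] at e
        exact hf e
      rcases hq (rep n p1 x) with h0 | h0
      · refine ⟨i, ?_⟩
        rw [← hi, mem_K]
        rintro ⟨_, _, h⟩
        unfold kq at h
        rw [if_neg hrf, if_pos hrr, hrr, h0] at h
        omega
      · refine ⟨i + 1, ?_⟩
        rw [Function.iterate_succ_apply', ← hi, mem_K]
        rintro ⟨_, _, h⟩
        have h6 : rep n p1 (nx p1 (rep n p1 x)) = rep n p1 x := by
          rw [Round.rep_nx h1 hr, hrr]
        have h7 : nx p1 (nx p1 (rep n p1 x)) ≠ nx p1 (rep n p1 x) := by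
          intro e
          exact hrf (Round.nx_inj h1 (Round.nx_lt h1 hr) hr e)
        unfold kq at h
        simp only at h
        rw [if_neg h7, h6, if_neg (Ne.symm hrf), h0] at h
        omega
  · refine ⟨0, ?_⟩
    rw [mem_K]
    rintro ⟨h, _⟩
    exact hx h

end CandB

open CandB in
/-- THE SECOND CANDIDATE: it is an order of all nodes, and it is worth at least the kept arcs plus
one half of the usable arcs. -/
theorem candB (w : ℕ → ℕ → ℕ) {n : ℕ} {p1 p2 q : List ℕ} (h1 : p1 ~ List.range n)
    (h2 : p2 ~ List.range n) (hq : ∀ k, q.getD k 0 = 0 ∨ q.getD k 0 = 2) :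
    (breakF w (List.range n) (arcsK n p1 q ++ arcsL n p1 p2 q)) ~ List.range n ∧
      2 * ((arcsK n p1 q).map (fun e => w e.1 e.2)).sum +
        ((arcsL n p1 p2 q).map (fun e => w e.1 e.2)).sum ≤
      2 * pw w (breakF w (List.range n) (arcsK n p1 q ++ arcsL n p1 p2 q)) := by
  set g : ℕ × ℕ → ℚ := fun e => if rep n p1 e.1 = rep n p1 e.2 then (0 : ℚ)
    else (w e.1 e.2 : ℚ) / 2 with hg
  have hgK : ∀ e ∈ arcsK n p1 q, g e = 0 := by
    intro e he
    rw [mem_K] at he
    have : rep n p1 e.1 = rep n p1 e.2 := by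
      rw [he.2.1, Round.rep_nx h1 he.1]
    simp only [hg, if_pos this]
  have hgL : ∀ e ∈ arcsL n p1 p2 q, g e = (w e.1 e.2 : ℚ) / 2 := by
    intro e he
    rw [mem_L] at he
    have : ¬ rep n p1 e.1 = rep n p1 e.2 := by
      rw [he.2.1]; exact he.2.2.1
    simp only [hg, if_neg this]
  have hsp := breakF_spec w (List.range n) List.nodup_range (arcsK n p1 q ++ arcsL n p1 p2 q)
    fst_nodup (snd_nodup h1 h2) (arcs_lt h1 h2) g (by
      intro e _
      simp only [hg]
      split_ifs
      · exact le_refl _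
      · positivity)
    (charge_B (rep n p1) w _ (arcsK n p1 q) (by
      intro e he hc
      rcases List.mem_append.1 he with he | he
      · exact he
      · exfalso
        rw [mem_L] at he
        rw [he.2.1] at hc
        exact he.2.2.1 hc)
      (acyclic_of_missing (nx p1) (arcsK n p1 q) (fun e he => (mem_K.1 he).2.1)
        (missing h1 hq)))
  refine ⟨hsp.1, ?_⟩
  have h3 := hsp.2
  rw [List.map_append, List.map_append, List.sum_append, List.sum_append] at h3
  have h4 : ((arcsK n p1 q).map g).sum = 0 := by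
    have gen : ∀ l : List (ℕ × ℕ), (∀ e ∈ l, g e = 0) → (l.map g).sum = 0 := by
      intro l
      induction l with
      | nil => intro _; simp
      | cons a l ih =>
        intro hl
        rw [List.map_cons, List.sum_cons, hl a (by simp), ih (fun e he => hl e (by simp [he]))]
        simp
    exact gen _ hgK
  have h5 : ((arcsL n p1 p2 q).map g).sum =
      (((arcsL n p1 p2 q).map (fun e => w e.1 e.2)).sum : ℚ) / 2 := by
    have gen : ∀ l : List (ℕ × ℕ), (∀ e ∈ l, g e = (w e.1 e.2 : ℚ) / 2) →
        (l.map g).sum = ((l.map (fun e => w e.1 e.2)).sum : ℚ) / 2 := by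
      intro l
      induction l with
      | nil => intro _; simp
      | cons a l ih =>
        intro hl
        rw [List.map_cons, List.sum_cons, hl a (by simp), ih (fun e he => hl e (by simp [he])),
          List.map_cons, List.sum_cons]
        push_cast
        ring
    exact gen _ hgL
  rw [h4, h5] at h3
  have h6 : ((2 * ((arcsK n p1 q).map (fun e => w e.1 e.2)).sum +
        ((arcsL n p1 p2 q).map (fun e => w e.1 e.2)).sum : ℕ) : ℚ) ≤
      ((2 * pw w (breakF w (List.range n) (arcsK n p1 q ++ arcsL n p1 p2 q)) : ℕ) : ℚ) := by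
    push_cast at h3 ⊢
    linarith
  exact_mod_cast h6

end Vale.Agent.P333.M
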