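import Vale.Agent.P333.M.MainOf
import Vale.Agent.P333.M.CandA
import Vale.Agent.P333.M.CandB

/-!
P333, box M: the order computed by the program has at least `6 / 11` of the maximum weight.
-/

namespace Vale.Agent.P333.M

open List

variable {n C : ℕ} {w : ℕ → ℕ → ℕ}

/-- the output is an order of all nodes -/
theorem atsp_perm (hw : ∀ i j, w i j ≤ C) : atsp n C w ~ List.range n := by
  have hw1 := wt1_le hw
  have hw2 := wt2_le (n := n) hw (Auction.assign n C (wt1 w))
  have h1 : Auction.assign n C (wt1 w) ~ List.range n := Auction.assign_perm hw1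
  have h2 : Auction.assign n C (wt2 w n (Auction.assign n C (wt1 w))) ~ List.range n :=
    Auction.assign_perm hw2
  have e1 : ∀ i : Fin n, (Auction.assign n C (wt1 w)).getD i 0 =
      Auction.assignPerm (n := n) hw1 i := fun i => (Auction.assignPerm_val hw1 i).symm
  unfold atsp atspOf2 atspOf heavier
  split_ifs
  · exact (candA w n _ _ e1).1
  · exact (candB w h1 h2 (bits_spec w h1 h2).2.1).1

/-- the output has at least `6 / 11` of the maximum weight -/
theorem atsp_weight (hw : ∀ i j, w i j ≤ C) (l : List ℕ) (hl : l.Nodup) (hln : ∀ x ∈ l, x < n) :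
    6 * pw w l ≤ 11 * pw w (atsp n C w) :=
  atsp_weight_of hw (fun p s hs => (candA w n p s hs).2)
    (fun _ _ _ h1 h2 hq => (candB w h1 h2 hq).2) l hl hln

end Vale.Agent.P333.M
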