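import Vale.Agent.P333.M.Open
import Vale.Agent.P333.M.Main

/-! P333: the two ways of writing the weight of an order agree. -/

namespace Vale.Agent.P333.M

/-- the sum of the links of an order is its weight -/
theorem links_eq_pw (o : ℕ → ℕ → ℕ) : ∀ l : List ℕ, Open.links o l = pw o l
  | [] => rfl
  | [_] => rfl
  | i :: j :: l => by
    have ih := links_eq_pw o (j :: l)
    show o i j + Open.links o (j :: l) = pw o (i :: j :: l)
    rw [ih]
    unfold pw
    rw [prs_cons_cons]
    simp

/-- the form used for the strings -/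
theorem atsp_links {n C : ℕ} {w : ℕ → ℕ → ℕ} (hw : ∀ i j, w i j ≤ C) (l : List ℕ) (hl : l.Nodup)
    (hln : ∀ x ∈ l, x < n) : 6 * Open.links w l ≤ 11 * Open.links w (atsp n C w) := by
  rw [links_eq_pw, links_eq_pw]
  exact atsp_weight hw l hl hln

end Vale.Agent.P333.M
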