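import Vale.Agent.P333.M.Auction

/-!
P333: the auction algorithm in the form of a short program on lists of natural numbers
(folds over `List.range`, `getD`, `set`, `find?`, `contains`), with the theorems that it solves
the assignment problem exactly.
-/

namespace Vale.Agent.P333.Auction

/-- the object with the largest `a[j] - p[j]` (comparison `a[b] + p[k] < a[k] + p[b]`) -/
def bestObj (n : ℕ) (a : ℕ → ℕ) (p : List ℕ) : ℕ :=
  (List.range n).foldl (fun b k => if a b + p.getD k 0 < a k + p.getD b 0 then k else b) 0

/-- one bid; the state is (prices, owners), `own[j] = i + 1` if person `i` owns object `j` -/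
def bid (n : ℕ) (w : ℕ → ℕ → ℕ) (s : List ℕ × List ℕ) : List ℕ × List ℕ :=
  match (List.range n).find? (fun i => !(s.2.contains (i + 1))) with
  | none => s
  | some i =>
    (s.1.set (bestObj n (w i) s.1) (s.1.getD (bestObj n (w i) s.1) 0 + 1),
      s.2.set (bestObj n (w i) s.1) (i + 1))

/-- all bids -/
def bids (n : ℕ) (w : ℕ → ℕ → ℕ) (fuel : ℕ) : List ℕ × List ℕ :=
  (List.range fuel).foldl (fun s _ => bid n w s) (List.replicate n 0, List.replicate n 0)

/-- maximum weight assignment for the weights `w i j ≤ C`, `i, j < n`; entry `i` of the output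
is the object of person `i` -/
def assign (n C : ℕ) (w : ℕ → ℕ → ℕ) : List ℕ :=
  (List.range n).map fun i =>
    (bids n (fun i j => (n + 1) * w i j) (n * ((n + 1) * C + 1) + 1)).2.idxOf (i + 1)

theorem bestObj_eq (n : ℕ) (a : ℕ → ℕ) (p : List ℕ) :
    bestObj n a p = best (fun j => (a j : ℤ) - (p.getD j 0 : ℕ)) n := by
  unfold bestObj
  induction n with
  | zero => rfl
  | succ n ih =>
    rw [List.range_succ, List.foldl_append, ih, best]
    simp only [List.foldl_cons, List.foldl_nil]
    congr 1
    apply propext
    constructor
    · intro h; omega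
    · intro h; omega

theorem bid_eq (n : ℕ) (w : ℕ → ℕ → ℕ) (s : List ℕ × List ℕ) : bid n w s = step n w s := by
  unfold bid step findFree
  cases (List.range n).find? (fun i => !(s.2.contains (i + 1))) with
  | none => rfl
  | some i => simp only [bestObj_eq]

theorem bids_eq (n : ℕ) (w : ℕ → ℕ → ℕ) (m : ℕ) : bids n w m = run n w m := by
  unfold bids
  induction m with
  | zero => rfl
  | succ m ih =>
    rw [List.range_succ, List.foldl_append, ih]
    simp only [List.foldl_cons, List.foldl_nil]
    exact bid_eq n w _

theorem assign_eq (n C : ℕ) (w : ℕ → ℕ → ℕ) :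
    assign n C w = (List.range n).map (auction n C w) := by
  unfold assign auction owners
  rw [bids_eq]

@[simp] theorem assign_length (n C : ℕ) (w : ℕ → ℕ → ℕ) : (assign n C w).length = n := by
  simp [assign]

theorem assign_getD (n C : ℕ) (w : ℕ → ℕ → ℕ) {i : ℕ} (hi : i < n) :
    (assign n C w).getD i 0 = auction n C w i := by
  rw [assign_eq, List.getD_eq_getElem _ _ (by simpa using hi)]
  simp

theorem assign_getElem (n C : ℕ) (w : ℕ → ℕ → ℕ) (i : ℕ) (hi : i < (assign n C w).length) :
    (assign n C w)[i] = auction n C w i := by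
  simp [assign_eq]

section Final

variable {n C : ℕ} {w : ℕ → ℕ → ℕ} (hw : ∀ i j, w i j ≤ C)
include hw

theorem assign_lt {x : ℕ} (hx : x ∈ assign n C w) : x < n := by
  rw [assign_eq, List.mem_map] at hx
  obtain ⟨i, hi, rfl⟩ := hx
  exact auction_lt hw (List.mem_range.1 hi)

theorem assign_nodup : (assign n C w).Nodup := by
  rw [assign_eq]
  refine List.Nodup.map_on ?_ List.nodup_range
  intro i hi j hj h
  exact auction_inj hw (List.mem_range.1 hi) (List.mem_range.1 hj) h

theorem assign_perm : (assign n C w).Perm (List.range n) := by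
  apply List.Subperm.perm_of_length_le
  · exact List.subperm_of_subset (assign_nodup hw) fun x hx => List.mem_range.2 (assign_lt hw hx)
  · simp

/-- the permutation computed by the auction -/
noncomputable def assignPerm : Equiv.Perm (Fin n) := Equiv.ofBijective _ (auction_bij (n := n) hw)

theorem assignPerm_val (i : Fin n) :
    ((assignPerm hw i : Fin n) : ℕ) = (assign n C w).getD i 0 := by
  rw [assign_getD n C w i.2]; rfl

/-- the auction solves the assignment problem exactly -/
theorem assign_max (τ : Equiv.Perm (Fin n)) :
    ∑ i : Fin n, w i (τ i) ≤ ∑ i : Fin n, w i ((assign n C w).getD i 0) := by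
  refine (auction_max hw τ).trans (le_of_eq ?_)
  exact Finset.sum_congr rfl fun i _ => by rw [assign_getD n C w i.2]

/-- the same for an arbitrary list that is a permutation of `0, ..., n-1` -/
theorem assign_max_list (l : List ℕ) (hl : l.Perm (List.range n)) :
    ∑ i ∈ Finset.range n, w i (l.getD i 0) ≤
      ∑ i ∈ Finset.range n, w i ((assign n C w).getD i 0) := by
  have hlen : l.length = n := by simpa using hl.length_eq
  have hlt : ∀ i : Fin n, l.getD i 0 < n := fun i => by
    rw [List.getD_eq_getElem _ _ (by rw [hlen]; exact i.2)]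
    exact List.mem_range.1 (hl.subset (List.getElem_mem _))
  have hnd : l.Nodup := hl.nodup_iff.2 List.nodup_range
  have hinj : Function.Injective (fun i : Fin n => (⟨l.getD i 0, hlt i⟩ : Fin n)) := by
    intro i j h
    have h1 : l.getD i 0 = l.getD j 0 := by simpa using h
    have hi : (i : ℕ) < l.length := by rw [hlen]; exact i.2
    have hj : (j : ℕ) < l.length := by rw [hlen]; exact j.2
    rw [List.getD_eq_getElem _ _ hi, List.getD_eq_getElem _ _ hj] at h1
    exact Fin.ext ((List.Nodup.getElem_inj_iff hnd).1 h1)
  have := assign_max hw (Equiv.ofBijective _ (Finite.injective_iff_bijective.1 hinj))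
  rw [Finset.sum_range, Finset.sum_range]
  exact this

end Final

end Vale.Agent.P333.Auction
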