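import Mathlib

/-!
P333: the auction algorithm for the assignment problem (Bertsekas), on lists of numbers.

State: the list of prices and the list of owners (`own[j] = i + 1` if object `j` belongs to
person `i`, `own[j] = 0` if it is free).  While a person is unassigned, the first such person
bids for an object with largest `w i j - p j`; the price of this object goes up by one and
the object changes hands.
-/

namespace Vale.Agent.P333.Auction

/-- the first index below `n` (at least `1`) with the largest value -/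
def best (val : ℕ → ℤ) : ℕ → ℕ
  | 0 => 0
  | k + 1 => if val (best val k) < val k then k else best val k

theorem best_lt (val : ℕ → ℤ) : ∀ n, 0 < n → best val n < n
  | 0, h => absurd h (lt_irrefl 0)
  | 1, _ => by simp [best]
  | k + 2, _ => by
      have := best_lt val (k + 1) (Nat.succ_pos k)
      rw [best]
      split_ifs <;> omega

theorem best_max (val : ℕ → ℤ) : ∀ n, ∀ j < n, val j ≤ val (best val n)
  | 0, j, h => absurd h (Nat.not_lt_zero j)
  | k + 1, j, h => by
      rw [best]
      rcases Nat.lt_succ_iff_lt_or_eq.1 h with h1 | h1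
      · have := best_max val k j h1
        split_ifs with hc
        · exact this.trans hc.le
        · exact this
      · subst h1
        split_ifs with hc
        · exact le_refl _
        · exact not_lt.1 hc

/-- the first unassigned person -/
def findFree (n : ℕ) (own : List ℕ) : Option ℕ :=
  (List.range n).find? fun i => !(own.contains (i + 1))

/-- one bid -/
def step (n : ℕ) (w : ℕ → ℕ → ℕ) (s : List ℕ × List ℕ) : List ℕ × List ℕ :=
  match findFree n s.2 with
  | none => s
  | some i =>
    let j := best (fun j => (w i j : ℤ) - (s.1.getD j 0 : ℕ)) n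
    (s.1.set j (s.1.getD j 0 + 1), s.2.set j (i + 1))

/-- `m` bids -/
def run (n : ℕ) (w : ℕ → ℕ → ℕ) : ℕ → List ℕ × List ℕ
  | 0 => (List.replicate n 0, List.replicate n 0)
  | m + 1 => step n w (run n w m)

/-- the owners at the end of the auction for the weights `(n + 1) * w`; `C` bounds `w` -/
def owners (n C : ℕ) (w : ℕ → ℕ → ℕ) : List ℕ :=
  (run n (fun i j => (n + 1) * w i j) (n * ((n + 1) * C + 1) + 1)).2

/-- the object of person `i` -/
def auction (n C : ℕ) (w : ℕ → ℕ → ℕ) (i : ℕ) : ℕ := (owners n C w).idxOf (i + 1)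

theorem getD_set (l : List ℕ) (j k x : ℕ) (hj : j < l.length) :
    (l.set j x).getD k 0 = if k = j then x else l.getD k 0 := by
  rw [List.getD_eq_getElem?_getD, List.getD_eq_getElem?_getD, List.getElem?_set]
  split_ifs with h1 h2
  · simp
  · omega
  · omega
  · rfl

/-- invariants of the auction; `D` bounds the weights -/
structure Inv (n D : ℕ) (w : ℕ → ℕ → ℕ) (s : List ℕ × List ℕ) : Prop where
  len1 : s.1.length = n
  len2 : s.2.length = n
  free : ∀ j < n, s.2.getD j 0 = 0 → s.1.getD j 0 = 0
  lt : ∀ j < n, ∀ i, s.2.getD j 0 = i + 1 → i < n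
  opt : ∀ j < n, ∀ i, s.2.getD j 0 = i + 1 → ∀ k < n,
    (w i k : ℤ) - (s.1.getD k 0 : ℕ) ≤ (w i j : ℤ) - (s.1.getD j 0 : ℕ) + 1
  inj : ∀ j < n, ∀ j' < n, ∀ i, s.2.getD j 0 = i + 1 → s.2.getD j' 0 = i + 1 → j = j'
  bd : ∀ j < n, s.1.getD j 0 ≤ D + 1

theorem findFree_some {n : ℕ} {own : List ℕ} {i : ℕ} (h : findFree n own = some i) :
    i < n ∧ i + 1 ∉ own := by
  unfold findFree at h
  have h1 := List.mem_of_find?_eq_some h
  have h2 := List.find?_some h
  refine ⟨List.mem_range.1 h1, ?_⟩
  simpa using h2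

theorem findFree_none {n : ℕ} {own : List ℕ} (h : findFree n own = none) {i : ℕ} (hi : i < n) :
    i + 1 ∈ own := by
  unfold findFree at h
  rw [List.find?_eq_none] at h
  have := h i (List.mem_range.2 hi)
  simpa using this

theorem mem_iff_getD {l : List ℕ} {x : ℕ} : x + 1 ∈ l ↔ ∃ j < l.length, l.getD j 0 = x + 1 := by
  rw [List.mem_iff_getElem]
  constructor
  · rintro ⟨j, hj, h⟩
    exact ⟨j, hj, by rw [List.getD_eq_getElem _ _ hj]; exact h⟩
  · rintro ⟨j, hj, h⟩
    rw [List.getD_eq_getElem _ _ hj] at h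
    exact ⟨j, hj, h⟩

/-- if a person is unassigned then an object is free -/
theorem exists_free {n D : ℕ} {w : ℕ → ℕ → ℕ} {s : List ℕ × List ℕ} (h : Inv n D w s) {i : ℕ}
    (hi : i < n) (hni : i + 1 ∉ s.2) : ∃ k < n, s.2.getD k 0 = 0 := by
  by_contra hcon
  push Not at hcon
  have h1 : ∀ k : Fin n, s.2.getD k 0 - 1 < n := fun k => by
    have h2 := hcon k k.2
    exact h.lt k k.2 _ (by omega)
  have hinj : Function.Injective (fun k : Fin n => (⟨s.2.getD k 0 - 1, h1 k⟩ : Fin n)) := by
    intro k k' hk
    have h2 := hcon k k.2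
    have h3 := hcon k' k'.2
    have h4 : s.2.getD k 0 - 1 = s.2.getD k' 0 - 1 := by simpa using hk
    exact Fin.ext (h.inj k k.2 k' k'.2 (s.2.getD k 0 - 1) (by omega) (by omega))
  obtain ⟨k, hk⟩ := (Finite.injective_iff_surjective.1 hinj) ⟨i, hi⟩
  apply hni
  rw [mem_iff_getD]
  refine ⟨k, by rw [h.len2]; exact k.2, ?_⟩
  have h2 := hcon k k.2
  have h3 : s.2.getD k 0 - 1 = i := by simpa using congrArg Fin.val hk
  omega

theorem inv_step {n D : ℕ} {w : ℕ → ℕ → ℕ} (hw : ∀ i j, w i j ≤ D) {s : List ℕ × List ℕ}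
    (h : Inv n D w s) : Inv n D w (step n w s) := by
  unfold step
  cases hf : findFree n s.2 with
  | none => exact h
  | some i =>
    obtain ⟨hi, hni⟩ := findFree_some hf
    have hn : 0 < n := by omega
    obtain ⟨k0, hk0, hfree⟩ := exists_free h hi hni
    simp only
    set val : ℕ → ℤ := fun j => (w i j : ℤ) - (s.1.getD j 0 : ℕ) with hval
    set j := best val n with hj
    have hjn : j < n := best_lt val n hn
    have hmax : ∀ k < n, val k ≤ val j := best_max val n
    have hj1 : j < s.1.length := by rw [h.len1]; exact hjn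
    have hj2 : j < s.2.length := by rw [h.len2]; exact hjn
    have hpj : s.1.getD j 0 ≤ D := by
      have h1 := hmax k0 hk0
      simp only [hval] at h1
      rw [h.free k0 hk0 hfree] at h1
      have h2 := hw i j
      have h3 : (0 : ℤ) ≤ w i k0 := Int.natCast_nonneg _
      have h4 : ((s.1.getD j 0 : ℕ) : ℤ) ≤ w i j := by
        have : (w i k0 : ℤ) - ((0 : ℕ) : ℤ) ≤ (w i j : ℤ) - (s.1.getD j 0 : ℕ) := h1
        push_cast at this
        linarith
      have h5 : s.1.getD j 0 ≤ w i j := by exact_mod_cast h4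
      omega
    have hp : ∀ k, s.1.getD k 0 ≤ (s.1.set j (s.1.getD j 0 + 1)).getD k 0 := fun k => by
      rw [getD_set _ _ _ _ hj1]
      split_ifs with hkj
      · subst hkj; omega
      · exact le_refl _
    constructor
    · simpa using h.len1
    · simpa using h.len2
    · intro k hk hk0'
      simp only at hk0' ⊢
      rw [getD_set _ _ _ _ hj2] at hk0'
      rw [getD_set _ _ _ _ hj1]
      split_ifs at hk0' ⊢ with hkj
      exact h.free k hk hk0'
    · intro k hk i' hk'
      simp only at hk'
      rw [getD_set _ _ _ _ hj2] at hk'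
      split_ifs at hk' with hkj
      · omega
      · exact h.lt k hk i' hk'
    · intro k hk i' hk' l hl
      simp only at hk' ⊢
      rw [getD_set _ _ _ _ hj2] at hk'
      have hpl := hp l
      have hpl' : ((s.1.getD l 0 : ℕ) : ℤ) ≤ ((s.1.set j (s.1.getD j 0 + 1)).getD l 0 : ℕ) := by
        exact_mod_cast hpl
      split_ifs at hk' with hkj
      · have hii : i' = i := by omega
        subst hii
        subst hkj
        have h1 := hmax l hl
        simp only [hval] at h1
        rw [getD_set _ _ j _ hj1, if_pos rfl]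
        push_cast
        linarith
      · have h1 := h.opt k hk i' hk' l hl
        rw [getD_set _ _ k _ hj1, if_neg hkj]
        linarith
    · intro k hk k' hk' i' h1 h2
      simp only at h1 h2
      rw [getD_set _ _ _ _ hj2] at h1 h2
      split_ifs at h1 h2 with ha hb hb
      · rw [ha, hb]
      · exfalso
        apply hni
        rw [mem_iff_getD]
        exact ⟨k', by rw [h.len2]; exact hk', by omega⟩
      · exfalso
        apply hni
        rw [mem_iff_getD]
        exact ⟨k, by rw [h.len2]; exact hk, by omega⟩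
      · exact h.inj k hk k' hk' i' h1 h2
    · intro k hk
      simp only
      rw [getD_set _ _ _ _ hj1]
      split_ifs with hkj
      · omega
      · exact h.bd k hk

theorem inv_run {n D : ℕ} {w : ℕ → ℕ → ℕ} (hw : ∀ i j, w i j ≤ D) :
    ∀ m, Inv n D w (run n w m)
  | 0 => by
      have h0 : ∀ j, (List.replicate n 0).getD j 0 = 0 := fun j => by
        rw [List.getD_eq_getElem?_getD, List.getElem?_replicate]
        split_ifs <;> rfl
      unfold run
      constructor
      · simp
      · simp
      · intro j _ _; exact h0 j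
      · intro j _ i h; rw [h0] at h; omega
      · intro j _ i h; rw [h0] at h; omega
      · intro j _ j' _ i h; rw [h0] at h; omega
      · intro j _; rw [h0]; omega
  | m + 1 => inv_step hw (inv_run hw m)

/-- the sum of the prices counts the bids -/
theorem sum_step {n D : ℕ} {w : ℕ → ℕ → ℕ} {s : List ℕ × List ℕ}
    (h : Inv n D w s) (hf : findFree n s.2 ≠ none) : (step n w s).1.sum = s.1.sum + 1 := by
  unfold step
  cases hf' : findFree n s.2 with
  | none => exact absurd hf' hf
  | some i =>
    obtain ⟨hi, hni⟩ := findFree_some hf'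
    have hn : 0 < n := by omega
    simp only
    set j := best (fun j => (w i j : ℤ) - (s.1.getD j 0 : ℕ)) n with hj
    have hjn : j < s.1.length := by rw [h.len1]; exact best_lt _ n hn
    rw [List.getD_eq_getElem _ _ hjn]
    conv_rhs => rw [← List.set_getElem_self hjn]
    rw [List.sum_set, List.sum_set]
    simp only [hjn, if_true]
    omega

theorem sum_le {n D : ℕ} {w : ℕ → ℕ → ℕ} {s : List ℕ × List ℕ} (h : Inv n D w s) :
    s.1.sum ≤ n * (D + 1) := by
  have h1 : ∀ x ∈ s.1, x ≤ D + 1 := by
    intro x hx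
    obtain ⟨j, hj, rfl⟩ := List.getElem_of_mem hx
    have := h.bd j (by rw [← h.len1]; exact hj)
    rwa [List.getD_eq_getElem _ _ hj] at this
  have := List.sum_le_card_nsmul s.1 (D + 1) h1
  rwa [h.len1, smul_eq_mul] at this

/-- the auction stops -/
theorem run_done {n D : ℕ} {w : ℕ → ℕ → ℕ} (hw : ∀ i j, w i j ≤ D) :
    findFree n (run n w (n * (D + 1) + 1)).2 = none := by
  by_contra hcon
  have h1 : ∀ m, findFree n (run n w m).2 ≠ none → (run n w m).1.sum = m := by
    intro m
    induction m with
    | zero => intro _; simp [run]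
    | succ m ih =>
      intro hm
      have hm' : findFree n (run n w m).2 ≠ none := by
        intro hn
        apply hm
        have : run n w (m + 1) = run n w m := by
          change step n w (run n w m) = run n w m
          unfold step
          rw [hn]
        rw [this]; exact hn
      change (step n w (run n w m)).1.sum = m + 1
      rw [sum_step (inv_run hw m) hm', ih hm']
  have h2 := h1 _ hcon
  have h3 := sum_le (inv_run (n := n) hw (n * (D + 1) + 1))
  omega

section Final

variable {n C : ℕ} {w : ℕ → ℕ → ℕ} (hw : ∀ i j, w i j ≤ C)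
include hw

theorem inv_owners : ∃ p : List ℕ, Inv n ((n + 1) * C) (fun i j => (n + 1) * w i j)
    (p, owners n C w) := by
  refine ⟨(run n (fun i j => (n + 1) * w i j) (n * ((n + 1) * C + 1) + 1)).1, ?_⟩
  exact inv_run (fun i j => Nat.mul_le_mul_left _ (hw i j)) _

theorem mem_owners {i : ℕ} (hi : i < n) : i + 1 ∈ owners n C w :=
  findFree_none (run_done (fun i j => Nat.mul_le_mul_left _ (hw i j))) hi

theorem auction_lt {i : ℕ} (hi : i < n) : auction n C w i < n := by
  obtain ⟨p, hp⟩ := inv_owners (n := n) hw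
  have h := List.idxOf_lt_length_iff.2 (mem_owners hw hi)
  have h2 : (owners n C w).length = n := hp.len2
  unfold auction
  omega

theorem getD_auction {i : ℕ} (hi : i < n) :
    (owners n C w).getD (auction n C w i) 0 = i + 1 := by
  have h := List.idxOf_lt_length_iff.2 (mem_owners hw hi)
  unfold auction
  rw [List.getD_eq_getElem _ _ h]
  exact List.getElem_idxOf h

theorem auction_inj {i i' : ℕ} (hi : i < n) (hi' : i' < n)
    (h : auction n C w i = auction n C w i') : i = i' := by
  have h1 := getD_auction hw hi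
  have h2 := getD_auction hw hi'
  rw [h, h2] at h1
  omega

theorem auction_bij : Function.Bijective
    (fun i : Fin n => (⟨auction n C w i, auction_lt hw i.2⟩ : Fin n)) := by
  apply Finite.injective_iff_bijective.1
  intro i i' h
  have h1 : auction n C w i = auction n C w i' := by simpa using h
  exact Fin.ext (auction_inj hw i.2 i'.2 h1)

/-- the auction solves the assignment problem exactly -/
theorem auction_max (τ : Equiv.Perm (Fin n)) :
    ∑ i : Fin n, w i (τ i) ≤ ∑ i : Fin n, w i (auction n C w i) := by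
  obtain ⟨p, hp⟩ := inv_owners (n := n) hw
  set σ := Equiv.ofBijective _ (auction_bij (n := n) hw) with hσ
  have hσi : ∀ i : Fin n, ((σ i : Fin n) : ℕ) = auction n C w i := fun i => rfl
  have h1 : ∀ i : Fin n, (((n + 1) * w i (τ i) : ℕ) : ℤ) - (p.getD (τ i) 0 : ℕ) ≤
      (((n + 1) * w i (σ i) : ℕ) : ℤ) - (p.getD (σ i) 0 : ℕ) + 1 := by
    intro i
    have h2 := hp.opt (auction n C w i) (auction_lt hw i.2) i (getD_auction hw i.2) (τ i) (τ i).2
    simpa only [hσi] using h2
  have h2 := Finset.sum_le_sum (fun i (_ : i ∈ (Finset.univ : Finset (Fin n))) => h1 i)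
  rw [Finset.sum_sub_distrib, Finset.sum_add_distrib, Finset.sum_sub_distrib] at h2
  have h3 : ∑ i : Fin n, ((p.getD (τ i) 0 : ℕ) : ℤ) = ∑ i : Fin n, ((p.getD (i : ℕ) 0 : ℕ) : ℤ) :=
    Equiv.sum_comp τ (fun i : Fin n => ((p.getD (i : ℕ) 0 : ℕ) : ℤ))
  have h4 : ∑ i : Fin n, ((p.getD (σ i) 0 : ℕ) : ℤ) = ∑ i : Fin n, ((p.getD (i : ℕ) 0 : ℕ) : ℤ) :=
    Equiv.sum_comp σ (fun i : Fin n => ((p.getD (i : ℕ) 0 : ℕ) : ℤ))
  rw [h3, h4] at h2
  have h5 : ∑ i : Fin n, (((n + 1) * w i (τ i) : ℕ) : ℤ) =
      (n + 1) * ((∑ i : Fin n, w i (τ i) : ℕ) : ℤ) := by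
    push_cast; rw [Finset.mul_sum]
  have h6 : ∑ i : Fin n, (((n + 1) * w i (σ i) : ℕ) : ℤ) =
      (n + 1) * ((∑ i : Fin n, w i (σ i) : ℕ) : ℤ) := by
    push_cast; rw [Finset.mul_sum]
  rw [h5, h6] at h2
  simp only [Finset.sum_const, Finset.card_univ, Fintype.card_fin, nsmul_eq_mul, mul_one] at h2
  have h7 : ∑ i : Fin n, w i (auction n C w i) = ∑ i : Fin n, w i (σ i) := rfl
  rw [h7]
  by_contra hcon
  rw [not_le] at hcon
  have h8 : ((∑ i : Fin n, w i (σ i) : ℕ) : ℤ) + 1 ≤ ((∑ i : Fin n, w i (τ i) : ℕ) : ℤ) := by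
    exact_mod_cast hcon
  have h9 : (0 : ℤ) ≤ n := Int.natCast_nonneg n
  nlinarith

end Final

end Vale.Agent.P333.Auction
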