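import Vale.Agent.P333.M.Rep
import Vale.Agent.P333.M.Prog

/-!
P333, box M: the functions `nx`, `orb`, `rep` and `idxOf` of the program, for the list `p` of the
values of a permutation of `Fin n`.
-/

namespace Vale.Agent.P333.M

open Finset

theorem foldl_min_le (l : List ℕ) : ∀ a : ℕ, l.foldl min a ≤ a ∧ ∀ y ∈ l, l.foldl min a ≤ y := by
  induction l with
  | nil => intro a; simp
  | cons b l ih =>
    intro a
    rw [List.foldl_cons]
    obtain ⟨h1, h2⟩ := ih (min a b)
    refine ⟨h1.trans (min_le_left _ _), ?_⟩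
    intro y hy
    rcases List.mem_cons.1 hy with rfl | hy
    · exact h1.trans (min_le_right _ _)
    · exact h2 y hy

theorem foldl_min_mem (l : List ℕ) : ∀ a : ℕ, l.foldl min a = a ∨ l.foldl min a ∈ l := by
  induction l with
  | nil => intro a; simp
  | cons b l ih =>
    intro a
    rw [List.foldl_cons]
    rcases ih (min a b) with h | h
    · rw [h]
      rcases le_total a b with h' | h'
      · left; exact min_eq_left h'
      · right; rw [min_eq_right h']; simp
    · right; exact List.mem_cons_of_mem _ h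

theorem mem_orb (p : List ℕ) (y : ℕ) : ∀ (k x : ℕ), y ∈ orb p x k ↔ ∃ i < k, (nx p)^[i] x = y
  | 0, x => by simp [orb]
  | k + 1, x => by
    rw [orb, List.mem_cons, mem_orb p y k (nx p x)]
    constructor
    · rintro (rfl | ⟨i, hi, rfl⟩)
      · exact ⟨0, by omega, rfl⟩
      · exact ⟨i + 1, by omega, by rw [Function.iterate_succ_apply]⟩
    · rintro ⟨i, hi, h⟩
      cases i with
      | zero => left; exact h.symm
      | succ i =>
        right
        rw [Function.iterate_succ_apply] at h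
        exact ⟨i, by omega, h⟩

theorem rep_iter (n : ℕ) (p : List ℕ) (x : ℕ) : ∃ k, (nx p)^[k] x = rep n p x := by
  unfold rep
  rcases foldl_min_mem (orb p x n) x with h | h
  · exact ⟨0, by rw [h]; rfl⟩
  · obtain ⟨i, -, hi⟩ := (mem_orb p _ n x).1 h
    exact ⟨i, hi⟩

theorem rep_le_iter (n : ℕ) (p : List ℕ) (x k : ℕ) (hk : k < n) : rep n p x ≤ (nx p)^[k] x :=
  (foldl_min_le (orb p x n) x).2 _ ((mem_orb p _ n x).2 ⟨k, hk, rfl⟩)

section

variable {n : ℕ} {s : Equiv.Perm (Fin n)} {p : List ℕ}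

theorem nx_val (hs : ∀ i : Fin n, p.getD i 0 = s i) (i : Fin n) : nx p i = s i := hs i

theorem rep_eq_iff (hs : ∀ i : Fin n, p.getD i 0 = s i) (x y : Fin n) :
    rep n p x = rep n p y ↔ s.SameCycle x y :=
  rep_iff (s := nx p) (r := rep n p) (nx_val hs) (fun x _ => rep_iter n p x)
    (fun x _ k hk => rep_le_iter n p x k hk) x y

theorem rep_lt' (hs : ∀ i : Fin n, p.getD i 0 = s i) {x : ℕ} (hx : x < n) : rep n p x < n :=
  rep_lt (s := nx p) (r := rep n p) (nx_val hs) (fun x _ => rep_iter n p x) hx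

theorem rep_le (n : ℕ) (p : List ℕ) (x : ℕ) : rep n p x ≤ x := (foldl_min_le (orb p x n) x).1

theorem rep_sameCycle' (hs : ∀ i : Fin n, p.getD i 0 = s i) (x : Fin n) :
    s.SameCycle x ⟨rep n p x, rep_lt' hs x.2⟩ :=
  rep_sameCycle (s := nx p) (r := rep n p) (nx_val hs) (fun x _ => rep_iter n p x) x

theorem rep_rep' (hs : ∀ i : Fin n, p.getD i 0 = s i) {x : ℕ} (hx : x < n) :
    rep n p (rep n p x) = rep n p x :=
  rep_rep (s := nx p) (r := rep n p) (nx_val hs) (fun x _ => rep_iter n p x)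
    (fun x _ k hk => rep_le_iter n p x k hk) hx

theorem rep_nx (hs : ∀ i : Fin n, p.getD i 0 = s i) {x : ℕ} (hx : x < n) :
    rep n p (nx p x) = rep n p x :=
  rep_next (s := nx p) (r := rep n p) (nx_val hs) (fun x _ => rep_iter n p x)
    (fun x _ k hk => rep_le_iter n p x k hk) hx

theorem nx_lt (hs : ∀ i : Fin n, p.getD i 0 = s i) {x : ℕ} (hx : x < n) : nx p x < n := by
  rw [show nx p x = s ⟨x, hx⟩ from hs ⟨x, hx⟩]
  exact Fin.is_lt _

theorem nx_inj (hs : ∀ i : Fin n, p.getD i 0 = s i) {x y : ℕ} (hx : x < n) (hy : y < n)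
    (h : nx p x = nx p y) : x = y := by
  rw [show nx p x = s ⟨x, hx⟩ from hs ⟨x, hx⟩, show nx p y = s ⟨y, hy⟩ from hs ⟨y, hy⟩] at h
  have := s.injective (Fin.ext h)
  simpa using this

theorem nx_eq_self_iff (hs : ∀ i : Fin n, p.getD i 0 = s i) (x : Fin n) :
    nx p x = x ↔ s x = x := by
  rw [nx_val hs, Fin.ext_iff]

theorem nodup_list (hp : p.length = n) (hs : ∀ i : Fin n, p.getD i 0 = s i) : p.Nodup := by
  rw [List.nodup_iff_injective_get]
  intro i j hij
  have hi : (i : ℕ) < n := by rw [← hp]; exact i.2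
  have hj : (j : ℕ) < n := by rw [← hp]; exact j.2
  have h1 : nx p i = nx p j := by
    unfold nx
    rw [List.getD_eq_getElem _ _ i.2, List.getD_eq_getElem _ _ j.2]
    simpa using hij
  exact Fin.ext (nx_inj hs hi hj h1)

theorem mem_list (hp : p.length = n) (hs : ∀ i : Fin n, p.getD i 0 = s i) {y : ℕ} (hy : y < n) :
    y ∈ p := by
  have h1 : p.getD (s.symm ⟨y, hy⟩) 0 = y := by
    rw [hs]
    simp
  have h2 : ((s.symm ⟨y, hy⟩ : Fin n) : ℕ) < p.length := by rw [hp]; exact Fin.is_lt _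
  rw [List.getD_eq_getElem _ _ h2] at h1
  rw [← h1]
  exact List.getElem_mem _

theorem idxOf_lt (hp : p.length = n) (hs : ∀ i : Fin n, p.getD i 0 = s i) {y : ℕ} (hy : y < n) :
    p.idxOf y < n := by
  have := List.idxOf_lt_length_iff.2 (mem_list hp hs hy)
  rwa [hp] at this

theorem nx_idxOf (hp : p.length = n) (hs : ∀ i : Fin n, p.getD i 0 = s i) {y : ℕ} (hy : y < n) :
    nx p (p.idxOf y) = y := by
  have h := List.idxOf_lt_length_iff.2 (mem_list hp hs hy)
  unfold nx
  rw [List.getD_eq_getElem _ _ h]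
  exact List.getElem_idxOf h

theorem idxOf_nx (hp : p.length = n) (hs : ∀ i : Fin n, p.getD i 0 = s i) {x : ℕ} (hx : x < n) :
    p.idxOf (nx p x) = x :=
  nx_inj hs (idxOf_lt hp hs (nx_lt hs hx)) hx (nx_idxOf hp hs (nx_lt hs hx))

theorem rep_idxOf (hp : p.length = n) (hs : ∀ i : Fin n, p.getD i 0 = s i) {y : ℕ} (hy : y < n) :
    rep n p (p.idxOf y) = rep n p y := by
  rw [← rep_nx hs (idxOf_lt hp hs hy), nx_idxOf hp hs hy]

/-- in every nontrivial cycle there is a node different from the representative -/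
theorem rep_fixed_iff (hs : ∀ i : Fin n, p.getD i 0 = s i) {x : ℕ} (hx : x < n) :
    nx p (rep n p x) = rep n p x ↔ nx p x = x := by
  have hr := rep_lt' hs hx
  have hc := rep_sameCycle' hs ⟨x, hx⟩
  have h1 := nx_eq_self_iff hs ⟨x, hx⟩
  have h2 := nx_eq_self_iff hs ⟨rep n p x, hr⟩
  simp only at h1 h2 hc
  rw [h1, h2]
  exact (hc.apply_eq_self_iff).symm

/-- `wt2` of the program is `w2` -/
theorem wt2_eq (hs : ∀ i : Fin n, p.getD i 0 = s i) (w : ℕ → ℕ → ℕ) (x y : Fin n) :
    wt2 w n p x y = w2 (fun i j : Fin n => w i j) s x y := by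
  unfold wt2 w2
  simp only [rep_eq_iff hs x y]

theorem wt1_eq (w : ℕ → ℕ → ℕ) (x y : Fin n) :
    wt1 w x y = w0 (fun i j : Fin n => w i j) x y := by
  unfold wt1 w0
  simp only [Fin.ext_iff]

end

end Vale.Agent.P333.M
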