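import Vale.Agent.P333.M.Round
import Vale.Agent.P333.M.RepProg

/-!
P333, box M: the weight of the output, from the two statements about the candidates.
-/

namespace Vale.Agent.P333.M

open List

namespace MainOf

theorem sum_range_list (n : ℕ) (f : ℕ → ℕ) :
    ((List.range n).map f).sum = ∑ x ∈ Finset.range n, f x := by
  induction n with
  | zero => rfl
  | succ n ih => rw [List.range_succ, List.map_append, List.sum_append, ih,
      Finset.sum_range_succ]; simp

theorem sum_filter_map {β : Type*} (l : List ℕ) (P : ℕ → Prop) [DecidablePred P] (g : ℕ → β)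
    (f : β → ℕ) :
    (((l.filter (fun x => P x)).map g).map f).sum =
      (l.map (fun x => if P x then f (g x) else 0)).sum := by
  induction l with
  | nil => rfl
  | cons a l ih =>
    by_cases h : P a
    · simp only [List.filter_cons, h, decide_true, if_true, List.map_cons, List.sum_cons]
      rw [ih]
    · simp only [List.filter_cons, h, decide_false, List.map_cons, List.sum_cons]
      simp only [Bool.false_eq_true, if_false, Nat.zero_add]
      rw [ih]

/-- the objective at the beginning -/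
theorem obj_init (w : ℕ → ℕ → ℕ) {n : ℕ} {p1 p2 : List ℕ} (h1 : p1 ~ List.range n)
    (h2 : p2 ~ List.range n) :
    4 * (∑ x ∈ Finset.range n, if nx p1 x ≠ x then w x (nx p1 x) else 0) +
      (∑ x ∈ Finset.range n, if rep n p1 x = rep n p1 (nx p2 x) then 0 else w x (nx p2 x)) ≤
      obj w n p1 p2 (List.replicate n 1) := by
  unfold obj
  rw [sum_range_list, Finset.mul_sum, ← Finset.sum_add_distrib]
  refine Finset.sum_le_sum fun x hx => ?_
  have hx' := Finset.mem_range.1 hx
  have hkq : ∀ y < n, kq n p1 (List.replicate n 1) y = if nx p1 y = y then 0 else 1 := by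
    intro y hy
    have hr := Round.rep_lt h1 hy
    unfold kq
    have e : (List.replicate n 1).getD (rep n p1 y) 0 = 1 := by
      rw [List.getD_eq_getElem _ _ (by simpa using hr)]
      simp
    rw [e]
    split_ifs <;> rfl
  have a1 : arcTerm w n p1 (List.replicate n 1) x =
      4 * (if nx p1 x ≠ x then w x (nx p1 x) else 0) := by
    unfold arcTerm
    rw [hkq x hx']
    by_cases h : nx p1 x = x
    · simp [h]
    · simp [h]
  have a2 : (if rep n p1 x = rep n p1 (nx p2 x) then 0 else w x (nx p2 x)) ≤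
      linkTerm w n p1 p2 (List.replicate n 1) x := by
    unfold linkTerm
    split_ifs with h
    · exact le_rfl
    · rw [hkq x hx', hkq _ (Round.idx_lt h1 (Round.nx_lt h2 hx'))]
      have b1 : 1 ≤ (2 - if nx p1 x = x then 0 else 1) *
          (2 - if nx p1 (p1.idxOf (nx p2 x)) = p1.idxOf (nx p2 x) then 0 else 1) := by
        split_ifs <;> norm_num
      exact Nat.le_mul_of_pos_left _ b1
  omega

/-- the objective at the end -/
theorem obj_end (w : ℕ → ℕ → ℕ) {n : ℕ} {p1 p2 q : List ℕ}
    (hq : ∀ k, q.getD k 0 = 0 ∨ q.getD k 0 = 2) :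
    obj w n p1 p2 q = 8 * ((arcsK n p1 q).map (fun e => w e.1 e.2)).sum +
      4 * ((arcsL n p1 p2 q).map (fun e => w e.1 e.2)).sum := by
  unfold obj arcsK arcsL
  rw [sum_filter_map, sum_filter_map, sum_range_list, sum_range_list, sum_range_list,
    Finset.mul_sum, Finset.mul_sum, ← Finset.sum_add_distrib]
  refine Finset.sum_congr rfl fun x _ => ?_
  have hkq : ∀ y, kq n p1 q y = 0 ∨ kq n p1 q y = 2 := by
    intro y
    unfold kq
    rcases hq (rep n p1 y) with h | h <;> rw [h] <;> split_ifs <;> simp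
  have a1 : arcTerm w n p1 q x = 8 * (if kq n p1 q x = 2 then w x (nx p1 x) else 0) := by
    unfold arcTerm
    rcases hkq x with h | h <;> rw [h]
    · simp
    · simp only [if_true]
  have a2 : linkTerm w n p1 p2 q x = 4 * (if rep n p1 x ≠ rep n p1 (nx p2 x) ∧
      kq n p1 q x = 0 ∧ kq n p1 q (p1.idxOf (nx p2 x)) = 0 then w x (nx p2 x) else 0) := by
    unfold linkTerm
    by_cases h : rep n p1 x = rep n p1 (nx p2 x)
    · simp [h]
    · rcases hkq x with h3 | h3 <;> rcases hkq (p1.idxOf (nx p2 x)) with h4 | h4 <;>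
        simp [h, h3, h4]
  rw [a1, a2]

/-- lists of numbers below `n` as lists in `Fin n` -/
theorem pw_fin (w : ℕ → ℕ → ℕ) (n : ℕ) (l : List ℕ) (hl : l.Nodup) (hln : ∀ x ∈ l, x < n) :
    ∃ l' : List (Fin n), l'.Nodup ∧ pathWeight (fun i j : Fin n => w i j) l' = pw w l := by
  refine ⟨l.pmap (fun x hx => (⟨x, hx⟩ : Fin n)) hln, ?_, ?_⟩
  · refine List.Nodup.pmap ?_ hl
    intro a ha b hb h
    simpa using h
  · have e : l = (l.pmap (fun x hx => (⟨x, hx⟩ : Fin n)) hln).map Fin.val := by
      rw [List.map_pmap]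
      simp
    generalize l.pmap (fun x hx => (⟨x, hx⟩ : Fin n)) hln = l' at e
    rw [e]
    unfold pathWeight pw prs
    rw [← List.map_tail, List.zip_map, List.map_map]
    rfl

end MainOf

open MainOf

variable {n C : ℕ} {w : ℕ → ℕ → ℕ}

theorem wt1_le (hw : ∀ i j, w i j ≤ C) (i j : ℕ) : wt1 w i j ≤ C := by
  unfold wt1; split_ifs
  · exact Nat.zero_le _
  · exact hw i j

theorem wt2_le (hw : ∀ i j, w i j ≤ C) (p : List ℕ) (i j : ℕ) : wt2 w n p i j ≤ C := by
  unfold wt2; split_ifs
  · exact Nat.zero_le _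
  · exact hw i j

theorem pw_heavier (w : ℕ → ℕ → ℕ) (A B : List ℕ) :
    pw w A ≤ pw w (heavier w A B) ∧ pw w B ≤ pw w (heavier w A B) := by
  unfold heavier
  split_ifs with h
  · exact ⟨le_rfl, h⟩
  · exact ⟨by omega, le_rfl⟩

/-- the weight of the output, from the two candidates -/
theorem atsp_weight_of (hw : ∀ i j, w i j ≤ C)
    (candA : ∀ (p : List ℕ) (s : Equiv.Perm (Fin n)), (∀ i : Fin n, p.getD i 0 = s i) →
      3 * twoM1 (fun i j : Fin n => w i j) s + 4 * wE (fun i j : Fin n => w i j) s ≤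
        6 * pw w (breakF w (List.range n) (arcsA n p)))
    (candB : ∀ p1 p2 q : List ℕ, p1 ~ List.range n → p2 ~ List.range n →
      (∀ k, q.getD k 0 = 0 ∨ q.getD k 0 = 2) →
      2 * ((arcsK n p1 q).map (fun e => w e.1 e.2)).sum +
        ((arcsL n p1 p2 q).map (fun e => w e.1 e.2)).sum ≤
        2 * pw w (breakF w (List.range n) (arcsK n p1 q ++ arcsL n p1 p2 q)))
    (l : List ℕ) (hl : l.Nodup) (hln : ∀ x ∈ l, x < n) :
    6 * pw w l ≤ 11 * pw w (atsp n C w) := by
  set p1 := Auction.assign n C (wt1 w) with hp1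
  set p2 := Auction.assign n C (wt2 w n p1) with hp2
  have hw1 := wt1_le hw
  have hw2 := wt2_le (n := n) hw p1
  have h1 : p1 ~ List.range n := Auction.assign_perm hw1
  have h2 : p2 ~ List.range n := Auction.assign_perm hw2
  set s1 := Auction.assignPerm (n := n) hw1 with hs1
  set s2 := Auction.assignPerm (n := n) hw2 with hs2
  have e1 : ∀ i : Fin n, p1.getD i 0 = s1 i := fun i => (Auction.assignPerm_val hw1 i).symm
  have e2 : ∀ i : Fin n, p2.getD i 0 = s2 i := fun i => (Auction.assignPerm_val hw2 i).symm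
  -- the two optimality statements
  have o1 : ∀ t : Equiv.Perm (Fin n), ∑ x, w0 (fun i j : Fin n => w i j) x (t x) ≤
      ∑ x, w0 (fun i j : Fin n => w i j) x (s1 x) := by
    intro t
    have := Auction.assign_max (n := n) hw1 t
    simp only [← wt1_eq]
    refine this.trans (le_of_eq (Finset.sum_congr rfl fun i _ => ?_))
    rw [← e1 i]
  have o2 : ∀ t : Equiv.Perm (Fin n), ∑ x, w2 (fun i j : Fin n => w i j) s1 x (t x) ≤
      ∑ x, w2 (fun i j : Fin n => w i j) s1 x (s2 x) := by
    intro t
    have := Auction.assign_max (n := n) hw2 t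
    simp only [← wt2_eq e1]
    refine this.trans (le_of_eq (Finset.sum_congr rfl fun i _ => ?_))
    rw [← e2 i]
  obtain ⟨l', hl', hll⟩ := pw_fin w n l hl hln
  have i1 := pathWeight_le_C1 _ s1 o1 l' hl'
  have i2 := path_le _ s1 s2 o1 o2 l' hl'
  have i3 := wD_le (fun i j : Fin n => w i j) s1
  rw [hll] at i1 i2
  -- the two candidates
  have cA := candA p1 s1 e1
  obtain ⟨-, b2, b3⟩ := bits_spec w h1 h2
  have cB := candB p1 p2 (bits w n p1 p2) h1 h2 b2
  have f1 := obj_init w h1 h2
  have f2 := obj_end w (n := n) (p1 := p1) (p2 := p2) b2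
  have g1 := wD_add_wE s1 (nx p1) w e1
  have g2 := sum_w2_eq s1 (w := w) s2 (nx p2) e2 (r := rep n p1) (fun x y => rep_eq_iff e1 x y)
  rw [← g1, ← g2] at f1
  have hh := pw_heavier w (breakF w (List.range n) (arcsA n p1))
    (breakF w (List.range n) (arcsK n p1 (bits w n p1 p2) ++ arcsL n p1 p2 (bits w n p1 p2)))
  have hat : atsp n C w = heavier w (breakF w (List.range n) (arcsA n p1))
    (breakF w (List.range n) (arcsK n p1 (bits w n p1 p2) ++ arcsL n p1 p2 (bits w n p1 p2))) :=
    rfl
  rw [hat]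
  obtain ⟨hA, hB⟩ := hh
  omega

end Vale.Agent.P333.M
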