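import Vale.Agent.P333.M.Open

/-!
P333, box O: the list of the opened cycles (`opened`) is the set of the words `openWord σ b`,
`b ∈ B`, for an opening `B` of the minimum cycle cover `σ` given by the function `p`.
-/

namespace Vale.Agent.P333.Open

open Vale.Agent.P333.ST Function

variable {α : Type*} [DecidableEq α]

theorem inv_self' {X : Type*} (σ : Equiv.Perm X) (x : X) : σ⁻¹ (σ x) = x := σ.symm_apply_apply x

theorem self_inv' {X : Type*} (σ : Equiv.Perm X) (x : X) : σ (σ⁻¹ x) = x := σ.apply_symm_apply x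

theorem sc_inv_left {X : Type*} (σ : Equiv.Perm X) (x y : X) :
    σ.SameCycle (σ⁻¹ x) y ↔ σ.SameCycle x y := Equiv.Perm.sameCycle_symm_apply_left

theorem sc_inv_right {X : Type*} (σ : Equiv.Perm X) (x y : X) :
    σ.SameCycle x (σ⁻¹ y) ↔ σ.SameCycle x y := Equiv.Perm.sameCycle_symm_apply_right

/-- Indices and strings. -/
def ix (L : List (List α)) (hL : L.Nodup) : Fin L.length ≃ L.toFinset :=
  (List.Nodup.getEquiv L hL).trans (Equiv.subtypeEquivRight fun _ => List.mem_toFinset.symm)

/-- The strings by index. -/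
def st (L : List (List α)) (i : ℕ) : List α := L.getD i []

/-- The overlaps by index. -/
def ovs (L : List (List α)) (i j : ℕ) : ℕ := ov (st L i) (st L j)

variable {L : List (List α)} {hL : L.Nodup}

theorem ix_val (i : Fin L.length) : (ix L hL i).1 = st L i := by
  simp [ix, st, List.Nodup.getEquiv]

/-- The permutation of the indices. -/
noncomputable def pf {n : ℕ} (p : ℕ → ℕ) (hp : ∀ i < n, p i < n)
    (hinj : ∀ i < n, ∀ j < n, p i = p j → i = j) : Equiv.Perm (Fin n) :=
  Equiv.ofBijective (fun i => ⟨p i, hp i i.2⟩) (Finite.injective_iff_bijective.1 (by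
    intro i j h
    have h1 : p i = p j := by simpa using h
    exact Fin.ext (hinj i i.2 j j.2 h1)))

/-- The cycle cover. -/
noncomputable def sg (L : List (List α)) (hL : L.Nodup) (p : ℕ → ℕ)
    (hp : ∀ i < L.length, p i < L.length)
    (hinj : ∀ i < L.length, ∀ j < L.length, p i = p j → i = j) : Equiv.Perm L.toFinset :=
  (ix L hL).symm.trans ((pf p hp hinj).trans (ix L hL))

variable {p : ℕ → ℕ} {hp : ∀ i < L.length, p i < L.length}
  {hinj : ∀ i < L.length, ∀ j < L.length, p i = p j → i = j}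

theorem pf_val (i : Fin L.length) : ((pf p hp hinj i : Fin L.length) : ℕ) = p i := rfl

theorem sg_ix (i : Fin L.length) : sg L hL p hp hinj (ix L hL i) = ix L hL (pf p hp hinj i) := by
  simp [sg]

theorem sg_pow_ix (k : ℕ) (i : Fin L.length) :
    (sg L hL p hp hinj ^ k) (ix L hL i) = ix L hL ((pf p hp hinj ^ k) i) := by
  induction k with
  | zero => rfl
  | succ k ih => rw [pow_succ', pow_succ', Equiv.Perm.mul_apply, ih, sg_ix, Equiv.Perm.mul_apply]

theorem pf_pow_val (k : ℕ) (i : Fin L.length) :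
    (((pf p hp hinj ^ k) i : Fin L.length) : ℕ) = p^[k] i := by
  induction k with
  | zero => rfl
  | succ k ih =>
    rw [pow_succ', Equiv.Perm.mul_apply, pf_val, ih, Function.iterate_succ_apply']

theorem ix_pow_eq {k : ℕ} {i j : Fin L.length} :
    (sg L hL p hp hinj ^ k) (ix L hL i) = ix L hL j ↔ p^[k] i = j := by
  rw [sg_pow_ix, (ix L hL).apply_eq_iff_eq, Fin.ext_iff, pf_pow_val]

theorem pathWord_ix (i : Fin L.length) (k : ℕ) :
    pathWord (sg L hL p hp hinj) (ix L hL i) k = pw (st L) (ovs L) p i k := by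
  induction k with
  | zero => exact ix_val i
  | succ k ih =>
    rw [pathWord, ih, pw, sg_pow_ix, sg_pow_ix, ix_val, ix_val, pf_pow_val, pf_pow_val]
    rfl

theorem cyc_le (b : L.toFinset) : cyc (sg L hL p hp hinj) b ≤ L.length := by
  have h := Function.minimalPeriod_le_card (f := sg L hL p hp hinj) (x := b)
  rw [← Fintype.card_congr (ix L hL), Fintype.card_fin] at h
  exact h

theorem openWord_ix (c : Fin L.length) :
    openWord (sg L hL p hp hinj) (sg L hL p hp hinj (ix L hL c)) =
      merge (st L) (ovs L) (cycFrom L.length p c) := by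
  set σ := sg L hL p hp hinj with hσ
  set b := ix L hL (pf p hp hinj c) with hb
  have hbc : σ (ix L hL c) = b := by rw [hσ, sg_ix]
  rw [hbc]
  have hm0 : 0 < cyc σ b := cyc_pos σ b
  have hinv : σ⁻¹ b = ix L hL c := by
    rw [Equiv.Perm.inv_eq_iff_eq, hbc]
  have h1 : p^[cyc σ b - 1] (p c) = c := by
    have h := pow_pred_cyc σ b
    rw [hinv, hb, hσ, ix_pow_eq] at h
    exact h
  have h2 : ∀ j < cyc σ b - 1, p^[j] (p c) ≠ c := by
    intro j hj h
    have h3 : (σ ^ j) b = ix L hL c := by
      rw [hb, hσ, ix_pow_eq]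
      exact h
    have h4 : (σ ^ (j + 1)) b = b := by rw [pow_succ_apply, h3, hbc]
    have h5 : Function.IsPeriodicPt σ (j + 1) b := by
      rw [Function.IsPeriodicPt, Function.IsFixedPt, Equiv.Perm.iterate_eq_pow]
      exact h4
    have h6 := h5.minimalPeriod_le (by omega)
    have h7 : cyc σ b = minimalPeriod σ b := rfl
    omega
  have h3 : cyc σ b ≤ L.length := cyc_le b
  rw [cycFrom, walkTo_eq (cyc σ b - 1) L.length (p c) h1 h2 (by omega), merge_orb, openWord, hb,
    hσ, pathWord_ix]
  rfl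

/-! ### The lightest links -/

/-- Key of a node: the overlap of the outgoing link, then the index. -/
def key (o : ℕ → ℕ → ℕ) (p : ℕ → ℕ) (t : ℕ) : ℕ ×ₗ ℕ := toLex (o t (p t), t)

theorem isLast_iff {n : ℕ} {o : ℕ → ℕ → ℕ} {p : ℕ → ℕ} {c : ℕ} :
    isLast n o p c = true ↔ ∀ j < n, key o p c ≤ key o p (p^[j] c) := by
  have h : ∀ t, (decide (o c (p c) < o t (p t)) ||
      (decide (o c (p c) = o t (p t)) && decide (c ≤ t))) = true ↔ key o p c ≤ key o p t := by
    intro t
    rw [key, key, Prod.Lex.toLex_le_toLex]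
    simp
  rw [isLast, List.all_eq_true]
  constructor
  · intro h1 j hj
    exact (h _).1 (h1 _ (mem_orb.2 ⟨j, hj, rfl⟩))
  · intro h1 t ht
    obtain ⟨j, hj, rfl⟩ := mem_orb.1 ht
    exact (h _).2 (h1 j hj)

theorem sameCycle_ix {c t : Fin L.length} (h : (sg L hL p hp hinj).SameCycle (ix L hL c)
    (ix L hL t)) : ∃ j < L.length, p^[j] c = t := by
  obtain ⟨j, hj, h1⟩ := (sameCycle_iff_exists_iterate _ _ _).1 h
  refine ⟨j, lt_of_lt_of_le hj (cyc_le (hL := hL) (hp := hp) (hinj := hinj) _), ?_⟩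
  rw [Equiv.Perm.iterate_eq_pow, ix_pow_eq] at h1
  exact h1

theorem sameCycle_iterate (c : Fin L.length) (j : ℕ) :
    ∃ t : Fin L.length, (t : ℕ) = p^[j] c ∧
      (sg L hL p hp hinj).SameCycle (ix L hL c) (ix L hL t) := by
  refine ⟨(pf p hp hinj ^ j) c, pf_pow_val j c, ?_⟩
  rw [← sg_pow_ix]
  exact ⟨(j : ℤ), by simp⟩

theorem isLast_iff' {o : ℕ → ℕ → ℕ} {c : Fin L.length} :
    isLast L.length o p c = true ↔ ∀ t : Fin L.length,
      (sg L hL p hp hinj).SameCycle (ix L hL c) (ix L hL t) → key o p c ≤ key o p t := by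
  rw [isLast_iff]
  constructor
  · intro h t ht
    obtain ⟨j, hj, h1⟩ := sameCycle_ix ht
    have h2 := h j hj
    rwa [h1] at h2
  · intro h j hj
    obtain ⟨t, h1, h2⟩ := sameCycle_iterate (hL := hL) (hp := hp) (hinj := hinj) c j
    rw [← h1]
    exact h t h2

/-- The first strings of the opened cycles. -/
noncomputable def opn (L : List (List α)) (hL : L.Nodup) (p : ℕ → ℕ)
    (hp : ∀ i < L.length, p i < L.length)
    (hinj : ∀ i < L.length, ∀ j < L.length, p i = p j → i = j) : Finset L.toFinset :=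
  Finset.univ.filter fun b =>
    isLast L.length (ovs L) p ((ix L hL).symm ((sg L hL p hp hinj)⁻¹ b)) = true

theorem isOpening_opn : IsOpening (sg L hL p hp hinj) (opn L hL p hp hinj) := by
  set σ := sg L hL p hp hinj with hσ
  refine ⟨?_, ?_, ?_⟩
  · intro s
    set i := (ix L hL).symm s with hi
    have hs : s = ix L hL i := by rw [hi, Equiv.apply_symm_apply]
    classical
    obtain ⟨c, hc, hmin⟩ := Finset.exists_min_image
      (Finset.univ.filter fun t : Fin L.length => σ.SameCycle s (ix L hL t))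
      (fun t => key (ovs L) p t) ⟨i, by
        rw [Finset.mem_filter, ← hs]
        exact ⟨Finset.mem_univ _, Equiv.Perm.SameCycle.refl _ _⟩⟩
    rw [Finset.mem_filter] at hc
    refine ⟨σ (ix L hL c), ?_, ?_⟩
    · rw [opn, Finset.mem_filter]
      refine ⟨Finset.mem_univ _, ?_⟩
      rw [← hσ, inv_self', Equiv.symm_apply_apply, isLast_iff' (hL := hL)
        (hp := hp) (hinj := hinj)]
      intro t ht
      exact hmin t (Finset.mem_filter.2 ⟨Finset.mem_univ _, hc.2.trans ht⟩)
    · exact (Equiv.Perm.sameCycle_apply_left.2 hc.2.symm)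
  · intro b hb b' hb' h
    rw [opn, Finset.mem_filter, ← hσ] at hb hb'
    set c := (ix L hL).symm (σ⁻¹ b) with hc
    set c' := (ix L hL).symm (σ⁻¹ b') with hc'
    have e : σ⁻¹ b = ix L hL c := by rw [hc, Equiv.apply_symm_apply]
    have e' : σ⁻¹ b' = ix L hL c' := by rw [hc', Equiv.apply_symm_apply]
    have hcc : σ.SameCycle (ix L hL c) (ix L hL c') := by
      rw [← e, ← e', sc_inv_left, sc_inv_right]
      exact h
    have h1 := (isLast_iff' (hL := hL) (hp := hp) (hinj := hinj)).1 hb.2 c' hcc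
    have h2 := (isLast_iff' (hL := hL) (hp := hp) (hinj := hinj)).1 hb'.2 c hcc.symm
    have h3 : key (ovs L) p c = key (ovs L) p c' := le_antisymm h1 h2
    have h4 : (c : ℕ) = c' := by
      have := congrArg (fun z => (ofLex z).2) h3
      exact this
    have h5 : c = c' := Fin.ext h4
    have h6 : σ⁻¹ b = σ⁻¹ b' := by rw [e, e', h5]
    exact σ⁻¹.injective h6
  · intro b hb s hs
    rw [opn, Finset.mem_filter, ← hσ] at hb
    set c := (ix L hL).symm (σ⁻¹ b) with hc
    set t := (ix L hL).symm s with ht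
    have e : σ⁻¹ b = ix L hL c := by rw [hc, Equiv.apply_symm_apply]
    have e' : s = ix L hL t := by rw [ht, Equiv.apply_symm_apply]
    have hct : σ.SameCycle (ix L hL c) (ix L hL t) := by
      rw [← e, ← e', sc_inv_left]
      exact hs
    have h1 := (isLast_iff' (hL := hL) (hp := hp) (hinj := hinj)).1 hb.2 t hct
    rw [key, key, Prod.Lex.toLex_le_toLex] at h1
    have h2 : ovs L c (p c) ≤ ovs L t (p t) := by
      rcases h1 with h1 | h1
      · exact h1.le
      · exact h1.1.le
    have eb : b = ix L hL (pf p hp hinj c) := by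
      rw [← sg_ix (hL := hL), ← hσ, ← e, self_inv']
    have es : σ s = ix L hL (pf p hp hinj t) := by rw [← sg_ix (hL := hL), ← hσ, ← e']
    rw [es, e, e', ix_val, ix_val, ix_val, pf_val]
    rw [eb, ix_val, pf_val]
    exact h2

theorem mem_opened_iff {w : List α} :
    w ∈ opened L.length (st L) (ovs L) p ↔
      ∃ b ∈ opn L hL p hp hinj, openWord (sg L hL p hp hinj) b = w := by
  set σ := sg L hL p hp hinj with hσ
  rw [opened, List.mem_map]
  constructor
  · rintro ⟨c, hc, rfl⟩
    rw [lasts, List.mem_filter, List.mem_range] at hc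
    refine ⟨σ (ix L hL ⟨c, hc.1⟩), ?_, ?_⟩
    · rw [opn, Finset.mem_filter]
      refine ⟨Finset.mem_univ _, ?_⟩
      rw [← hσ, inv_self', Equiv.symm_apply_apply]
      exact hc.2
    · exact openWord_ix _
  · rintro ⟨b, hb, rfl⟩
    rw [opn, Finset.mem_filter, ← hσ] at hb
    set c := (ix L hL).symm (σ⁻¹ b) with hc
    have e : σ⁻¹ b = ix L hL c := by rw [hc, Equiv.apply_symm_apply]
    have eb : b = σ (ix L hL c) := by rw [← e, self_inv']
    refine ⟨c, ?_, ?_⟩
    · rw [lasts, List.mem_filter, List.mem_range]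
      exact ⟨c.2, hb.2⟩
    · rw [eb, openWord_ix]

/-- A function `p` of maximum total overlap is a minimum cycle cover. -/
theorem isMin_sg (h0 : [] ∉ L)
    (hmax : ∀ τ : Equiv.Perm (Fin L.length),
      ∑ i : Fin L.length, ovs L i (τ i) ≤ ∑ i : Fin L.length, ovs L i (p i)) :
    IsMin (sg L hL p hp hinj) := by
  have h0' : [] ∉ L.toFinset := by simpa using h0
  intro τ
  set e := ix L hL with he
  set τ' : Equiv.Perm (Fin L.length) := e.trans (τ.trans e.symm) with hτ'
  have key1 : ∀ ρ : Equiv.Perm L.toFinset,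
      cost ρ + ∑ i : Fin L.length, ovs L i (e.symm (ρ (e i))) = ∑ s : L.toFinset, s.1.length := by
    intro ρ
    have h1 : ∑ i : Fin L.length, ovs L i (e.symm (ρ (e i))) =
        ∑ s : L.toFinset, ov s.1 (ρ s).1 := by
      rw [← Equiv.sum_comp e]
      apply Finset.sum_congr rfl
      intro i _
      rw [ovs, ← ix_val (hL := hL), ← ix_val (hL := hL), ← he, Equiv.apply_symm_apply]
    rw [h1, cost, ← Finset.sum_add_distrib]
    apply Finset.sum_congr rfl
    intro s _
    exact dist_add_ov h0' ρ s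
  have h1 := key1 τ
  have h2 := key1 (sg L hL p hp hinj)
  have h3 := hmax τ'
  have h4 : ∑ i : Fin L.length, ovs L i (e.symm (sg L hL p hp hinj (e i))) =
      ∑ i : Fin L.length, ovs L i (p i) := by
    apply Finset.sum_congr rfl
    intro i _
    rw [he, sg_ix, Equiv.symm_apply_apply, pf_val]
  have h5 : ∑ i : Fin L.length, ovs L i (e.symm (τ (e i))) =
      ∑ i : Fin L.length, ovs L i (τ' i) := rfl
  omega

end Vale.Agent.P333.Open
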