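import Vale.Agent.P333.M.CoverIneq

/-!
P333, box M: the smallest node of a cycle (computed from iterates on natural numbers) and the
relation `SameCycle`.
-/

namespace Vale.Agent.P333.M

open Finset

section

variable {n : ℕ} {σ : Equiv.Perm (Fin n)} {s : ℕ → ℕ}

theorem iter_val (hs : ∀ i : Fin n, s i = σ i) (x : Fin n) (k : ℕ) :
    s^[k] x = ((σ ^ k) x : Fin n) := by
  induction k with
  | zero => simp
  | succ k ih =>
    rw [Function.iterate_succ_apply', ih, hs, pow_succ', Equiv.Perm.mul_apply]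

theorem iter_lt (hs : ∀ i : Fin n, s i = σ i) {x : ℕ} (hx : x < n) (k : ℕ) : s^[k] x < n := by
  have := iter_val hs ⟨x, hx⟩ k
  simp only at this
  rw [this]
  exact Fin.is_lt _

theorem sameCycle_of_iter (hs : ∀ i : Fin n, s i = σ i) {x y : Fin n} {k : ℕ}
    (hk : s^[k] x = y) : σ.SameCycle x y := by
  rw [iter_val hs] at hk
  exact ⟨k, by
    have := Fin.ext hk
    simpa using this⟩

theorem sameCycle_iff_iter (hs : ∀ i : Fin n, s i = σ i) (x y : Fin n) :
    σ.SameCycle x y ↔ ∃ k < n, s^[k] x = y := by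
  constructor
  · intro h
    have h1 : ∃ k : ℕ, (σ ^ k) x = y := by
      obtain ⟨i, hi⟩ := h
      have hfin : IsOfFinOrder σ := isOfFinOrder_of_finite σ
      have : σ ^ i ∈ Subgroup.zpowers σ := ⟨i, rfl⟩
      rw [← hfin.mem_powers_iff_mem_zpowers] at this
      obtain ⟨k, hk⟩ := this
      exact ⟨k, by
        have hk' : σ ^ k = σ ^ i := hk
        rw [hk', hi]⟩
    classical
    have hmin := Nat.find_spec h1
    set m := Nat.find h1 with hm
    refine ⟨m, ?_, by rw [iter_val hs, hmin]⟩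
    -- the first m + 1 points are distinct
    have hinj : Function.Injective (fun i : Fin (m + 1) => (σ ^ (i : ℕ)) x) := by
      have key : ∀ i j : ℕ, i < j → j ≤ m → (σ ^ i) x ≠ (σ ^ j) x := by
        intro i j hij hjm heq
        have h2 : (σ ^ (m - j + i)) x = y := by
          rw [pow_add, Equiv.Perm.mul_apply, heq, ← Equiv.Perm.mul_apply, ← pow_add,
            Nat.sub_add_cancel hjm, hmin]
        exact Nat.find_min h1 (m := m - j + i) (by omega) h2
      intro i j hij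
      by_contra hne
      rcases lt_or_gt_of_ne (fun h : (i : ℕ) = j => hne (Fin.ext h)) with h | h
      · exact key i j h (by omega) hij
      · exact key j i h (by omega) hij.symm
    have := Fintype.card_le_of_injective _ hinj
    simp only [Fintype.card_fin] at this
    omega
  · rintro ⟨k, -, hk⟩
    exact sameCycle_of_iter hs hk

/-- anything that is the least element of the orbit is a representative of the cycle -/
theorem rep_iff (hs : ∀ i : Fin n, s i = σ i) {r : ℕ → ℕ}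
    (h1 : ∀ x < n, ∃ k, s^[k] x = r x) (h2 : ∀ x < n, ∀ k < n, r x ≤ s^[k] x)
    (x y : Fin n) : r x = r y ↔ σ.SameCycle x y := by
  obtain ⟨k, hkx⟩ := h1 x x.2
  obtain ⟨l, hly⟩ := h1 y y.2
  have hx : r x < n := by rw [← hkx]; exact iter_lt hs x.2 k
  have hy : r y < n := by rw [← hly]; exact iter_lt hs y.2 l
  have cx : σ.SameCycle x ⟨r x, hx⟩ := sameCycle_of_iter hs (y := ⟨r x, hx⟩) hkx
  have cy : σ.SameCycle y ⟨r y, hy⟩ := sameCycle_of_iter hs (y := ⟨r y, hy⟩) hly
  constructor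
  · intro h
    have : (⟨r x, hx⟩ : Fin n) = ⟨r y, hy⟩ := Fin.ext h
    rw [this] at cx
    exact cx.trans cy.symm
  · intro h
    apply le_antisymm
    · obtain ⟨i, hi, hi2⟩ := (sameCycle_iff_iter hs x ⟨r y, hy⟩).1 (h.trans cy)
      have := h2 x x.2 i hi
      rw [hi2] at this
      exact this
    · obtain ⟨i, hi, hi2⟩ := (sameCycle_iff_iter hs y ⟨r x, hx⟩).1 (h.symm.trans cx)
      have := h2 y y.2 i hi
      rw [hi2] at this
      exact this

theorem rep_lt (hs : ∀ i : Fin n, s i = σ i) {r : ℕ → ℕ}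
    (h1 : ∀ x < n, ∃ k, s^[k] x = r x) {x : ℕ} (hx : x < n) : r x < n := by
  obtain ⟨k, hk⟩ := h1 x hx
  rw [← hk]
  exact iter_lt hs hx k

theorem rep_sameCycle (hs : ∀ i : Fin n, s i = σ i) {r : ℕ → ℕ}
    (h1 : ∀ x < n, ∃ k, s^[k] x = r x) (x : Fin n) :
    σ.SameCycle x ⟨r x, rep_lt hs h1 x.2⟩ := by
  obtain ⟨k, hk⟩ := h1 x x.2
  exact sameCycle_of_iter hs (y := ⟨r x, rep_lt hs h1 x.2⟩) hk

theorem rep_rep (hs : ∀ i : Fin n, s i = σ i) {r : ℕ → ℕ}
    (h1 : ∀ x < n, ∃ k, s^[k] x = r x) (h2 : ∀ x < n, ∀ k < n, r x ≤ s^[k] x)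
    {x : ℕ} (hx : x < n) : r (r x) = r x := by
  have := (rep_iff hs h1 h2 ⟨x, hx⟩ ⟨r x, rep_lt hs h1 hx⟩).2 (rep_sameCycle hs h1 ⟨x, hx⟩)
  simpa using this.symm

theorem rep_next (hs : ∀ i : Fin n, s i = σ i) {r : ℕ → ℕ}
    (h1 : ∀ x < n, ∃ k, s^[k] x = r x) (h2 : ∀ x < n, ∀ k < n, r x ≤ s^[k] x)
    {x : ℕ} (hx : x < n) : r (s x) = r x := by
  have h := (rep_iff hs h1 h2 (σ ⟨x, hx⟩) ⟨x, hx⟩).2
    (Equiv.Perm.sameCycle_apply_left.2 (Equiv.Perm.SameCycle.refl σ _))
  rw [← hs] at h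
  simpa using h

/-- a self map of the first `n` naturals that is injective is a permutation of `Fin n` -/
theorem exists_perm (hlt : ∀ x < n, s x < n) (hinj : ∀ x < n, ∀ y < n, s x = s y → x = y) :
    ∃ σ : Equiv.Perm (Fin n), ∀ i : Fin n, s i = σ i := by
  have hf : Function.Injective (fun i : Fin n => (⟨s i, hlt i i.2⟩ : Fin n)) := by
    intro i j hij
    simp only [Fin.mk.injEq] at hij
    exact Fin.ext (hinj i i.2 j j.2 hij)
  refine ⟨Equiv.ofBijective _ ((Fintype.bijective_iff_injective_and_card _).2 ⟨hf, rfl⟩), ?_⟩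
  intro i
  simp

end

/-! ### the smallest node of a cycle by recursion -/

/-- least of `x, c x, ..., c^[k] x` -/
def mn (c : ℕ → ℕ) : ℕ → ℕ → ℕ
  | 0, x => x
  | k + 1, x => min x (mn c k (c x))

theorem mn_mem (c : ℕ → ℕ) : ∀ k x, ∃ i, c^[i] x = mn c k x
  | 0, x => ⟨0, rfl⟩
  | k + 1, x => by
    obtain ⟨i, hi⟩ := mn_mem c k (c x)
    rcases le_total x (mn c k (c x)) with h | h
    · exact ⟨0, by simp [mn, min_eq_left h]⟩
    · exact ⟨i + 1, by
        rw [Function.iterate_succ_apply, hi]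
        simp [mn, min_eq_right h]⟩

theorem mn_le (c : ℕ → ℕ) : ∀ k x i, i ≤ k → mn c k x ≤ c^[i] x
  | 0, x, i, hi => by
    have : i = 0 := by omega
    subst this
    exact le_refl _
  | k + 1, x, 0, _ => by simp [mn]
  | k + 1, x, i + 1, hi => by
    rw [Function.iterate_succ_apply]
    exact le_trans (by simp [mn]) (mn_le c k (c x) i (by omega))

theorem mn_iff {n : ℕ} {σ : Equiv.Perm (Fin n)} {s : ℕ → ℕ} (hs : ∀ i : Fin n, s i = σ i)
    (x y : Fin n) : mn s n x = mn s n y ↔ σ.SameCycle x y :=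
  rep_iff (r := fun x => mn s n x) hs (fun x _ => mn_mem s n x)
    (fun x _ k hk => mn_le s n x k hk.le) x y

/-! ### sums over `range n` -/

section sums

variable {n : ℕ} (σ : Equiv.Perm (Fin n)) (s : ℕ → ℕ) (w : ℕ → ℕ → ℕ)

theorem twoM1_eq (hs : ∀ i : Fin n, s i = σ i) :
    twoM1 (fun i j : Fin n => w i j) σ =
      ∑ x ∈ range n, if s x ≠ x ∧ s (s x) = x then max (w x (s x)) (w (s x) x) else 0 := by
  unfold twoM1
  rw [Finset.sum_filter, ← Fin.sum_univ_eq_sum_range
    (fun x => if s x ≠ x ∧ s (s x) = x then max (w x (s x)) (w (s x) x) else 0) n]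
  refine Finset.sum_congr rfl (fun i _ => ?_)
  simp only [hs, ne_eq, Fin.ext_iff]

theorem wD_eq (hs : ∀ i : Fin n, s i = σ i) :
    wD (fun i j : Fin n => w i j) σ =
      ∑ x ∈ range n, if s x ≠ x ∧ s (s x) = x then w x (s x) else 0 := by
  unfold wD
  rw [Finset.sum_filter, ← Fin.sum_univ_eq_sum_range
    (fun x => if s x ≠ x ∧ s (s x) = x then w x (s x) else 0) n]
  refine Finset.sum_congr rfl (fun i _ => ?_)
  simp only [hs, ne_eq, Fin.ext_iff]

theorem wE_eq (hs : ∀ i : Fin n, s i = σ i) :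
    wE (fun i j : Fin n => w i j) σ =
      ∑ x ∈ range n, if s (s x) ≠ x then w x (s x) else 0 := by
  unfold wE
  rw [Finset.sum_filter, ← Fin.sum_univ_eq_sum_range
    (fun x => if s (s x) ≠ x then w x (s x) else 0) n]
  refine Finset.sum_congr rfl (fun i _ => ?_)
  simp only [hs, ne_eq, Fin.ext_iff]

/-- weight of the nontrivial cycles of the first cover -/
theorem wD_add_wE (hs : ∀ i : Fin n, s i = σ i) :
    wD (fun i j : Fin n => w i j) σ + wE (fun i j : Fin n => w i j) σ =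
      ∑ x ∈ range n, if s x ≠ x then w x (s x) else 0 := by
  rw [wD_eq σ s w hs, wE_eq σ s w hs, ← Finset.sum_add_distrib]
  refine Finset.sum_congr rfl (fun x _ => ?_)
  by_cases h1 : s x = x
  · simp [h1]
  · by_cases h2 : s (s x) = x
    · simp [h1, h2]
    · simp [h1, h2]

/-- the second cover in the form of a sum over `range n`, for any representative function -/
theorem sum_w2_eq (τ : Equiv.Perm (Fin n)) (t : ℕ → ℕ) (ht : ∀ i : Fin n, t i = τ i)
    {r : ℕ → ℕ} (hr : ∀ x y : Fin n, r x = r y ↔ σ.SameCycle x y) :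
    ∑ x, w2 (fun i j : Fin n => w i j) σ x (τ x) =
      ∑ x ∈ range n, if r x = r (t x) then 0 else w x (t x) := by
  rw [← Fin.sum_univ_eq_sum_range (fun x => if r x = r (t x) then 0 else w x (t x)) n]
  refine Finset.sum_congr rfl (fun i _ => ?_)
  unfold w2
  simp only [ht, ← hr i (τ i)]

end sums

end Vale.Agent.P333.M
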