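import Vale.Agent.P333.M.Prog

/-!
P333, box M: the coins are fixed one after the other; the expected value does not decrease.
-/

namespace Vale.Agent.P333.M

open List

namespace Round

theorem nx_mem {n : ℕ} {p : List ℕ} (hp : p ~ List.range n) {x : ℕ} (hx : x < n) : nx p x ∈ p := by
  have hl : p.length = n := by rw [hp.length_eq, List.length_range]
  unfold nx
  rw [List.getD_eq_getElem _ _ (by omega)]
  exact List.getElem_mem _

theorem nx_lt {n : ℕ} {p : List ℕ} (hp : p ~ List.range n) {x : ℕ} (hx : x < n) : nx p x < n :=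
  List.mem_range.1 (hp.mem_iff.1 (nx_mem hp hx))

theorem nx_inj {n : ℕ} {p : List ℕ} (hp : p ~ List.range n) {x y : ℕ} (hx : x < n) (hy : y < n)
    (h : nx p x = nx p y) : x = y := by
  have hl : p.length = n := by rw [hp.length_eq, List.length_range]
  have hn : p.Nodup := hp.nodup_iff.2 List.nodup_range
  unfold nx at h
  rw [List.getD_eq_getElem _ _ (by omega), List.getD_eq_getElem _ _ (by omega)] at h
  exact (hn.getElem_inj_iff).1 h

theorem idx_lt {n : ℕ} {p : List ℕ} (hp : p ~ List.range n) {y : ℕ} (hy : y < n) :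
    p.idxOf y < n := by
  have hl : p.length = n := by rw [hp.length_eq, List.length_range]
  rw [← hl]
  exact List.idxOf_lt_length_iff.2 (hp.mem_iff.2 (List.mem_range.2 hy))

theorem nx_idx {n : ℕ} {p : List ℕ} (hp : p ~ List.range n) {y : ℕ} (hy : y < n) :
    nx p (p.idxOf y) = y := by
  have hl : p.length = n := by rw [hp.length_eq, List.length_range]
  have h := idx_lt hp hy
  unfold nx
  rw [List.getD_eq_getElem _ _ (by omega)]
  exact List.getElem_idxOf _

theorem iter_lt {n : ℕ} {p : List ℕ} (hp : p ~ List.range n) {x : ℕ} (hx : x < n) (k : ℕ) :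
    (nx p)^[k] x < n := by
  induction k with
  | zero => exact hx
  | succ k ih => rw [Function.iterate_succ_apply']; exact nx_lt hp ih

theorem iter_inj {n : ℕ} {p : List ℕ} (hp : p ~ List.range n) {x y : ℕ} (hx : x < n) (hy : y < n)
    (k : ℕ) (h : (nx p)^[k] x = (nx p)^[k] y) : x = y := by
  induction k with
  | zero => exact h
  | succ k ih =>
    rw [Function.iterate_succ_apply', Function.iterate_succ_apply'] at h
    exact ih (nx_inj hp (iter_lt hp hx k) (iter_lt hp hy k) h)

theorem exists_period {n : ℕ} {p : List ℕ} (hp : p ~ List.range n) {x : ℕ} (hx : x < n) :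
    ∃ d, 0 < d ∧ d ≤ n ∧ (nx p)^[d] x = x := by
  obtain ⟨i, j, hij, h⟩ := Fintype.exists_ne_map_eq_of_card_lt
    (fun k : Fin (n + 1) => (⟨(nx p)^[k.1] x, iter_lt hp hx k.1⟩ : Fin n)) (by simp)
  have h' : (nx p)^[i.1] x = (nx p)^[j.1] x := by simpa using h
  have key : ∀ a b : ℕ, a < b → b ≤ n → (nx p)^[a] x = (nx p)^[b] x →
      ∃ d, 0 < d ∧ d ≤ n ∧ (nx p)^[d] x = x := by
    intro a b hab hb hh
    refine ⟨b - a, by omega, by omega, ?_⟩
    have e1 : b = a + (b - a) := by omega
    rw [e1, Function.iterate_add_apply] at hh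
    exact (iter_inj hp hx (iter_lt hp hx _) a hh).symm
  have hij' : i.1 ≠ j.1 := fun hh => hij (Fin.ext hh)
  have hi := i.2
  have hj := j.2
  rcases lt_or_gt_of_ne hij' with h1 | h1
  · exact key _ _ h1 (by omega) h'
  · exact key _ _ h1 (by omega) h'.symm

theorem mem_orb {p : List ℕ} {x k : ℕ} {y : ℕ} : y ∈ orb p x k ↔ ∃ j < k, (nx p)^[j] x = y := by
  induction k generalizing x with
  | zero => simp [orb]
  | succ k ih =>
    simp only [orb, List.mem_cons, ih]
    constructor
    · rintro (h | ⟨j, hj, h⟩)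
      · exact ⟨0, by omega, h.symm⟩
      · exact ⟨j + 1, by omega, by rw [Function.iterate_succ_apply]; exact h⟩
    · rintro ⟨j, hj, h⟩
      cases j with
      | zero => exact Or.inl h.symm
      | succ j => exact Or.inr ⟨j, by omega, by rw [Function.iterate_succ_apply] at h; exact h⟩

theorem foldl_min (l : List ℕ) (a : ℕ) :
    (l.foldl min a ≤ a ∧ ∀ y ∈ l, l.foldl min a ≤ y) ∧ (l.foldl min a = a ∨ l.foldl min a ∈ l) := by
  induction l generalizing a with
  | nil => simp
  | cons b l ih =>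
    obtain ⟨⟨h1, h2⟩, h3⟩ := ih (min a b)
    rw [List.foldl_cons]
    refine ⟨⟨h1.trans (min_le_left _ _), ?_⟩, ?_⟩
    · intro y hy
      rcases List.mem_cons.1 hy with rfl | hy
      · exact h1.trans (min_le_right _ _)
      · exact h2 y hy
    · rcases h3 with h3 | h3
      · rw [h3]
        rcases min_choice a b with h4 | h4
        · exact Or.inl h4
        · exact Or.inr (by rw [h4]; exact List.mem_cons_self)
      · exact Or.inr (List.mem_cons_of_mem _ h3)

theorem rep_le {n : ℕ} {p : List ℕ} (hp : p ~ List.range n) {x : ℕ} (hx : x < n) (k : ℕ) :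
    rep n p x ≤ (nx p)^[k] x := by
  obtain ⟨d, hd0, hdn, hd⟩ := exists_period hp hx
  have h1 : (nx p)^[k % d] x = (nx p)^[k] x :=
    Function.IsPeriodicPt.iterate_mod_apply hd k
  rw [← h1]
  refine (foldl_min (orb p x n) x).1.2 _ ?_
  rw [mem_orb]
  exact ⟨k % d, (Nat.mod_lt _ hd0).trans_le hdn, rfl⟩

theorem rep_mem (n : ℕ) (p : List ℕ) (x : ℕ) : ∃ k, rep n p x = (nx p)^[k] x := by
  rcases (foldl_min (orb p x n) x).2 with h | h
  · exact ⟨0, h⟩
  · obtain ⟨j, -, hj⟩ := mem_orb.1 h
    exact ⟨j, hj.symm⟩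

theorem rep_lt {n : ℕ} {p : List ℕ} (hp : p ~ List.range n) {x : ℕ} (hx : x < n) :
    rep n p x < n := lt_of_le_of_lt (rep_le hp hx 0) hx

theorem rep_nx {n : ℕ} {p : List ℕ} (hp : p ~ List.range n) {x : ℕ} (hx : x < n) :
    rep n p (nx p x) = rep n p x := by
  apply le_antisymm
  · obtain ⟨k, hk⟩ := rep_mem n p x
    obtain ⟨d, hd0, hdn, hd⟩ := exists_period hp hx
    have h1 : (nx p)^[k] x = (nx p)^[k + d - 1] (nx p x) := by
      rw [← Function.iterate_succ_apply]
      have e1 : (k + d - 1).succ = k + d := by omega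
      rw [e1, Function.iterate_add_apply, hd]
    rw [hk, h1]
    exact rep_le hp (nx_lt hp hx) _
  · obtain ⟨k, hk⟩ := rep_mem n p (nx p x)
    rw [hk, ← Function.iterate_succ_apply]
    exact rep_le hp hx _

theorem rep_idx {n : ℕ} {p : List ℕ} (hp : p ~ List.range n) {y : ℕ} (hy : y < n) :
    rep n p (p.idxOf y) = rep n p y := by
  rw [← rep_nx hp (idx_lt hp hy), nx_idx hp hy]

theorem getD_set' (q : List ℕ) (r v k : ℕ) (hr : r < q.length) :
    (q.set r v).getD k 0 = if k = r then v else q.getD k 0 := by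
  rw [List.getD_eq_getElem?_getD, List.getD_eq_getElem?_getD, List.getElem?_set]
  split_ifs with h1 h2 h3
  · simp
  · exact absurd h1.symm h2
  · exact absurd h3.symm h1
  · rfl

/-- `kq` depends only on the coin of the cycle -/
theorem kq_set_ne {n : ℕ} {p q : List ℕ} {x r v : ℕ} (hr : r < q.length) (h : rep n p x ≠ r) :
    kq n p (q.set r v) x = kq n p q x := by
  unfold kq
  rw [getD_set' q r v _ hr, if_neg h]

/-- `kq` is linear in the coin of the cycle -/
theorem kq_set_lin {n : ℕ} {p q : List ℕ} {x r : ℕ} (hr : r < q.length) :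
    kq n p (q.set r 0) x + kq n p (q.set r 2) x = 2 * kq n p (q.set r 1) x := by
  unfold kq
  rw [getD_set' q r _ _ hr, getD_set' q r _ _ hr, getD_set' q r _ _ hr]
  split_ifs <;> omega

theorem kq_le {n : ℕ} {p q : List ℕ} (hq : ∀ k, q.getD k 0 ≤ 2) (x : ℕ) : kq n p q x ≤ 2 := by
  unfold kq
  have := hq (rep n p x)
  split_ifs <;> omega

theorem arc_lin (w : ℕ → ℕ → ℕ) {n : ℕ} {p q : List ℕ} {x r : ℕ} (hr : r < q.length) :
    arcTerm w n p (q.set r 0) x + arcTerm w n p (q.set r 2) x =
      2 * arcTerm w n p (q.set r 1) x := by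
  unfold arcTerm
  have h := kq_set_lin (n := n) (p := p) (x := x) hr
  have e : 4 * kq n p (q.set r 0) x * w x (nx p x) + 4 * kq n p (q.set r 2) x * w x (nx p x) =
      4 * (kq n p (q.set r 0) x + kq n p (q.set r 2) x) * w x (nx p x) := by ring
  rw [e, h]
  ring

theorem link_lin (w : ℕ → ℕ → ℕ) {n : ℕ} {p1 p2 q : List ℕ} (h1 : p1 ~ List.range n)
    (h2 : p2 ~ List.range n) {x r : ℕ} (hx : x < n) (hr : r < q.length)
    (hq : ∀ k, q.getD k 0 ≤ 2) :
    linkTerm w n p1 p2 (q.set r 0) x + linkTerm w n p1 p2 (q.set r 2) x =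
      2 * linkTerm w n p1 p2 (q.set r 1) x := by
  unfold linkTerm
  by_cases hrep : rep n p1 x = rep n p1 (nx p2 x)
  · simp only [if_pos hrep]
  · simp only [if_neg hrep]
    have hy : nx p2 x < n := nx_lt h2 hx
    have hyr : rep n p1 (p1.idxOf (nx p2 x)) = rep n p1 (nx p2 x) := rep_idx h1 hy
    have hle : ∀ v ≤ 2, ∀ k, (q.set r v).getD k 0 ≤ 2 := by
      intro v hv k
      rw [getD_set' q r v k hr]
      split_ifs
      · exact hv
      · exact hq k
    by_cases hxr : rep n p1 x = r
    · have hne : rep n p1 (p1.idxOf (nx p2 x)) ≠ r := by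
        rw [hyr]
        intro h
        exact hrep (hxr.trans h.symm)
      rw [kq_set_ne hr hne, kq_set_ne hr hne, kq_set_ne hr hne]
      have h := kq_set_lin (n := n) (p := p1) (x := x) hr
      have b0 := kq_le (n := n) (p := p1) (hle 0 (by omega)) x
      have b1 := kq_le (n := n) (p := p1) (hle 1 (by omega)) x
      have b2 := kq_le (n := n) (p := p1) (hle 2 (by omega)) x
      have e : (2 - kq n p1 (q.set r 0) x) + (2 - kq n p1 (q.set r 2) x) =
          2 * (2 - kq n p1 (q.set r 1) x) := by omega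
      rw [← Nat.mul_assoc 2, ← Nat.mul_assoc 2, ← e]
      ring
    · rw [kq_set_ne hr hxr, kq_set_ne hr hxr, kq_set_ne hr hxr]
      have h := kq_set_lin (n := n) (p := p1) (x := p1.idxOf (nx p2 x)) hr
      have b0 := kq_le (n := n) (p := p1) (hle 0 (by omega)) (p1.idxOf (nx p2 x))
      have b1 := kq_le (n := n) (p := p1) (hle 1 (by omega)) (p1.idxOf (nx p2 x))
      have b2 := kq_le (n := n) (p := p1) (hle 2 (by omega)) (p1.idxOf (nx p2 x))
      have e : (2 - kq n p1 (q.set r 0) (p1.idxOf (nx p2 x))) +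
          (2 - kq n p1 (q.set r 2) (p1.idxOf (nx p2 x))) =
          2 * (2 - kq n p1 (q.set r 1) (p1.idxOf (nx p2 x))) := by omega
      have e2 : 2 * ((2 - kq n p1 q x) * (2 - kq n p1 (q.set r 1) (p1.idxOf (nx p2 x))) *
          w x (nx p2 x)) = (2 - kq n p1 q x) * (2 * (2 - kq n p1 (q.set r 1)
            (p1.idxOf (nx p2 x)))) * w x (nx p2 x) := by ring
      rw [e2, ← e]
      ring

theorem obj_lin (w : ℕ → ℕ → ℕ) {n : ℕ} {p1 p2 q : List ℕ} (h1 : p1 ~ List.range n)
    (h2 : p2 ~ List.range n) {r : ℕ} (hr : r < q.length) (hq : ∀ k, q.getD k 0 ≤ 2) :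
    obj w n p1 p2 (q.set r 0) + obj w n p1 p2 (q.set r 2) = 2 * obj w n p1 p2 (q.set r 1) := by
  unfold obj
  rw [← List.sum_map_add, ← List.sum_map_mul_left]
  congr 1
  apply List.map_congr_left
  intro x hx
  have e1 := arc_lin w (n := n) (p := p1) (x := x) hr
  have e2 := link_lin w h1 h2 (List.mem_range.1 hx) hr hq
  omega

/-- the coins after `m` steps -/
def part (w : ℕ → ℕ → ℕ) (n : ℕ) (p1 p2 : List ℕ) (m : ℕ) : List ℕ :=
  (List.range m).foldl
    (fun q r => if obj w n p1 p2 (q.set r 2) ≤ obj w n p1 p2 (q.set r 0) then q.set r 0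
      else q.set r 2)
    (List.replicate n 1)

theorem part_succ (w : ℕ → ℕ → ℕ) (n : ℕ) (p1 p2 : List ℕ) (m : ℕ) :
    part w n p1 p2 (m + 1) =
      if obj w n p1 p2 ((part w n p1 p2 m).set m 2) ≤ obj w n p1 p2 ((part w n p1 p2 m).set m 0)
      then (part w n p1 p2 m).set m 0 else (part w n p1 p2 m).set m 2 := by
  unfold part
  rw [List.range_succ, List.foldl_append]
  rfl

theorem part_spec (w : ℕ → ℕ → ℕ) {n : ℕ} {p1 p2 : List ℕ} (h1 : p1 ~ List.range n)
    (h2 : p2 ~ List.range n) (m : ℕ) (hm : m ≤ n) :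
    (part w n p1 p2 m).length = n ∧
      (∀ k < m, (part w n p1 p2 m).getD k 0 = 0 ∨ (part w n p1 p2 m).getD k 0 = 2) ∧
      (∀ k, m ≤ k → k < n → (part w n p1 p2 m).getD k 0 = 1) ∧
      obj w n p1 p2 (List.replicate n 1) ≤ obj w n p1 p2 (part w n p1 p2 m) := by
  induction m with
  | zero =>
    refine ⟨by simp [part], by intro k hk; omega, ?_, le_rfl⟩
    intro k _ hk
    simp [part, hk]
  | succ m ih =>
    obtain ⟨i1, i2, i3, i4⟩ := ih (by omega)
    have hr : m < (part w n p1 p2 m).length := by omega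
    have hq : ∀ k, (part w n p1 p2 m).getD k 0 ≤ 2 := by
      intro k
      rcases lt_or_ge k m with h | h
      · rcases i2 k h with h' | h' <;> omega
      · rcases lt_or_ge k n with h' | h'
        · rw [i3 k h h']; omega
        · rw [List.getD_eq_default _ _ (by omega)]; omega
    have hself : (part w n p1 p2 m).set m 1 = part w n p1 p2 m := by
      have h3 := i3 m le_rfl (by omega)
      rw [List.getD_eq_getElem _ _ hr] at h3
      rw [← h3]
      exact List.set_getElem_self hr
    have hl := obj_lin w h1 h2 hr hq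
    rw [hself] at hl
    rw [part_succ]
    split_ifs with hc
    · refine ⟨by simp [i1], ?_, ?_, by omega⟩
      · intro k hk
        rw [getD_set' _ _ _ _ hr]
        split_ifs with hk2
        · exact Or.inl rfl
        · exact i2 k (by omega)
      · intro k hk hk2
        rw [getD_set' _ _ _ _ hr, if_neg (by omega)]
        exact i3 k (by omega) hk2
    · refine ⟨by simp [i1], ?_, ?_, by omega⟩
      · intro k hk
        rw [getD_set' _ _ _ _ hr]
        split_ifs with hk2
        · exact Or.inr rfl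
        · exact i2 k (by omega)
      · intro k hk hk2
        rw [getD_set' _ _ _ _ hr, if_neg (by omega)]
        exact i3 k (by omega) hk2

end Round

open Round

/-- the coins are fixed and the objective does not decrease -/
theorem bits_spec (w : ℕ → ℕ → ℕ) {n : ℕ} {p1 p2 : List ℕ} (h1 : p1 ~ List.range n)
    (h2 : p2 ~ List.range n) :
    (bits w n p1 p2).length = n ∧
      (∀ k, (bits w n p1 p2).getD k 0 = 0 ∨ (bits w n p1 p2).getD k 0 = 2) ∧
      obj w n p1 p2 (List.replicate n 1) ≤ obj w n p1 p2 (bits w n p1 p2) := by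
  obtain ⟨a, b, _, d⟩ := part_spec w h1 h2 n le_rfl
  refine ⟨a, ?_, d⟩
  intro k
  rcases lt_or_ge k n with h | h
  · exact b k h
  · left
    have : (bits w n p1 p2).length ≤ k := by
      have h' : (bits w n p1 p2).length = n := a
      omega
    exact List.getD_eq_default _ _ this

end Vale.Agent.P333.M
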