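import Vale.Agent.P333.Tick2
import Vale.Agent.P333.M.AuctionL

/-!
P333: the auction algorithm as a ticked program, with a polynomial bound for its running time.
-/

namespace Vale.Agent.P333.Auction

open Tick

/-- is `x` an entry of `l`? -/
def memT (x : ℕ) (l : List ℕ) : Tick Bool := anyT (fun y => eqNT x y) l

/-- the first position of `x` in `l` (the length of `l` if there is none) -/
def idxOfT (x : ℕ) : List ℕ → Tick ℕ
  | [] => pay 1 0
  | y :: l => (eqNT y x).bind fun b => if b then pay 1 0 else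
      (idxOfT x l).bind fun k => pay 1 (k + 1)

/-- one comparison of the search for the best object -/
def lessT (aT : ℕ → Tick ℕ) (p : List ℕ) (b k : ℕ) : Tick ℕ :=
  (aT b).bind fun x => (getT p k 0).bind fun y => (addT x y).bind fun u =>
  (aT k).bind fun x' => (getT p b 0).bind fun y' => (addT x' y').bind fun v =>
  (cmpT v u).bind fun c => if c then pay 1 b else pay 1 k

/-- the object with the largest `a[j] - p[j]` -/
def bestObjT (n : ℕ) (aT : ℕ → Tick ℕ) (p : List ℕ) : Tick ℕ :=
  (rangeUpT n).bind fun r => foldlT (fun b k => lessT aT p b k) 0 r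

/-- the test used to find an unassigned person -/
def freeT (own : List ℕ) (i : ℕ) : Tick Bool :=
  (addT i 1).bind fun i1 => (memT i1 own).bind fun b => pay 1 (!b)

/-- person `i` bids -/
def placeT (n : ℕ) (aT : ℕ → Tick ℕ) (s : List ℕ × List ℕ) (i : ℕ) :
    Tick (List ℕ × List ℕ) :=
  (bestObjT n aT s.1).bind fun j => (getT s.1 j 0).bind fun v => (addT v 1).bind fun v1 =>
  (setT s.1 j v1).bind fun p => (addT i 1).bind fun i1 => (setT s.2 j i1).bind fun o =>
  pay 1 (p, o)

/-- one bid; the state is (prices, owners), `own[j] = i + 1` if person `i` owns object `j` -/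
def bidT (n : ℕ) (wT : ℕ → ℕ → Tick ℕ) (s : List ℕ × List ℕ) : Tick (List ℕ × List ℕ) :=
  (rangeUpT n).bind fun r => (findT (freeT s.2) r).bind fun q =>
    match q with
    | none => pay 1 s
    | some i => placeT n (wT i) s i

/-- all bids -/
def bidsT (n : ℕ) (wT : ℕ → ℕ → Tick ℕ) (fuel : ℕ) : Tick (List ℕ × List ℕ) :=
  (rangeUpT fuel).bind fun r => (replicateT n 0).bind fun z =>
    foldlT (fun s _ => bidT n wT s) (z, z) r

/-- maximum weight assignment for the weights `w i j ≤ C`, `i, j < n`; entry `i` of the output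
is the object of person `i` -/
def assignT (n C : ℕ) (wT : ℕ → ℕ → Tick ℕ) : Tick (List ℕ) :=
  (addT n 1).bind fun n1 => (mulT n1 C).bind fun d => (addT d 1).bind fun d1 =>
  (mulT n d1).bind fun m => (addT m 1).bind fun fuel =>
  (bidsT n (fun i j => (wT i j).bind fun x => mulT n1 x) fuel).bind fun s =>
  (rangeUpT n).bind fun r => mapT (fun i => (addT i 1).bind fun i1 => idxOfT i1 s.2) r

/-! ### values -/

@[simp] theorem memT_val (x : ℕ) (l : List ℕ) : (memT x l).val = l.contains x := by
  unfold memT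
  rw [anyT_val, Bool.eq_iff_iff]
  simp

@[simp] theorem idxOfT_val (x : ℕ) (l : List ℕ) : (idxOfT x l).val = l.idxOf x := by
  induction l with
  | nil => simp [idxOfT]
  | cons y l ih =>
    unfold idxOfT
    simp only [bind_val', eqNT_val, decide_eq_true_eq, List.idxOf_cons]
    by_cases h : y = x
    · simp [h]
    · have h2 : (y == x) = false := by simpa using h
      simp [h, ih, h2]

@[simp] theorem lessT_val (aT : ℕ → Tick ℕ) (p : List ℕ) (b k : ℕ) : (lessT aT p b k).val =
    if (aT b).val + p.getD k 0 < (aT k).val + p.getD b 0 then k else b := by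
  unfold lessT
  simp only [bind_val', getT_val, addT_val, cmpT_val, decide_eq_true_eq]
  by_cases h : (aT k).val + p.getD b 0 ≤ (aT b).val + p.getD k 0
  · rw [if_pos h, if_neg (not_lt.2 h), pay_val]
  · rw [if_neg h, if_pos (not_le.1 h), pay_val]

@[simp] theorem bestObjT_val (n : ℕ) (aT : ℕ → Tick ℕ) (p : List ℕ) :
    (bestObjT n aT p).val = bestObj n (fun j => (aT j).val) p := by
  unfold bestObjT bestObj
  simp only [bind_val', rangeUpT_val, foldlT_val, lessT_val]

@[simp] theorem freeT_val (own : List ℕ) (i : ℕ) :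
    (freeT own i).val = !(own.contains (i + 1)) := by
  unfold freeT
  simp only [bind_val', addT_val, memT_val, pay_val]

@[simp] theorem bidT_val (n : ℕ) (wT : ℕ → ℕ → Tick ℕ) (s : List ℕ × List ℕ) :
    (bidT n wT s).val = bid n (fun i j => (wT i j).val) s := by
  unfold bidT bid
  simp only [bind_val', rangeUpT_val, findT_val, freeT_val]
  cases (List.range n).find? (fun i => !(s.2.contains (i + 1))) with
  | none => rfl
  | some i => simp only [placeT, bind_val', bestObjT_val, getT_val, addT_val, setT_val, pay_val]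

@[simp] theorem bidsT_val (n : ℕ) (wT : ℕ → ℕ → Tick ℕ) (fuel : ℕ) :
    (bidsT n wT fuel).val = bids n (fun i j => (wT i j).val) fuel := by
  unfold bidsT bids
  simp only [bind_val', rangeUpT_val, replicateT_val, foldlT_val, bidT_val]

/-- the ticked program computes `assign` -/
@[simp] theorem assignT_val (n C : ℕ) (wT : ℕ → ℕ → Tick ℕ) :
    (assignT n C wT).val = assign n C (fun i j => (wT i j).val) := by
  unfold assignT assign
  simp only [bind_val', rangeUpT_val, mapT_val, addT_val, mulT_val, bidsT_val, idxOfT_val]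

/-! ### running times -/

theorem memT_time {x m : ℕ} {l : List ℕ} (h : ∀ y ∈ l, y ≤ m) :
    (memT x l).time ≤ l.length * (x + m + 2) + 1 := by
  refine anyT_time (c := x + m + 1) fun y hy => ?_
  have := h y hy
  rw [eqNT_time]
  omega

theorem idxOfT_time {x m : ℕ} {l : List ℕ} (h : ∀ y ∈ l, y ≤ m) :
    (idxOfT x l).time ≤ l.length * (x + m + 2) + 1 := by
  induction l with
  | nil => simp [idxOfT]
  | cons y l ih =>
    unfold idxOfT
    simp only [bind_time', eqNT_time]
    have h1 := h y List.mem_cons_self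
    have h2 := ih fun z hz => h z (List.mem_cons_of_mem _ hz)
    have h4 : (y :: l).length * (x + m + 2) + 1 = l.length * (x + m + 2) + 1 + (x + m + 2) := by
      rw [List.length_cons]; ring
    rw [h4]
    split_ifs <;> simp only [bind_time', pay_time] <;> omega

theorem lessT_time {aT : ℕ → Tick ℕ} {p : List ℕ} {c D n : ℕ} (hc : ∀ j < n, (aT j).time ≤ c)
    (hD : ∀ j, (aT j).val ≤ D) (hp : ∀ j, p.getD j 0 ≤ D + 1) (hn : p.length = n) {b k : ℕ}
    (hb : b < n) (hk : k < n) :
    (lessT aT p b k).time ≤ 2 * c + 2 * n + 8 * D + 10 := by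
  unfold lessT
  simp only [bind_time', addT_time, addT_val, getT_val, cmpT_time]
  have h1 := hc b hb
  have h2 := hc k hk
  have h3 := hD b
  have h4 := hD k
  have h5 := hp b
  have h6 := hp k
  have h7 := getT_time p k 0
  have h8 := getT_time p b 0
  rw [hn] at h7 h8
  split_ifs <;> simp only [pay_time] <;> omega

theorem bestObjT_time {aT : ℕ → Tick ℕ} {p : List ℕ} {c D n : ℕ} (hc : ∀ j < n, (aT j).time ≤ c)
    (hD : ∀ j, (aT j).val ≤ D) (hp : ∀ j, p.getD j 0 ≤ D + 1) (hn : p.length = n) :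
    (bestObjT n aT p).time ≤ n * (2 * c + 2 * n + 8 * D + 11) + n + 2 := by
  unfold bestObjT
  simp only [bind_time', rangeUpT_time, rangeUpT_val]
  have h1 : (foldlT (fun b k => lessT aT p b k) 0 (List.range n)).time ≤
      (List.range n).length * (2 * c + 2 * n + 8 * D + 11) + 1 :=
    foldlT_time (c := 2 * c + 2 * n + 8 * D + 10) (fun b => n = 0 ∨ b < n)
      (fun b hb k hk => by
        have hk' := List.mem_range.1 hk
        rw [lessT_val]
        split_ifs <;> omega)
      (fun b hb k hk => by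
        have hk' := List.mem_range.1 hk
        exact lessT_time hc hD hp hn (by omega) hk') (by omega)
  rw [List.length_range] at h1
  omega

theorem getD_price {n D : ℕ} {w : ℕ → ℕ → ℕ} {s : List ℕ × List ℕ} (h : Inv n D w s) (j : ℕ) :
    s.1.getD j 0 ≤ D + 1 := by
  rcases Nat.lt_or_ge j n with hj | hj
  · exact h.bd j hj
  · rw [List.getD_eq_default _ _ (by rw [h.len1]; exact hj)]
    exact Nat.zero_le _

theorem owner_le {n D : ℕ} {w : ℕ → ℕ → ℕ} {s : List ℕ × List ℕ} (h : Inv n D w s) :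
    ∀ y ∈ s.2, y ≤ n := by
  intro y hy
  obtain ⟨j, hj, rfl⟩ := List.getElem_of_mem hy
  have hj' : j < n := by rw [← h.len2]; exact hj
  by_contra hcon
  have h1 := h.lt j hj' (s.2[j] - 1) (by rw [List.getD_eq_getElem _ _ hj]; omega)
  omega

theorem freeT_time {n D : ℕ} {w : ℕ → ℕ → ℕ} {s : List ℕ × List ℕ} (h : Inv n D w s) {i : ℕ}
    (hi : i < n) : (freeT s.2 i).time ≤ n * (2 * n + 2) + n + 3 := by
  unfold freeT
  simp only [bind_time', addT_time, addT_val, pay_time]
  have h1 := memT_time (x := i + 1) (owner_le h)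
  rw [h.len2] at h1
  have h2 : n * (i + 1 + n + 2) ≤ n * (2 * n + 2) := Nat.mul_le_mul_left _ (by omega)
  omega

theorem placeT_time {n D c : ℕ} {w : ℕ → ℕ → ℕ} {aT : ℕ → Tick ℕ} {s : List ℕ × List ℕ}
    (h : Inv n D w s) (hc : ∀ j < n, (aT j).time ≤ c) (hD : ∀ j, (aT j).val ≤ D) {i : ℕ}
    (hi : i < n) : (placeT n aT s i).time ≤ n * (2 * c + 2 * n + 8 * D + 11) + 5 * n + D + 10 := by
  unfold placeT
  simp only [bind_time', addT_time, getT_val, bestObjT_val, pay_time]
  have h1 := bestObjT_time hc hD (getD_price h) h.len1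
  set j := bestObj n (fun j => (aT j).val) s.1
  have h2 := getT_time s.1 j 0
  have h3 := setT_time s.1 j ((addT (s.1.getD j 0) 1).val)
  have h4 := setT_time s.2 j ((addT i 1).val)
  have h5 := getD_price h j
  rw [h.len1] at h2 h3
  rw [h.len2] at h4
  omega

theorem bidT_time {n D c : ℕ} {wT : ℕ → ℕ → Tick ℕ} {s : List ℕ × List ℕ}
    (h : Inv n D (fun i j => (wT i j).val) s) (hc : ∀ i < n, ∀ j < n, (wT i j).time ≤ c)
    (hD : ∀ i j, (wT i j).val ≤ D) :
    (bidT n wT s).time ≤ n * (2 * c + 2 * n + 8 * D + 11) + n * (n * (2 * n + 2) + n + 4)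
      + 6 * n + D + 12 := by
  unfold bidT
  simp only [bind_time', rangeUpT_time, rangeUpT_val, findT_val, freeT_val]
  have h1 : (findT (freeT s.2) (List.range n)).time ≤
      (List.range n).length * (n * (2 * n + 2) + n + 4) + 1 :=
    findT_time (c := n * (2 * n + 2) + n + 3) fun i hi => freeT_time h (List.mem_range.1 hi)
  rw [List.length_range] at h1
  cases hf : (List.range n).find? (fun i => !(s.2.contains (i + 1))) with
  | none =>
    simp only [pay_time]
    omega
  | some i =>
    have hi : i < n := List.mem_range.1 (List.mem_of_find?_eq_some hf)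
    have h2 := placeT_time h (hc i hi) (hD i) hi
    simp only
    omega

theorem bidsT_time {n D c : ℕ} {wT : ℕ → ℕ → Tick ℕ} (hc : ∀ i < n, ∀ j < n, (wT i j).time ≤ c)
    (hD : ∀ i j, (wT i j).val ≤ D) (m : ℕ) :
    (bidsT n wT m).time ≤ m * (n * (2 * c + 2 * n + 8 * D + 11) +
      n * (n * (2 * n + 2) + n + 4) + 6 * n + D + 13) + m + n + 3 := by
  unfold bidsT
  simp only [bind_time', rangeUpT_time, rangeUpT_val, replicateT_time, replicateT_val]
  have h0 : Inv n D (fun i j => (wT i j).val) (List.replicate n 0, List.replicate n 0) :=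
    inv_run hD 0
  have h1 : (foldlT (fun s (_ : ℕ) => bidT n wT s) (List.replicate n 0, List.replicate n 0)
      (List.range m)).time ≤ (List.range m).length * (n * (2 * c + 2 * n + 8 * D + 11) +
        n * (n * (2 * n + 2) + n + 4) + 6 * n + D + 13) + 1 := foldlT_time
    (c := n * (2 * c + 2 * n + 8 * D + 11) + n * (n * (2 * n + 2) + n + 4) + 6 * n + D + 12)
    (Inv n D (fun i j => (wT i j).val))
    (fun s hs _ _ => by
      rw [bidT_val, bid_eq]
      exact inv_step hD hs)
    (fun s hs _ _ => bidT_time hs hc hD) h0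
  rw [List.length_range] at h1
  omega

/-- the auction runs in polynomial time -/
theorem assignT_time {n C c : ℕ} {wT : ℕ → ℕ → Tick ℕ} (hc : ∀ i < n, ∀ j < n, (wT i j).time ≤ c)
    (hC : ∀ i j, (wT i j).val ≤ C) :
    (assignT n C wT).time ≤ 100 * (n + C + c + 2) ^ 6 := by
  unfold assignT
  simp only [bind_time', addT_time, addT_val, mulT_time, mulT_val, rangeUpT_time, rangeUpT_val]
  set D := (n + 1) * C with hDdef
  set c1 := c + (D + (n + 1) + C + 1) with hc1
  set vT : ℕ → ℕ → Tick ℕ := fun i j => (wT i j).bind fun x => mulT (n + 1) x with hvT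
  have hv : ∀ i j, (vT i j).val = (n + 1) * (wT i j).val := fun i j => rfl
  have hvD : ∀ i j, (vT i j).val ≤ D := fun i j => by
    rw [hv]; exact Nat.mul_le_mul_left _ (hC i j)
  have hvc : ∀ i < n, ∀ j < n, (vT i j).time ≤ c1 := fun i hi j hj => by
    simp only [hvT, bind_time', mulT_time]
    have h1 := hc i hi j hj
    have h2 := hC i j
    have h3 := hvD i j
    rw [hv] at h3
    omega
  set m := n * (D + 1) + 1 with hm
  have h1 := bidsT_time hvc hvD (n := n) m
  have hinv : Inv n D (fun i j => (vT i j).val) (bidsT n vT m).val := by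
    rw [bidsT_val, bids_eq]
    exact inv_run hvD m
  have h2 := mapT_time (f := fun i => (addT i 1).bind fun i1 => idxOfT i1 (bidsT n vT m).val.2)
    (l := List.range n) (c := n * (2 * n + 2) + n + 2) (by
      intro i hi
      have hi' := List.mem_range.1 hi
      simp only [bind_time', addT_time, addT_val]
      have h3 := idxOfT_time (x := i + 1) (owner_le hinv)
      rw [hinv.len2] at h3
      have h4 : n * (i + 1 + n + 2) ≤ n * (2 * n + 2) := Nat.mul_le_mul_left _ (by omega)
      omega)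
  rw [List.length_range] at h2
  set S := n + C + c + 2 with hS
  have hS2 : 2 ≤ S := by omega
  have e1 : n + 1 ≤ S := by omega
  have e2 : C ≤ S := by omega
  have e3 : n ≤ S := by omega
  have e4 : c ≤ S := by omega
  have hD2 : D ≤ S ^ 2 := by
    rw [hDdef, sq]; exact Nat.mul_le_mul e1 e2
  have p1 : S ≤ S ^ 2 := by nlinarith
  have p0 : 2 ≤ S ^ 2 := by nlinarith
  have p2 : 2 * S ^ 2 ≤ S ^ 3 := by nlinarith [Nat.mul_le_mul_right (S ^ 2) hS2]
  have p3 : 2 * S ^ 3 ≤ S ^ 4 := by nlinarith [Nat.mul_le_mul_right (S ^ 3) hS2]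
  have p4 : 2 * S ^ 4 ≤ S ^ 5 := by nlinarith [Nat.mul_le_mul_right (S ^ 4) hS2]
  have p5 : 2 * S ^ 5 ≤ S ^ 6 := by nlinarith [Nat.mul_le_mul_right (S ^ 5) hS2]
  have q1 : c1 ≤ 3 * S ^ 2 := by
    have : c + (n + 1) + C + 1 ≤ 2 * S := by omega
    have h3 : 2 * S ≤ 2 * S ^ 2 := by omega
    omega
  have q2 : 2 * c1 + 2 * n + 8 * D + 11 ≤ 24 * S ^ 2 := by omega
  have q3 : n * (2 * c1 + 2 * n + 8 * D + 11) ≤ 24 * S ^ 3 :=
    (Nat.mul_le_mul e3 q2).trans (le_of_eq (by ring))
  have q4 : n * (2 * n + 2) ≤ 2 * S ^ 2 :=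
    (Nat.mul_le_mul e3 (by omega : 2 * n + 2 ≤ 2 * S)).trans (le_of_eq (by ring))
  have q5 : n * (2 * n + 2) + n + 4 ≤ 5 * S ^ 2 := by omega
  have q6 : n * (n * (2 * n + 2) + n + 4) ≤ 5 * S ^ 3 :=
    (Nat.mul_le_mul e3 q5).trans (le_of_eq (by ring))
  have q7 : n * (2 * c1 + 2 * n + 8 * D + 11) + n * (n * (2 * n + 2) + n + 4) + 6 * n + D + 13 ≤
      40 * S ^ 3 := by omega
  have q8 : D + 1 ≤ 2 * S ^ 2 := by omega
  have q9 : n * (D + 1) ≤ 2 * S ^ 3 := (Nat.mul_le_mul e3 q8).trans (le_of_eq (by ring))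
  have q10 : m ≤ 2 * S ^ 3 + 1 := by omega
  have q11 := (Nat.mul_le_mul q10 q7).trans
    (le_of_eq (by ring : (2 * S ^ 3 + 1) * (40 * S ^ 3) = 80 * S ^ 6 + 40 * S ^ 3))
  have q12 : n * (n * (2 * n + 2) + n + 2 + 1) ≤ 5 * S ^ 3 :=
    (Nat.mul_le_mul e3 (by omega : n * (2 * n + 2) + n + 2 + 1 ≤ 5 * S ^ 2)).trans
      (le_of_eq (by ring))
  have q13 : (mulT (n + 1) C).time = D + (n + 1) + C + 1 := rfl
  omega

end Vale.Agent.P333.Auction
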