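import Vale.Agent.P333.Tick2
import Vale.Agent.P333.M.Break

/-!
P333: ticked version of `breakF` (break the cycles at their lightest edges and glue the paths).
Nodes are counters, so comparing two nodes is charged in unary.
-/

namespace Vale.Agent.P333.M

open Tick

/-! ### programs -/

/-- are the lists of counters equal? -/
def eqLT : List ℕ → List ℕ → Tick Bool
  | [], [] => pay 1 true
  | [], _ :: _ => pay 1 false
  | _ :: _, [] => pay 1 false
  | x :: a, y :: b => (eqNT x y).bind fun c => if c then (eqLT a b).bind (pay 1) else pay 1 false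

/-- is `x` the last entry? -/
def lastIsT (x : ℕ) : List ℕ → Tick Bool
  | [] => pay 1 false
  | [y] => eqNT y x
  | _ :: z :: l => (lastIsT x (z :: l)).bind (pay 1)

/-- is `x` the first entry? -/
def headIsT (x : ℕ) : List ℕ → Tick Bool
  | [] => pay 1 false
  | y :: _ => eqNT y x

/-- remove the first occurrence of `P` -/
def eraseT (P : List ℕ) : List (List ℕ) → Tick (List (List ℕ))
  | [] => pay 1 []
  | Q :: l => (eqLT Q P).bind fun b => if b then pay 1 l else
      (eraseT P l).bind fun r => pay 1 (Q :: r)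

/-- the paths `P` and `Q` are closed (`P = Q`) or glued -/
def joinT (s : List (List ℕ) × List (List ℕ)) (P Q : List ℕ) :
    Tick (List (List ℕ) × List (List ℕ)) :=
  (eqLT P Q).bind fun b => (eraseT P s.1).bind fun a =>
    if b then pay 1 (a, P :: s.2) else
      (eraseT Q a).bind fun a' => (appendT P Q).bind fun R => pay 1 (R :: a', s.2)

/-- one edge is processed -/
def stepT (s : List (List ℕ) × List (List ℕ)) (e : ℕ × ℕ) :
    Tick (List (List ℕ) × List (List ℕ)) :=
  (findT (lastIsT e.1) s.1).bind fun p => (findT (headIsT e.2) s.1).bind fun q =>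
    match p, q with
    | some P, some Q => joinT s P Q
    | _, _ => pay 1 s

/-- the paths after processing all edges -/
def breakST (nodes : List ℕ) (edges : List (ℕ × ℕ)) : Tick (List (List ℕ) × List (List ℕ)) :=
  (mapT (fun v => pay 1 [v]) nodes).bind fun l => foldlT stepT (l, []) edges

/-- the resulting order of the nodes -/
def breakCT (nodes : List ℕ) (edges : List (ℕ × ℕ)) : Tick (List ℕ) :=
  (breakST nodes edges).bind fun s => (appendT s.2 s.1).bind fun l => flattenT l

/-- comparison of two edges by weight -/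
def heavyT (wT : ℕ → ℕ → Tick ℕ) (e f : ℕ × ℕ) : Tick Bool :=
  (wT f.1 f.2).bind fun a => (wT e.1 e.2).bind fun b => cmpT a b

/-- sort the edges by decreasing weight, break the cycles, glue the paths -/
def breakFT (wT : ℕ → ℕ → Tick ℕ) (nodes : List ℕ) (F : List (ℕ × ℕ)) : Tick (List ℕ) :=
  (sortT (heavyT wT) F).bind fun l => breakCT nodes l

/-! ### values -/

@[simp] theorem eqLT_val (a b : List ℕ) : (eqLT a b).val = decide (a = b) := by
  induction a generalizing b with
  | nil => cases b <;> simp [eqLT]
  | cons x a ih =>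
    cases b with
    | nil => simp [eqLT]
    | cons y b =>
      unfold eqLT
      simp only [bind_val', eqNT_val, decide_eq_true_eq]
      by_cases h : x = y
      · simp [ih, h]
      · simp [h]

@[simp] theorem lastIsT_val (x : ℕ) (P : List ℕ) :
    (lastIsT x P).val = decide (P.getLast? = some x) := by
  induction P with
  | nil => simp [lastIsT]
  | cons y l ih =>
    cases l with
    | nil => simp [lastIsT]
    | cons z l =>
      unfold lastIsT
      simp only [bind_val', pay_val, ih, List.getLast?_cons_cons]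

@[simp] theorem headIsT_val (x : ℕ) (P : List ℕ) :
    (headIsT x P).val = decide (P.head? = some x) := by
  cases P <;> simp [headIsT]

@[simp] theorem eraseT_val (P : List ℕ) (l : List (List ℕ)) :
    (eraseT P l).val = l.erase P := by
  induction l with
  | nil => simp [eraseT]
  | cons Q l ih =>
    unfold eraseT
    simp only [bind_val', eqLT_val, decide_eq_true_eq, List.erase_cons, beq_iff_eq]
    by_cases h : Q = P
    · simp [h]
    · simp [h, ih]

@[simp] theorem joinT_val (s : List (List ℕ) × List (List ℕ)) (P Q : List ℕ) :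
    (joinT s P Q).val =
      if P = Q then (s.1.erase P, P :: s.2) else ((P ++ Q) :: (s.1.erase P).erase Q, s.2) := by
  unfold joinT
  simp only [bind_val', eqLT_val, decide_eq_true_eq, eraseT_val]
  by_cases h : P = Q
  · simp [h]
  · simp [h]

@[simp] theorem stepT_val (s : List (List ℕ) × List (List ℕ)) (e : ℕ × ℕ) :
    (stepT s e).val = step s e := by
  unfold stepT step
  simp only [bind_val', findT_val, lastIsT_val, headIsT_val]
  cases s.1.find? (fun P => decide (P.getLast? = some e.1)) with
  | none => simp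
  | some P =>
    cases s.1.find? (fun Q => decide (Q.head? = some e.2)) with
    | none => simp
    | some Q => simp

@[simp] theorem breakST_val (nodes : List ℕ) (edges : List (ℕ × ℕ)) :
    (breakST nodes edges).val = breakS nodes edges := by
  unfold breakST breakS
  simp only [bind_val', mapT_val, pay_val, foldlT_val, stepT_val]

@[simp] theorem breakCT_val (nodes : List ℕ) (edges : List (ℕ × ℕ)) :
    (breakCT nodes edges).val = breakC nodes edges := by
  unfold breakCT breakC
  simp only [bind_val', breakST_val, appendT_val, flattenT_val]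

@[simp] theorem heavyT_val (wT : ℕ → ℕ → Tick ℕ) (e f : ℕ × ℕ) :
    (heavyT wT e f).val = decide ((wT f.1 f.2).val ≤ (wT e.1 e.2).val) := rfl

@[simp] theorem breakFT_val (wT : ℕ → ℕ → Tick ℕ) (nodes : List ℕ) (F : List (ℕ × ℕ)) :
    (breakFT wT nodes F).val = breakF (fun i j => (wT i j).val) nodes F := by
  unfold breakFT breakF
  simp only [bind_val', sortT_val, breakCT_val, heavyT_val]
  congr 1
  have : (fun e f : ℕ × ℕ => decide ((wT f.1 f.2).val ≤ (wT e.1 e.2).val) = true) =
      (fun e f : ℕ × ℕ => (wT f.1 f.2).val ≤ (wT e.1 e.2).val) := by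
    funext e f
    exact propext decide_eq_true_iff
  congr 1

/-! ### running times -/

theorem eqLT_time {a b : List ℕ} {m : ℕ} (ha : ∀ x ∈ a, x ≤ m) (hb : ∀ x ∈ b, x ≤ m) :
    (eqLT a b).time ≤ a.length * (2 * m + 2) + 1 := by
  induction a generalizing b with
  | nil => cases b <;> simp [eqLT]
  | cons x a ih =>
    cases b with
    | nil => simp [eqLT]
    | cons y b =>
      unfold eqLT
      simp only [bind_time', eqNT_time]
      have h1 := ha x List.mem_cons_self
      have h2 := hb y List.mem_cons_self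
      have h3 := ih (b := b) (fun z hz => ha z (List.mem_cons_of_mem _ hz))
        (fun z hz => hb z (List.mem_cons_of_mem _ hz))
      have h4 : (x :: a).length * (2 * m + 2) + 1 = a.length * (2 * m + 2) + 1 + (2 * m + 2) := by
        rw [List.length_cons]; ring
      rw [h4]
      split_ifs <;> simp only [bind_time', pay_time] <;> omega

theorem lastIsT_time {x m : ℕ} {P : List ℕ} (hx : x ≤ m) (hP : ∀ y ∈ P, y ≤ m) :
    (lastIsT x P).time ≤ P.length + 2 * m + 1 := by
  induction P with
  | nil => simp [lastIsT]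
  | cons y l ih =>
    cases l with
    | nil =>
      have := hP y List.mem_cons_self
      simp only [lastIsT, eqNT_time, List.length_cons, List.length_nil]
      omega
    | cons z l =>
      have := ih fun w hw => hP w (List.mem_cons_of_mem _ hw)
      unfold lastIsT
      simp only [bind_time', pay_time, List.length_cons] at this ⊢
      omega

theorem headIsT_time {x m : ℕ} {P : List ℕ} (hx : x ≤ m) (hP : ∀ y ∈ P, y ≤ m) :
    (headIsT x P).time ≤ 2 * m + 1 := by
  cases P with
  | nil => simp [headIsT]
  | cons y l =>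
    have := hP y List.mem_cons_self
    simp only [headIsT, eqNT_time]
    omega

theorem eraseT_time {P : List ℕ} {l : List (List ℕ)} {m k : ℕ} (hP : ∀ x ∈ P, x ≤ m)
    (hl : ∀ Q ∈ l, (∀ x ∈ Q, x ≤ m) ∧ Q.length ≤ k) :
    (eraseT P l).time ≤ l.length * (k * (2 * m + 2) + 2) + 1 := by
  induction l with
  | nil => simp [eraseT]
  | cons Q l ih =>
    unfold eraseT
    simp only [bind_time']
    have h1 := hl Q List.mem_cons_self
    have h2 := eqLT_time h1.1 hP
    have h3 : Q.length * (2 * m + 2) ≤ k * (2 * m + 2) := Nat.mul_le_mul_right _ h1.2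
    have h4 := ih fun R hR => hl R (List.mem_cons_of_mem _ hR)
    have h5 : (Q :: l).length * (k * (2 * m + 2) + 2) + 1 =
      l.length * (k * (2 * m + 2) + 2) + 1 + (k * (2 * m + 2) + 2) := by
      rw [List.length_cons]; ring
    rw [h5]
    split_ifs <;> simp only [bind_time', pay_time] <;> omega

/-- bounds for the state of the process -/
structure Bd (D : ℕ) (s : List (List ℕ) × List (List ℕ)) : Prop where
  len : s.1.length + s.2.length ≤ D
  tot : (s.2 ++ s.1).flatten.length ≤ D
  ent : ∀ x ∈ (s.2 ++ s.1).flatten, x ≤ D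

theorem Bd.mem {D : ℕ} {s : List (List ℕ) × List (List ℕ)} (h : Bd D s) {P : List ℕ}
    (hP : P ∈ s.1) : (∀ x ∈ P, x ≤ D) ∧ P.length ≤ D := by
  have hP' : P ∈ s.2 ++ s.1 := List.mem_append_right _ hP
  constructor
  · intro x hx
    exact h.ent x (List.mem_flatten.2 ⟨P, hP', hx⟩)
  · exact (List.sublist_flatten_of_mem hP').length_le.trans h.tot

theorem perm_step (s : List (List ℕ) × List (List ℕ)) (e : ℕ × ℕ) :
    ((step s e).2 ++ (step s e).1).flatten.Perm (s.2 ++ s.1).flatten ∧
      (step s e).1.length + (step s e).2.length ≤ s.1.length + s.2.length := by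
  obtain ⟨A, B⟩ := s
  unfold step
  simp only
  cases hP : A.find? (fun P => decide (P.getLast? = some e.1)) with
  | none => exact ⟨List.Perm.refl _, le_rfl⟩
  | some P =>
    cases hQ : A.find? (fun Q => decide (Q.head? = some e.2)) with
    | none => exact ⟨List.Perm.refl _, le_rfl⟩
    | some Q =>
      have hPA : P ∈ A := List.mem_of_find?_eq_some hP
      have hQA : Q ∈ A := List.mem_of_find?_eq_some hQ
      have hA1 : A.Perm (P :: A.erase P) := List.perm_cons_erase hPA
      have hl1 := hA1.length_eq
      rw [List.length_cons] at hl1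
      by_cases hPQ : P = Q
      · simp only [if_pos hPQ]
        constructor
        · refine List.Perm.flatten ?_
          refine List.Perm.trans ?_ (List.Perm.append_left B hA1.symm)
          rw [List.cons_append]
          exact List.perm_middle.symm
        · rw [List.length_cons]; omega
      · simp only [if_neg hPQ]
        have hQ1 : Q ∈ A.erase P := (List.mem_erase_of_ne (Ne.symm hPQ)).2 hQA
        have hA2 : A.Perm (P :: Q :: (A.erase P).erase Q) :=
          hA1.trans (List.Perm.cons P (List.perm_cons_erase hQ1))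
        have hl2 := hA2.length_eq
        rw [List.length_cons, List.length_cons] at hl2
        constructor
        · rw [List.flatten_append, List.flatten_append]
          apply List.Perm.append_left
          have h2 := List.Perm.flatten hA2
          simp only [List.flatten_cons, List.append_assoc] at h2 ⊢
          exact h2.symm
        · rw [List.length_cons]; omega

theorem Bd.step {D : ℕ} {s : List (List ℕ) × List (List ℕ)} (h : Bd D s) (e : ℕ × ℕ) :
    Bd D (M.step s e) := by
  obtain ⟨h1, h2⟩ := perm_step s e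
  refine ⟨h2.trans h.len, ?_, fun x hx => h.ent x (h1.mem_iff.1 hx)⟩
  rw [h1.length_eq]
  exact h.tot

theorem joinT_time {D : ℕ} {s : List (List ℕ) × List (List ℕ)} (h : Bd D s) {P Q : List ℕ}
    (hP : P ∈ s.1) (hQ : Q ∈ s.1) :
    (joinT s P Q).time ≤ 4 * D ^ 3 + 6 * D ^ 2 + 7 * D + 5 := by
  unfold joinT
  simp only [bind_time', eraseT_val]
  have hl : s.1.length ≤ D := by have := h.len; omega
  have h1 := eqLT_time (h.mem hP).1 (h.mem hQ).1
  have h2 : P.length * (2 * D + 2) ≤ D * (2 * D + 2) := Nat.mul_le_mul_right _ (h.mem hP).2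
  have h3 := eraseT_time (h.mem hP).1 (l := s.1) (fun R hR => h.mem hR)
  have h4 : s.1.length * (D * (2 * D + 2) + 2) ≤ D * (D * (2 * D + 2) + 2) :=
    Nat.mul_le_mul_right _ hl
  have h5 := eraseT_time (h.mem hQ).1 (l := s.1.erase P)
    (fun R hR => h.mem (List.mem_of_mem_erase hR))
  have h6 : (s.1.erase P).length ≤ D := (List.erase_sublist.length_le).trans hl
  have h7 : (s.1.erase P).length * (D * (2 * D + 2) + 2) ≤ D * (D * (2 * D + 2) + 2) :=
    Nat.mul_le_mul_right _ h6
  have h8 := appendT_time P Q
  have h9 := (h.mem hP).2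
  have e1 : D * (2 * D + 2) = 2 * D ^ 2 + 2 * D := by ring
  have e2 : D * (D * (2 * D + 2) + 2) = 2 * D ^ 3 + 2 * D ^ 2 + 2 * D := by ring
  rw [e1] at h2
  rw [e2] at h4 h7
  split_ifs <;> simp only [bind_time', pay_time] <;> omega

theorem stepT_time {D : ℕ} {s : List (List ℕ) × List (List ℕ)} (h : Bd D s) {e : ℕ × ℕ}
    (h1 : e.1 ≤ D) (h2 : e.2 ≤ D) : (stepT s e).time ≤ 7 * (D + 1) ^ 3 := by
  unfold stepT
  simp only [bind_time', findT_val, lastIsT_val, headIsT_val]
  have hl : s.1.length ≤ D := by have := h.len; omega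
  have h3 : (findT (lastIsT e.1) s.1).time ≤ s.1.length * (3 * D + 2) + 1 :=
    findT_time (c := 3 * D + 1) fun P hP => by
      have h5 := lastIsT_time h1 (h.mem hP).1
      have h6 := (h.mem hP).2
      omega
  have h4 : (findT (headIsT e.2) s.1).time ≤ s.1.length * (3 * D + 2) + 1 :=
    findT_time (c := 3 * D + 1) fun P hP => by
      have h5 := headIsT_time h2 (h.mem hP).1
      omega
  have h5 : s.1.length * (3 * D + 2) ≤ D * (3 * D + 2) := Nat.mul_le_mul_right _ hl
  have e1 : D * (3 * D + 2) = 3 * D ^ 2 + 2 * D := by ring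
  rw [e1] at h5
  have e2 : 7 * (D + 1) ^ 3 = 7 * D ^ 3 + 21 * D ^ 2 + 21 * D + 7 := by ring
  rw [e2]
  cases hP : s.1.find? (fun P => decide (P.getLast? = some e.1)) with
  | none =>
    simp only [pay_time]
    omega
  | some P =>
    cases hQ : s.1.find? (fun Q => decide (Q.head? = some e.2)) with
    | none =>
      simp only [pay_time]
      omega
    | some Q =>
      have h6 := joinT_time h (List.mem_of_find?_eq_some hP) (List.mem_of_find?_eq_some hQ)
      simp only
      omega

theorem bd_init {D : ℕ} {nodes : List ℕ} (h1 : nodes.length ≤ D) (h2 : ∀ v ∈ nodes, v ≤ D) :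
    Bd D (nodes.map (fun v => [v]), []) := by
  have h3 : (nodes.map (fun v => [v])).flatten = nodes := by
    induction nodes with
    | nil => rfl
    | cons a l ih =>
      simp only [List.map_cons, List.flatten_cons, List.cons_append, List.nil_append]
      rw [ih (by simp only [List.length_cons] at h1; omega)
        (fun v hv => h2 v (List.mem_cons_of_mem _ hv))]
  refine ⟨by simpa using h1, ?_, ?_⟩
  · simp only [List.nil_append, h3]; exact h1
  · simp only [List.nil_append, h3]; exact h2

theorem bd_fold {D : ℕ} (edges : List (ℕ × ℕ)) (s : List (List ℕ) × List (List ℕ)) (h : Bd D s) :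
    Bd D (edges.foldl step s) := by
  induction edges generalizing s with
  | nil => exact h
  | cons e l ih => exact ih _ (h.step e)

theorem breakCT_time {D L : ℕ} {nodes : List ℕ} {edges : List (ℕ × ℕ)} (h1 : nodes.length ≤ D)
    (h2 : ∀ v ∈ nodes, v ≤ D) (h3 : ∀ e ∈ edges, e.1 ≤ D ∧ e.2 ≤ D) (h4 : edges.length ≤ L) :
    (breakCT nodes edges).time ≤ L * (7 * (D + 1) ^ 3 + 1) + 5 * (D + 1) ^ 2 := by
  unfold breakCT breakST
  simp only [bind_time', bind_val', mapT_val, pay_val, foldlT_val, stepT_val, appendT_val,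
    appendT_time]
  have hb := bd_init h1 h2
  have h5 : (mapT (fun v => pay 1 [v]) nodes).time ≤ nodes.length * (1 + 1) + 1 :=
    mapT_time fun v _ => le_rfl
  have h6 : (foldlT stepT (nodes.map (fun v => [v]), []) edges).time ≤
      edges.length * (7 * (D + 1) ^ 3 + 1) + 1 :=
    foldlT_time (Bd D) (fun s hs e _ => by rw [stepT_val]; exact hs.step e)
      (fun s hs e he => stepT_time hs (h3 e he).1 (h3 e he).2) hb
  have h7 : edges.length * (7 * (D + 1) ^ 3 + 1) ≤ L * (7 * (D + 1) ^ 3 + 1) :=
    Nat.mul_le_mul_right _ h4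
  have hf := bd_fold edges _ hb
  have h8 := hf.len
  set s := edges.foldl step (nodes.map (fun v => [v]), []) with hs
  have h9 : (flattenT (s.2 ++ s.1)).time ≤ (s.2 ++ s.1).length * (D + 1) + 1 :=
    flattenT_time fun P hP => (List.sublist_flatten_of_mem hP).length_le.trans hf.tot
  rw [List.length_append] at h9
  have h10 : (s.2.length + s.1.length) * (D + 1) ≤ D * (D + 1) :=
    Nat.mul_le_mul_right _ (by omega)
  have e1 : D * (D + 1) = D ^ 2 + D := by ring
  have e2 : 5 * (D + 1) ^ 2 = 5 * D ^ 2 + 10 * D + 5 := by ring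
  rw [e1] at h10
  rw [e2]
  omega

theorem breakFT_time {D : ℕ} {wT : ℕ → ℕ → Tick ℕ} {nodes : List ℕ} {F : List (ℕ × ℕ)}
    (h1 : nodes.length ≤ D) (h2 : ∀ v ∈ nodes, v ≤ D) (h3 : ∀ e ∈ F, e.1 ≤ D ∧ e.2 ≤ D)
    (h4 : F.length ≤ 2 * D) (hc : ∀ e ∈ F, (wT e.1 e.2).time ≤ D)
    (hC : ∀ e ∈ F, (wT e.1 e.2).val ≤ D) :
    (breakFT wT nodes F).time ≤ 40 * (D + 1) ^ 4 := by
  unfold breakFT
  simp only [bind_time']
  have h5 : (sortT (heavyT wT) F).time ≤ (F.length + 1) ^ 2 * (4 * D + 2) :=
    sortT_time (c := 4 * D + 1) fun e he f hf => by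
      simp only [heavyT, bind_time', cmpT_time]
      have a1 := hc e he
      have a2 := hc f hf
      have a3 := hC e he
      have a4 := hC f hf
      omega
  have h6 : (F.length + 1) ^ 2 * (4 * D + 2) ≤ (2 * (D + 1)) ^ 2 * (4 * (D + 1)) :=
    Nat.mul_le_mul (Nat.pow_le_pow_left (by omega) 2) (by omega)
  have hperm : (sortT (heavyT wT) F).val.Perm F := by
    rw [sortT_val]
    exact List.perm_insertionSort _ F
  have h7 : (breakCT nodes (sortT (heavyT wT) F).val).time ≤
      2 * D * (7 * (D + 1) ^ 3 + 1) + 5 * (D + 1) ^ 2 :=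
    breakCT_time h1 h2 (fun e he => h3 e (hperm.mem_iff.1 he)) (by rw [hperm.length_eq]; exact h4)
  have e1 : (2 * (D + 1)) ^ 2 * (4 * (D + 1)) = 16 * (D + 1) ^ 3 := by ring
  have e2 : 2 * D * (7 * (D + 1) ^ 3 + 1) ≤ 14 * (D + 1) ^ 4 + 2 * D := by
    have : 2 * D * (7 * (D + 1) ^ 3 + 1) = 14 * (D * (D + 1) ^ 3) + 2 * D := by ring
    rw [this]
    have : D * (D + 1) ^ 3 ≤ (D + 1) ^ 4 := by
      have e : (D + 1) ^ 4 = D * (D + 1) ^ 3 + (D + 1) ^ 3 := by ring
      omega
    omega
  have e3 : (D + 1) ^ 3 ≤ (D + 1) ^ 4 := Nat.pow_le_pow_right (by omega) (by omega)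
  have e4 : (D + 1) ^ 2 ≤ (D + 1) ^ 4 := Nat.pow_le_pow_right (by omega) (by omega)
  have e5 : D + 1 ≤ (D + 1) ^ 4 := Nat.le_self_pow (by omega) _
  omega

end Vale.Agent.P333.M
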