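import Vale.Agent.P333.M.TickAuction
import Vale.Agent.P333.M.TickBreak
import Vale.Agent.P333.M.Prog

/-!
P333, box M: the program of `Prog.lean` as a ticked program, and its running time. All numbers
are counters and are charged in unary.
-/

namespace Vale.Agent.P333.M

open Tick Auction

/-! ### programs -/

/-- ticked `nx` -/
def nxT (p : List ℕ) (x : ℕ) : Tick ℕ := getT p x 0

/-- ticked `orb` -/
def orbT (p : List ℕ) (x : ℕ) : ℕ → Tick (List ℕ)
  | 0 => pay 1 []
  | k + 1 => (nxT p x).bind fun y => (orbT p y k).bind fun r => pay 1 (x :: r)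

/-- the minimum of two counters -/
def minT (a b : ℕ) : Tick ℕ := (cmpT a b).bind fun c => if c then pay 1 a else pay 1 b

/-- ticked `rep` -/
def repT (n : ℕ) (p : List ℕ) (x : ℕ) : Tick ℕ := (orbT p x n).bind fun l => foldlT minT x l

/-- ticked `kq` -/
def kqT (n : ℕ) (p q : List ℕ) (x : ℕ) : Tick ℕ :=
  (nxT p x).bind fun y => (eqNT y x).bind fun b => if b then pay 1 0 else
  (repT n p x).bind fun r => (eqNT r x).bind fun c => (getT q r 0).bind fun v =>
  if c then pay 1 v else subT 2 v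

/-- ticked `arcTerm` -/
def arcTermT (wT : ℕ → ℕ → Tick ℕ) (n : ℕ) (p1 q : List ℕ) (x : ℕ) : Tick ℕ :=
  (kqT n p1 q x).bind fun k => (mulT 4 k).bind fun k4 => (nxT p1 x).bind fun y =>
  (wT x y).bind fun v => mulT k4 v

/-- the last part of `linkTerm`: `(2 - k1) * (2 - k2) * v` -/
def prodT (k1 k2 : ℕ) (vT : Tick ℕ) : Tick ℕ :=
  (subT 2 k1).bind fun a => (subT 2 k2).bind fun b => (mulT a b).bind fun c =>
  vT.bind fun v => mulT c v

/-- ticked `linkTerm` -/
def linkTermT (wT : ℕ → ℕ → Tick ℕ) (n : ℕ) (p1 p2 q : List ℕ) (x : ℕ) : Tick ℕ :=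
  (nxT p2 x).bind fun y => (repT n p1 x).bind fun r => (repT n p1 y).bind fun r' =>
  (eqNT r r').bind fun b => if b then pay 1 0 else
  (kqT n p1 q x).bind fun k1 => (idxOfT y p1).bind fun z => (kqT n p1 q z).bind fun k2 =>
  prodT k1 k2 (wT x y)

/-- one summand of `obj` -/
def termT (wT : ℕ → ℕ → Tick ℕ) (n : ℕ) (p1 p2 q : List ℕ) (x : ℕ) : Tick ℕ :=
  (arcTermT wT n p1 q x).bind fun a => (linkTermT wT n p1 p2 q x).bind fun b => addT a b

/-- ticked `obj` -/
def objT (wT : ℕ → ℕ → Tick ℕ) (n : ℕ) (p1 p2 q : List ℕ) : Tick ℕ :=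
  (rangeUpT n).bind fun r => (mapT (termT wT n p1 p2 q) r).bind fun l => sumT l

/-- one coin is fixed -/
def coinT (wT : ℕ → ℕ → Tick ℕ) (n : ℕ) (p1 p2 q : List ℕ) (r : ℕ) : Tick (List ℕ) :=
  (setT q r 2).bind fun q2 => (setT q r 0).bind fun q0 => (objT wT n p1 p2 q2).bind fun o2 =>
  (objT wT n p1 p2 q0).bind fun o0 => (cmpT o2 o0).bind fun b =>
  if b then pay 1 q0 else pay 1 q2

/-- ticked `bits` -/
def bitsT (wT : ℕ → ℕ → Tick ℕ) (n : ℕ) (p1 p2 : List ℕ) : Tick (List ℕ) :=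
  (rangeUpT n).bind fun r => (replicateT n 1).bind fun q0 => foldlT (coinT wT n p1 p2) q0 r

/-- the arcs `x → p x` for the nodes `x` of a list -/
def arcsOfT (p : List ℕ) (l : List ℕ) : Tick (List (ℕ × ℕ)) :=
  mapT (fun x => (nxT p x).bind fun y => pay 1 (x, y)) l

/-- is `x` moved by `p`? -/
def movedT (p : List ℕ) (x : ℕ) : Tick Bool :=
  (nxT p x).bind fun y => (eqNT y x).bind fun b => pay 1 (!b)

/-- ticked `arcsA` -/
def arcsAT (n : ℕ) (p1 : List ℕ) : Tick (List (ℕ × ℕ)) :=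
  (rangeUpT n).bind fun r => (filterT (movedT p1) r).bind fun l => arcsOfT p1 l

/-- is the arc out of `x` kept (`m = 2`) resp. not kept (`m = 0`)? -/
def kIsT (n : ℕ) (p q : List ℕ) (m x : ℕ) : Tick Bool :=
  (kqT n p q x).bind fun k => eqNT k m

/-- ticked `arcsK` -/
def arcsKT (n : ℕ) (p1 q : List ℕ) : Tick (List (ℕ × ℕ)) :=
  (rangeUpT n).bind fun r => (filterT (kIsT n p1 q 2) r).bind fun l => arcsOfT p1 l

/-- can the arc `x → p2 x` be used? -/
def usableT (n : ℕ) (p1 p2 q : List ℕ) (x : ℕ) : Tick Bool :=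
  (nxT p2 x).bind fun y => (repT n p1 x).bind fun r => (repT n p1 y).bind fun r' =>
  (eqNT r r').bind fun b => (kIsT n p1 q 0 x).bind fun c => (idxOfT y p1).bind fun z =>
  (kIsT n p1 q 0 z).bind fun d => pay 1 (!b && (c && d))

/-- ticked `arcsL` -/
def arcsLT (n : ℕ) (p1 p2 q : List ℕ) : Tick (List (ℕ × ℕ)) :=
  (rangeUpT n).bind fun r => (filterT (usableT n p1 p2 q) r).bind fun l => arcsOfT p2 l

/-- ticked `wt1` -/
def wt1T (wT : ℕ → ℕ → Tick ℕ) (x y : ℕ) : Tick ℕ :=
  (eqNT x y).bind fun b => if b then pay 1 0 else wT x y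

/-- ticked `wt2` -/
def wt2T (wT : ℕ → ℕ → Tick ℕ) (n : ℕ) (p1 : List ℕ) (x y : ℕ) : Tick ℕ :=
  (repT n p1 x).bind fun r => (repT n p1 y).bind fun r' => (eqNT r r').bind fun b =>
  if b then pay 1 0 else wT x y

/-- pairs of entries at the same position -/
def zipT : List ℕ → List ℕ → Tick (List (ℕ × ℕ))
  | [], _ => pay 1 []
  | _ :: _, [] => pay 1 []
  | x :: a, y :: b => (zipT a b).bind fun r => pay 1 ((x, y) :: r)

/-- ticked `pw` -/
def pwT (wT : ℕ → ℕ → Tick ℕ) (P : List ℕ) : Tick ℕ :=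
  (zipT P P.tail).bind fun l => (mapT (fun e => wT e.1 e.2) l).bind fun m => sumT m

/-- ticked `heavier` -/
def heavierT (wT : ℕ → ℕ → Tick ℕ) (A B : List ℕ) : Tick (List ℕ) :=
  (pwT wT B).bind fun b => (pwT wT A).bind fun a => (cmpT b a).bind fun c =>
  if c then pay 1 A else pay 1 B

/-- ticked `atspOf` -/
def atspOfT (wT : ℕ → ℕ → Tick ℕ) (n : ℕ) (p1 p2 : List ℕ) : Tick (List ℕ) :=
  (bitsT wT n p1 p2).bind fun q => (arcsAT n p1).bind fun a => (arcsKT n p1 q).bind fun k =>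
  (arcsLT n p1 p2 q).bind fun l => (appendT k l).bind fun f => (rangeUpT n).bind fun r =>
  (breakFT wT r a).bind fun A => (breakFT wT r f).bind fun B => heavierT wT A B

/-- ticked `atspOf2` -/
def atspOf2T (n C : ℕ) (wT : ℕ → ℕ → Tick ℕ) (p1 : List ℕ) : Tick (List ℕ) :=
  (assignT n C (wt2T wT n p1)).bind fun p2 => atspOfT wT n p1 p2

/-- ticked `atsp` -/
def atspT (n C : ℕ) (wT : ℕ → ℕ → Tick ℕ) : Tick (List ℕ) :=
  (assignT n C (wt1T wT)).bind fun p1 => atspOf2T n C wT p1

/-! ### values -/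

@[simp] theorem nxT_val (p : List ℕ) (x : ℕ) : (nxT p x).val = nx p x := getT_val _ _ _

@[simp] theorem orbT_val (p : List ℕ) (x k : ℕ) : (orbT p x k).val = orb p x k := by
  induction k generalizing x with
  | zero => rfl
  | succ k ih => simp [orbT, orb, ih]

@[simp] theorem minT_val (a b : ℕ) : (minT a b).val = min a b := by
  unfold minT
  simp only [bind_val', cmpT_val, decide_eq_true_eq]
  split_ifs with h
  · rw [pay_val, min_eq_left h]
  · rw [pay_val, min_eq_right (not_le.1 h).le]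

@[simp] theorem repT_val (n : ℕ) (p : List ℕ) (x : ℕ) : (repT n p x).val = rep n p x := by
  unfold repT rep
  simp only [bind_val', orbT_val, foldlT_val, minT_val]

@[simp] theorem kqT_val (n : ℕ) (p q : List ℕ) (x : ℕ) : (kqT n p q x).val = kq n p q x := by
  unfold kqT kq
  simp only [bind_val', nxT_val, eqNT_val, decide_eq_true_eq]
  by_cases h : nx p x = x
  · rw [if_pos h, if_pos h, pay_val]
  · rw [if_neg h, if_neg h]
    simp only [bind_val', repT_val, eqNT_val, getT_val, decide_eq_true_eq]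
    by_cases h2 : rep n p x = x
    · rw [if_pos h2, if_pos h2, pay_val]
    · rw [if_neg h2, if_neg h2, subT_val]

@[simp] theorem arcTermT_val (wT : ℕ → ℕ → Tick ℕ) (n : ℕ) (p1 q : List ℕ) (x : ℕ) :
    (arcTermT wT n p1 q x).val = arcTerm (fun i j => (wT i j).val) n p1 q x := by
  unfold arcTermT arcTerm
  simp only [bind_val', kqT_val, mulT_val, nxT_val]

@[simp] theorem prodT_val (k1 k2 : ℕ) (vT : Tick ℕ) :
    (prodT k1 k2 vT).val = (2 - k1) * (2 - k2) * vT.val := rfl

@[simp] theorem linkTermT_val (wT : ℕ → ℕ → Tick ℕ) (n : ℕ) (p1 p2 q : List ℕ) (x : ℕ) :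
    (linkTermT wT n p1 p2 q x).val = linkTerm (fun i j => (wT i j).val) n p1 p2 q x := by
  unfold linkTermT linkTerm
  simp only [bind_val', nxT_val, repT_val, eqNT_val, decide_eq_true_eq]
  by_cases h : rep n p1 x = rep n p1 (nx p2 x)
  · rw [if_pos h, if_pos h, pay_val]
  · rw [if_neg h, if_neg h]
    simp only [bind_val', kqT_val, idxOfT_val, prodT_val]

@[simp] theorem termT_val (wT : ℕ → ℕ → Tick ℕ) (n : ℕ) (p1 p2 q : List ℕ) (x : ℕ) :
    (termT wT n p1 p2 q x).val = arcTerm (fun i j => (wT i j).val) n p1 q x +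
      linkTerm (fun i j => (wT i j).val) n p1 p2 q x := by
  unfold termT
  simp only [bind_val', arcTermT_val, linkTermT_val, addT_val]

@[simp] theorem objT_val (wT : ℕ → ℕ → Tick ℕ) (n : ℕ) (p1 p2 q : List ℕ) :
    (objT wT n p1 p2 q).val = obj (fun i j => (wT i j).val) n p1 p2 q := by
  unfold objT obj
  simp only [bind_val', rangeUpT_val, mapT_val, termT_val, sumT_val]

@[simp] theorem coinT_val (wT : ℕ → ℕ → Tick ℕ) (n : ℕ) (p1 p2 q : List ℕ) (r : ℕ) :
    (coinT wT n p1 p2 q r).val =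
      if obj (fun i j => (wT i j).val) n p1 p2 (q.set r 2) ≤
        obj (fun i j => (wT i j).val) n p1 p2 (q.set r 0) then q.set r 0 else q.set r 2 := by
  unfold coinT
  simp only [bind_val', setT_val, objT_val, cmpT_val, decide_eq_true_eq]
  split_ifs <;> rfl

@[simp] theorem bitsT_val (wT : ℕ → ℕ → Tick ℕ) (n : ℕ) (p1 p2 : List ℕ) :
    (bitsT wT n p1 p2).val = bits (fun i j => (wT i j).val) n p1 p2 := by
  unfold bitsT bits
  simp only [bind_val', rangeUpT_val, replicateT_val, foldlT_val, coinT_val]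

@[simp] theorem arcsOfT_val (p l : List ℕ) :
    (arcsOfT p l).val = l.map (fun x => (x, nx p x)) := by
  unfold arcsOfT
  simp only [mapT_val, bind_val', nxT_val, pay_val]

@[simp] theorem arcsAT_val (n : ℕ) (p1 : List ℕ) : (arcsAT n p1).val = arcsA n p1 := by
  unfold arcsAT arcsA movedT
  simp only [bind_val', rangeUpT_val, filterT_val, nxT_val, eqNT_val, pay_val, arcsOfT_val,
    ne_eq, decide_not]

@[simp] theorem arcsKT_val (n : ℕ) (p1 q : List ℕ) : (arcsKT n p1 q).val = arcsK n p1 q := by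
  unfold arcsKT arcsK kIsT
  simp only [bind_val', rangeUpT_val, filterT_val, kqT_val, eqNT_val, arcsOfT_val]

@[simp] theorem arcsLT_val (n : ℕ) (p1 p2 q : List ℕ) :
    (arcsLT n p1 p2 q).val = arcsL n p1 p2 q := by
  unfold arcsLT arcsL usableT kIsT
  simp only [bind_val', rangeUpT_val, filterT_val, nxT_val, repT_val, kqT_val, eqNT_val,
    arcsOfT_val, idxOfT_val, pay_val, ne_eq, Bool.decide_and, decide_not]

@[simp] theorem wt1T_val (wT : ℕ → ℕ → Tick ℕ) (x y : ℕ) :
    (wt1T wT x y).val = wt1 (fun i j => (wT i j).val) x y := by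
  unfold wt1T wt1
  simp only [bind_val', eqNT_val, decide_eq_true_eq]
  split_ifs <;> rfl

@[simp] theorem wt2T_val (wT : ℕ → ℕ → Tick ℕ) (n : ℕ) (p1 : List ℕ) (x y : ℕ) :
    (wt2T wT n p1 x y).val = wt2 (fun i j => (wT i j).val) n p1 x y := by
  unfold wt2T wt2
  simp only [bind_val', repT_val, eqNT_val, decide_eq_true_eq]
  split_ifs <;> rfl

@[simp] theorem zipT_val (a b : List ℕ) : (zipT a b).val = a.zip b := by
  induction a generalizing b with
  | nil => simp [zipT]
  | cons x a ih => cases b <;> simp [zipT, ih]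

@[simp] theorem pwT_val (wT : ℕ → ℕ → Tick ℕ) (P : List ℕ) :
    (pwT wT P).val = pw (fun i j => (wT i j).val) P := by
  unfold pwT pw prs
  simp only [bind_val', zipT_val, mapT_val, sumT_val]

@[simp] theorem heavierT_val (wT : ℕ → ℕ → Tick ℕ) (A B : List ℕ) :
    (heavierT wT A B).val = heavier (fun i j => (wT i j).val) A B := by
  unfold heavierT heavier
  simp only [bind_val', pwT_val, cmpT_val, decide_eq_true_eq]
  split_ifs <;> rfl

@[simp] theorem atspOfT_val (wT : ℕ → ℕ → Tick ℕ) (n : ℕ) (p1 p2 : List ℕ) :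
    (atspOfT wT n p1 p2).val = atspOf (fun i j => (wT i j).val) n p1 p2 := by
  unfold atspOfT atspOf
  simp only [bind_val', bitsT_val, arcsAT_val, arcsKT_val, arcsLT_val, appendT_val, rangeUpT_val,
    breakFT_val, heavierT_val]

theorem bind_val2 {α β : Type} (x : Tick α) (f : α → Tick β) :
    (x.bind f).val = (f x.val).val := by
  cases x
  rfl

@[simp] theorem atspOf2T_val (n C : ℕ) (wT : ℕ → ℕ → Tick ℕ) (p1 : List ℕ) :
    (atspOf2T n C wT p1).val = atspOf2 n C (fun i j => (wT i j).val) p1 := by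
  have h2 : (fun i j => (wt2T wT n p1 i j).val) = wt2 (fun i j => (wT i j).val) n p1 := by
    funext i j
    exact wt2T_val wT n p1 i j
  rw [atspOf2T, bind_val2, atspOfT_val, assignT_val, h2, atspOf2]

@[simp] theorem atspT_val (n C : ℕ) (wT : ℕ → ℕ → Tick ℕ) :
    (atspT n C wT).val = atsp n C (fun i j => (wT i j).val) := by
  have h2 : (fun i j => (wt1T wT i j).val) = wt1 (fun i j => (wT i j).val) := by
    funext i j
    exact wt1T_val wT i j
  rw [atspT, bind_val2, atspOf2T_val, assignT_val, h2, atsp]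

end Vale.Agent.P333.M
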