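import Vale.Agent.P333.M.TickProg

/-!
P333, box M: running time of the program of `TickProg.lean`. Everything is bounded in terms of one
number `D` that bounds the number of nodes, the weights and the running time of the calls of the
weight function.
-/

namespace Vale.Agent.P333.M

open Tick Auction

/-- a list of at most `D` numbers, all at most `m` -/
structure Small (D m : ℕ) (p : List ℕ) : Prop where
  len : p.length ≤ D
  le : ∀ x ∈ p, x ≤ m

variable {D n : ℕ}

theorem Small.getD {m : ℕ} {p : List ℕ} (h : Small D m p) (x : ℕ) : p.getD x 0 ≤ m := by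
  rcases Nat.lt_or_ge x p.length with hx | hx
  · rw [List.getD_eq_getElem _ _ hx]
    exact h.le _ (List.getElem_mem _)
  · rw [List.getD_eq_default _ _ hx]
    exact Nat.zero_le _

theorem Small.set {m : ℕ} {p : List ℕ} (h : Small D m p) (i : ℕ) {y : ℕ} (hy : y ≤ m) :
    Small D m (p.set i y) := by
  refine ⟨by rw [List.length_set]; exact h.len, fun x hx => ?_⟩
  rcases List.mem_or_eq_of_mem_set hx with h1 | h1
  · exact h.le x h1
  · rw [h1]; exact hy

theorem nxT_time {m : ℕ} {p : List ℕ} (h : Small D m p) (x : ℕ) : (nxT p x).time ≤ D + 1 := by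
  have := getT_time p x 0
  have := h.len
  unfold nxT
  omega

theorem nx_le {m : ℕ} {p : List ℕ} (h : Small D m p) (x : ℕ) : nx p x ≤ m := h.getD x

theorem orbT_time {p : List ℕ} (h : Small D D p) (x k : ℕ) :
    (orbT p x k).time ≤ k * (D + 2) + 1 := by
  induction k generalizing x with
  | zero => simp [orbT]
  | succ k ih =>
    simp only [orbT, bind_time', pay_time]
    have h1 := nxT_time h x
    have h2 := ih (nxT p x).val
    have h3 : (k + 1) * (D + 2) + 1 = k * (D + 2) + 1 + (D + 2) := by ring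
    rw [h3]
    omega

theorem length_orb (p : List ℕ) (x k : ℕ) : (orb p x k).length = k := by
  induction k generalizing x with
  | zero => rfl
  | succ k ih => simp [orb, ih]

theorem orb_le {p : List ℕ} (h : Small D D p) {x : ℕ} (hx : x ≤ D) (k : ℕ) :
    ∀ y ∈ orb p x k, y ≤ D := by
  induction k generalizing x with
  | zero => simp [orb]
  | succ k ih =>
    intro y hy
    rw [orb, List.mem_cons] at hy
    rcases hy with rfl | hy
    · exact hx
    · exact ih (nx_le h x) y hy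

theorem foldl_min_le (l : List ℕ) (x : ℕ) : l.foldl min x ≤ x := by
  induction l generalizing x with
  | nil => exact le_rfl
  | cons y l ih => exact (ih _).trans (min_le_left _ _)

theorem rep_le' {p : List ℕ} {x : ℕ} : rep n p x ≤ x := foldl_min_le _ _

theorem repT_time {p : List ℕ} (h : Small D D p) (hn : n ≤ D) {x : ℕ} (hx : x ≤ D) :
    (repT n p x).time ≤ 5 * (D + 1) ^ 2 := by
  unfold repT
  simp only [bind_time', orbT_val]
  have h1 := orbT_time h x n
  have h2 : (foldlT minT x (orb p x n)).time ≤ (orb p x n).length * (2 * D + 3) + 1 :=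
    foldlT_time (c := 2 * D + 2) (fun b => b ≤ D)
      (fun b hb y _ => by rw [minT_val]; exact (min_le_left _ _).trans hb)
      (fun b hb y hy => by
        have h3 := orb_le h hx n y hy
        unfold minT
        simp only [bind_time', cmpT_time]
        split_ifs <;> simp only [pay_time] <;> omega) hx
  rw [length_orb] at h2
  have h3 : n * (D + 2) ≤ D * (D + 2) := Nat.mul_le_mul_right _ hn
  have h4 : n * (2 * D + 3) ≤ D * (2 * D + 3) := Nat.mul_le_mul_right _ hn
  have e1 : D * (D + 2) = D ^ 2 + 2 * D := by ring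
  have e2 : D * (2 * D + 3) = 2 * D ^ 2 + 3 * D := by ring
  have e3 : 5 * (D + 1) ^ 2 = 5 * D ^ 2 + 10 * D + 5 := by ring
  rw [e1] at h3
  rw [e2] at h4
  rw [e3]
  omega

theorem kq_le {p q : List ℕ} (hq : Small D 2 q) (x : ℕ) : kq n p q x ≤ 2 := by
  unfold kq
  split_ifs
  · omega
  · exact hq.getD _
  · omega

theorem kqT_time {p q : List ℕ} (h : Small D D p) (hq : Small D 2 q) (hn : n ≤ D) {x : ℕ}
    (hx : x ≤ D) : (kqT n p q x).time ≤ 14 * (D + 1) ^ 2 := by
  unfold kqT
  simp only [bind_time', nxT_val, eqNT_val, eqNT_time]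
  have h1 := nxT_time h x
  have h2 := nx_le h x
  have h3 := repT_time h hn hx
  have h4 : rep n p x ≤ D := rep_le'.trans hx
  have h5 := getT_time q (rep n p x) 0
  have h6 := hq.len
  have h7 := hq.getD (rep n p x)
  have e3 : (D + 1) ^ 2 = D ^ 2 + 2 * D + 1 := by ring
  rw [e3] at h3 ⊢
  by_cases h8 : nx p x = x
  · simp only [h8, decide_true, if_true, pay_time]
    omega
  · simp only [h8, decide_false, Bool.false_eq_true, if_false, bind_time', repT_val, eqNT_time,
      eqNT_val, getT_val]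
    by_cases h9 : rep n p x = x
    · simp only [h9, decide_true, if_true, pay_time]
      rw [h9] at h5
      omega
    · simp only [h9, decide_false, Bool.false_eq_true, if_false, subT_time]
      omega

theorem arcTermT_time {wT : ℕ → ℕ → Tick ℕ} {p q : List ℕ} (h : Small D D p) (hq : Small D 2 q)
    (hn : n ≤ D) (ht : ∀ i j, (wT i j).time ≤ D) (hv : ∀ i j, (wT i j).val ≤ D) {x : ℕ}
    (hx : x ≤ D) : (arcTermT wT n p q x).time ≤ 39 * (D + 1) ^ 2 := by
  unfold arcTermT
  simp only [bind_time', kqT_val, mulT_time, mulT_val, nxT_val]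
  have h1 := kqT_time h hq hn hx
  have h2 := kq_le (n := n) (p := p) hq x
  have h3 := nxT_time h x
  have h4 := ht x (nx p x)
  have h5 := hv x (nx p x)
  have h6 : 4 * kq n p q x * (wT x (nx p x)).val ≤ 8 * D := Nat.mul_le_mul (by omega) h5
  have e3 : (D + 1) ^ 2 = D ^ 2 + 2 * D + 1 := by ring
  rw [e3] at h1 ⊢
  omega

theorem arcTerm_le {w : ℕ → ℕ → ℕ} {p q : List ℕ} (hq : Small D 2 q) (hv : ∀ i j, w i j ≤ D)
    (x : ℕ) : arcTerm w n p q x ≤ 8 * D := by
  unfold arcTerm
  have h2 := kq_le (n := n) (p := p) hq x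
  exact Nat.mul_le_mul (by omega) (hv _ _)

theorem mul_sub_le (a b : ℕ) : (2 - a) * (2 - b) ≤ 4 :=
  Nat.mul_le_mul (Nat.sub_le 2 a) (Nat.sub_le 2 b)

theorem linkTerm_le {w : ℕ → ℕ → ℕ} {p1 p2 q : List ℕ} (hv : ∀ i j, w i j ≤ D)
    (x : ℕ) : linkTerm w n p1 p2 q x ≤ 4 * D := by
  unfold linkTerm
  split_ifs
  · omega
  · exact Nat.mul_le_mul (mul_sub_le _ _) (hv _ _)

theorem prodT_time {k1 k2 : ℕ} {vT : Tick ℕ} (h1 : k1 ≤ 2) (h2 : k2 ≤ 2) (ht : vT.time ≤ D)
    (hv : vT.val ≤ D) : (prodT k1 k2 vT).time ≤ 6 * D + 24 := by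
  unfold prodT
  simp only [bind_time', subT_time, subT_val, mulT_time, mulT_val]
  have h3 := mul_sub_le k1 k2
  have h4 : (2 - k1) * (2 - k2) * vT.val ≤ 4 * D := Nat.mul_le_mul h3 hv
  have h5 := Nat.sub_le 2 k1
  have h6 := Nat.sub_le 2 k2
  omega

theorem idxT_time {p : List ℕ} (h : Small D D p) {y : ℕ} (hy : y ≤ D) :
    (idxOfT y p).time ≤ 2 * (D + 1) ^ 2 := by
  have h1 := idxOfT_time (x := y) h.le
  have h2 : p.length * (y + D + 2) ≤ D * (2 * D + 2) := Nat.mul_le_mul h.len (by omega)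
  have e1 : D * (2 * D + 2) = 2 * D ^ 2 + 2 * D := by ring
  have e2 : 2 * (D + 1) ^ 2 = 2 * D ^ 2 + 4 * D + 2 := by ring
  rw [e1] at h2
  rw [e2]
  omega

theorem idx_le {p : List ℕ} (h : Small D D p) (y : ℕ) : p.idxOf y ≤ D :=
  List.idxOf_le_length.trans h.len

theorem linkTermT_time {wT : ℕ → ℕ → Tick ℕ} {p1 p2 q : List ℕ} (h1 : Small D D p1)
    (h2 : Small D D p2) (hq : Small D 2 q) (hn : n ≤ D) (ht : ∀ i j, (wT i j).time ≤ D)
    (hv : ∀ i j, (wT i j).val ≤ D) {x : ℕ} (hx : x ≤ D) :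
    (linkTermT wT n p1 p2 q x).time ≤ 68 * (D + 1) ^ 2 := by
  unfold linkTermT
  simp only [bind_time', nxT_val, repT_val, eqNT_val, eqNT_time]
  have a1 := nxT_time h2 x
  have a2 := nx_le h2 x
  have a3 := repT_time h1 hn hx
  have a4 := repT_time h1 hn a2
  have a5 : rep n p1 x ≤ D := rep_le'.trans hx
  have a6 : rep n p1 (nx p2 x) ≤ D := rep_le'.trans a2
  have e3 : (D + 1) ^ 2 = D ^ 2 + 2 * D + 1 := by ring
  by_cases h0 : rep n p1 x = rep n p1 (nx p2 x)
  · simp only [h0, decide_true, if_true, pay_time]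
    rw [e3] at a3 a4 ⊢
    omega
  · simp only [h0, decide_false, Bool.false_eq_true, if_false, bind_time', kqT_val, idxOfT_val]
    have b1 := kqT_time h1 hq hn hx
    have b2 := idxT_time h1 a2
    have b3 := kqT_time h1 hq hn (idx_le h1 (nx p2 x))
    have b4 := prodT_time (kq_le (n := n) (p := p1) hq x)
      (kq_le (n := n) (p := p1) hq (p1.idxOf (nx p2 x))) (ht x (nx p2 x)) (hv x (nx p2 x))
    rw [e3] at a3 a4 b1 b2 b3 ⊢
    omega

theorem termT_time {wT : ℕ → ℕ → Tick ℕ} {p1 p2 q : List ℕ} (h1 : Small D D p1)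
    (h2 : Small D D p2) (hq : Small D 2 q) (hn : n ≤ D) (ht : ∀ i j, (wT i j).time ≤ D)
    (hv : ∀ i j, (wT i j).val ≤ D) {x : ℕ} (hx : x ≤ D) :
    (termT wT n p1 p2 q x).time ≤ 119 * (D + 1) ^ 2 := by
  unfold termT
  simp only [bind_time', arcTermT_val, linkTermT_val, addT_time]
  have a1 := arcTermT_time h1 hq hn ht hv hx
  have a2 := linkTermT_time h1 h2 hq hn ht hv hx
  have a3 := arcTerm_le (n := n) (p := p1) hq hv x
  have a4 := linkTerm_le (n := n) (p1 := p1) (p2 := p2) (q := q) hv x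
  have e3 : (D + 1) ^ 2 = D ^ 2 + 2 * D + 1 := by ring
  rw [e3] at a1 a2 ⊢
  omega

/-- powers of `D + 1` -/
theorem pw_le {a b : ℕ} (h : a ≤ b) : (D + 1) ^ a ≤ (D + 1) ^ b :=
  Nat.pow_le_pow_right (by omega) h

theorem mul_pow {a k c : ℕ} (ha : a ≤ D) {x : ℕ} (hx : x ≤ c * (D + 1) ^ k) :
    a * x ≤ c * (D + 1) ^ (k + 1) := by
  calc a * x ≤ (D + 1) * (c * (D + 1) ^ k) := Nat.mul_le_mul (by omega) hx
    _ = c * (D + 1) ^ (k + 1) := by ring

theorem obj_le {w : ℕ → ℕ → ℕ} {p1 p2 q : List ℕ} (hq : Small D 2 q) (hn : n ≤ D)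
    (hv : ∀ i j, w i j ≤ D) : obj w n p1 p2 q ≤ 12 * D ^ 2 := by
  unfold obj
  have h1 := sum_le_of (l := (List.range n).map (fun x => arcTerm w n p1 q x +
    linkTerm w n p1 p2 q x)) (m := 12 * D) (by
      intro y hy
      rw [List.mem_map] at hy
      obtain ⟨x, _, rfl⟩ := hy
      have := arcTerm_le (n := n) (p := p1) hq hv x
      have := linkTerm_le (n := n) (p1 := p1) (p2 := p2) (q := q) hv x
      omega)
  rw [List.length_map, List.length_range] at h1
  have h2 : n * (12 * D) ≤ D * (12 * D) := Nat.mul_le_mul_right _ hn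
  have e : D * (12 * D) = 12 * D ^ 2 := by ring
  omega

theorem objT_time {wT : ℕ → ℕ → Tick ℕ} {p1 p2 q : List ℕ} (h1 : Small D D p1)
    (h2 : Small D D p2) (hq : Small D 2 q) (hn : n ≤ D) (ht : ∀ i j, (wT i j).time ≤ D)
    (hv : ∀ i j, (wT i j).val ≤ D) :
    (objT wT n p1 p2 q).time ≤ 135 * (D + 1) ^ 3 := by
  unfold objT
  simp only [bind_time', rangeUpT_time, rangeUpT_val, mapT_val, termT_val]
  have a1 : (mapT (termT wT n p1 p2 q) (List.range n)).time ≤
      (List.range n).length * (119 * (D + 1) ^ 2 + 1) + 1 :=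
    mapT_time fun x hx => termT_time h1 h2 hq hn ht hv (by
      have := List.mem_range.1 hx; omega)
  rw [List.length_range] at a1
  have a2 : 119 * (D + 1) ^ 2 + 1 ≤ 120 * (D + 1) ^ 2 := by
    have := Nat.one_le_pow 2 (D + 1) (by omega)
    omega
  have a3 := mul_pow hn a2
  have a4 := sumT_time (l := (List.range n).map (fun x =>
    arcTerm (fun i j => (wT i j).val) n p1 q x +
      linkTerm (fun i j => (wT i j).val) n p1 p2 q x)) (m := 12 * D) (by
      intro y hy
      rw [List.mem_map] at hy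
      obtain ⟨x, _, rfl⟩ := hy
      have := arcTerm_le (n := n) (p := p1) hq hv x
      have := linkTerm_le (n := n) (p1 := p1) (p2 := p2) (q := q) hv x
      omega)
  rw [List.length_map, List.length_range] at a4
  have a5 : (n + 1) ^ 2 * (12 * D + 1) ≤ (D + 1) ^ 2 * (12 * (D + 1)) :=
    Nat.mul_le_mul (Nat.pow_le_pow_left (by omega) 2) (by omega)
  have e5 : (D + 1) ^ 2 * (12 * (D + 1)) = 12 * (D + 1) ^ 3 := by ring
  have a6 : D + 1 ≤ (D + 1) ^ 3 := Nat.le_self_pow (by omega) _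
  have e6 : (D + 1) ^ (2 + 1) = (D + 1) ^ 3 := rfl
  rw [e6] at a3
  omega

theorem coinT_time {wT : ℕ → ℕ → Tick ℕ} {p1 p2 q : List ℕ} (h1 : Small D D p1)
    (h2 : Small D D p2) (hq : Small D 2 q) (hn : n ≤ D) (ht : ∀ i j, (wT i j).time ≤ D)
    (hv : ∀ i j, (wT i j).val ≤ D) (r : ℕ) :
    (coinT wT n p1 p2 q r).time ≤ 299 * (D + 1) ^ 3 := by
  unfold coinT
  simp only [bind_time', setT_val, objT_val, cmpT_time]
  have a1 := setT_time q r 2
  have a2 := setT_time q r 0
  have a3 := hq.len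
  have q2 : Small D 2 (q.set r 2) := hq.set r le_rfl
  have q0 : Small D 2 (q.set r 0) := hq.set r (by omega)
  have a4 := objT_time h1 h2 q2 hn ht hv
  have a5 := objT_time h1 h2 q0 hn ht hv
  have a6 := obj_le (p1 := p1) (p2 := p2) q2 hn hv
  have a7 := obj_le (p1 := p1) (p2 := p2) q0 hn hv
  have a8 : D + 1 ≤ (D + 1) ^ 3 := Nat.le_self_pow (by omega) _
  have a9 : D ^ 2 ≤ (D + 1) ^ 3 :=
    (Nat.pow_le_pow_left (by omega) 2).trans (pw_le (by omega))
  split_ifs <;> simp only [pay_time] <;> omega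

theorem bitsT_time {wT : ℕ → ℕ → Tick ℕ} {p1 p2 : List ℕ} (h1 : Small D D p1)
    (h2 : Small D D p2) (hn : n ≤ D) (ht : ∀ i j, (wT i j).time ≤ D)
    (hv : ∀ i j, (wT i j).val ≤ D) :
    (bitsT wT n p1 p2).time ≤ 303 * (D + 1) ^ 4 ∧ Small D 2 (bitsT wT n p1 p2).val := by
  unfold bitsT
  simp only [bind_time', bind_val', rangeUpT_time, rangeUpT_val, replicateT_time, replicateT_val]
  have h0 : Small D 2 (List.replicate n 1) :=
    ⟨by rw [List.length_replicate]; exact hn, fun x hx => by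
      rw [List.eq_of_mem_replicate hx]; omega⟩
  have hP : ∀ b, Small D 2 b → ∀ x ∈ List.range n, Small D 2 (coinT wT n p1 p2 b x).val := by
    intro b hb x _
    rw [coinT_val]
    split_ifs
    · exact hb.set _ (by omega)
    · exact hb.set _ le_rfl
  have a1 : (foldlT (coinT wT n p1 p2) (List.replicate n 1) (List.range n)).time ≤
      (List.range n).length * (299 * (D + 1) ^ 3 + 1) + 1 :=
    foldlT_time (Small D 2) hP (fun b hb x _ => coinT_time h1 h2 hb hn ht hv x) h0
  have a2 : Small D 2 (foldlT (coinT wT n p1 p2) (List.replicate n 1) (List.range n)).val :=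
    foldlT_inv (Small D 2) hP h0
  refine ⟨?_, a2⟩
  rw [List.length_range] at a1
  have a3 : 299 * (D + 1) ^ 3 + 1 ≤ 300 * (D + 1) ^ 3 := by
    have := Nat.one_le_pow 3 (D + 1) (by omega)
    omega
  have a4 := mul_pow hn a3
  have e6 : (D + 1) ^ (3 + 1) = (D + 1) ^ 4 := rfl
  rw [e6] at a4
  have a6 : D + 1 ≤ (D + 1) ^ 4 := Nat.le_self_pow (by omega) _
  omega

theorem arcsOfT_time {m : ℕ} {p l : List ℕ} (h : Small D m p) (hl : l.length ≤ D) :
    (arcsOfT p l).time ≤ 3 * (D + 1) ^ 2 := by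
  unfold arcsOfT
  have a1 : (mapT (fun x => (nxT p x).bind fun y => pay 1 (x, y)) l).time ≤
      l.length * (D + 2 + 1) + 1 := mapT_time fun x _ => by
    simp only [bind_time', pay_time]
    have := nxT_time h x
    omega
  have a2 : l.length * (D + 2 + 1) ≤ D * (D + 3) := Nat.mul_le_mul_right _ hl
  have e1 : D * (D + 3) = D ^ 2 + 3 * D := by ring
  have e2 : 3 * (D + 1) ^ 2 = 3 * D ^ 2 + 6 * D + 3 := by ring
  rw [e1] at a2
  rw [e2]
  omega

theorem arcsAT_time {p : List ℕ} (h : Small D D p) (hn : n ≤ D) :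
    (arcsAT n p).time ≤ 9 * (D + 1) ^ 2 := by
  unfold arcsAT
  simp only [bind_time', rangeUpT_time, rangeUpT_val]
  have a1 : (filterT (movedT p) (List.range n)).time ≤ (List.range n).length * (3 * D + 4) + 1 :=
    filterT_time (c := 3 * D + 3) fun x hx => by
      have h0 := List.mem_range.1 hx
      unfold movedT
      simp only [bind_time', nxT_val, eqNT_time, pay_time]
      have h1 := nxT_time h x
      have h2 := nx_le h x
      omega
  have a2 : (arcsOfT p (filterT (movedT p) (List.range n)).val).time ≤ 3 * (D + 1) ^ 2 := by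
    refine arcsOfT_time h ?_
    rw [filterT_val]
    have := List.length_filter_le (fun x => (movedT p x).val) (List.range n)
    rw [List.length_range] at this
    omega
  rw [List.length_range] at a1
  have a3 : n * (3 * D + 4) ≤ D * (3 * D + 4) := Nat.mul_le_mul_right _ hn
  have e1 : D * (3 * D + 4) = 3 * D ^ 2 + 4 * D := by ring
  have e2 : (D + 1) ^ 2 = D ^ 2 + 2 * D + 1 := by ring
  rw [e1] at a3
  rw [e2] at a2 ⊢
  omega

theorem kIsT_time {p q : List ℕ} (h : Small D D p) (hq : Small D 2 q) (hn : n ≤ D) {m x : ℕ}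
    (hm : m ≤ 2) (hx : x ≤ D) : (kIsT n p q m x).time ≤ 19 * (D + 1) ^ 2 := by
  unfold kIsT
  simp only [bind_time', kqT_val, eqNT_time]
  have h1 := kqT_time h hq hn hx
  have h2 := kq_le (n := n) (p := p) hq x
  have := Nat.one_le_pow 2 (D + 1) (by omega)
  omega

theorem arcsKT_time {p q : List ℕ} (h : Small D D p) (hq : Small D 2 q) (hn : n ≤ D) :
    (arcsKT n p q).time ≤ 25 * (D + 1) ^ 3 := by
  unfold arcsKT
  simp only [bind_time', rangeUpT_time, rangeUpT_val]
  have a1 : (filterT (kIsT n p q 2) (List.range n)).time ≤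
      (List.range n).length * (19 * (D + 1) ^ 2 + 1) + 1 :=
    filterT_time fun x hx => kIsT_time h hq hn le_rfl (by have := List.mem_range.1 hx; omega)
  have a2 : (arcsOfT p (filterT (kIsT n p q 2) (List.range n)).val).time ≤ 3 * (D + 1) ^ 2 := by
    refine arcsOfT_time h ?_
    rw [filterT_val]
    have := List.length_filter_le (fun x => (kIsT n p q 2 x).val) (List.range n)
    rw [List.length_range] at this
    omega
  rw [List.length_range] at a1
  have a3 : 19 * (D + 1) ^ 2 + 1 ≤ 20 * (D + 1) ^ 2 := by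
    have := Nat.one_le_pow 2 (D + 1) (by omega)
    omega
  have a4 := mul_pow hn a3
  have e6 : (D + 1) ^ (2 + 1) = (D + 1) ^ 3 := rfl
  rw [e6] at a4
  have a5 : (D + 1) ^ 2 ≤ (D + 1) ^ 3 := pw_le (by omega)
  have a6 : D + 1 ≤ (D + 1) ^ 3 := Nat.le_self_pow (by omega) _
  omega

theorem usableT_time {p1 p2 q : List ℕ} (h1 : Small D D p1) (h2 : Small D D p2)
    (hq : Small D 2 q) (hn : n ≤ D) {x : ℕ} (hx : x ≤ D) :
    (usableT n p1 p2 q x).time ≤ 55 * (D + 1) ^ 2 := by
  unfold usableT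
  simp only [bind_time', nxT_val, repT_val, eqNT_time, idxOfT_val, pay_time]
  have a1 := nxT_time h2 x
  have a2 := nx_le h2 x
  have a3 := repT_time h1 hn hx
  have a4 := repT_time h1 hn a2
  have a5 : rep n p1 x ≤ D := rep_le'.trans hx
  have a6 : rep n p1 (nx p2 x) ≤ D := rep_le'.trans a2
  have b1 := kIsT_time h1 hq hn (m := 0) (by omega) hx
  have b2 := idxT_time h1 a2
  have b3 := kIsT_time h1 hq hn (m := 0) (by omega) (idx_le h1 (nx p2 x))
  have e3 : (D + 1) ^ 2 = D ^ 2 + 2 * D + 1 := by ring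
  rw [e3] at a3 a4 b1 b2 b3 ⊢
  omega

theorem arcsLT_time {p1 p2 q : List ℕ} (h1 : Small D D p1) (h2 : Small D D p2)
    (hq : Small D 2 q) (hn : n ≤ D) : (arcsLT n p1 p2 q).time ≤ 61 * (D + 1) ^ 3 := by
  unfold arcsLT
  simp only [bind_time', rangeUpT_time, rangeUpT_val]
  have a1 : (filterT (usableT n p1 p2 q) (List.range n)).time ≤
      (List.range n).length * (55 * (D + 1) ^ 2 + 1) + 1 :=
    filterT_time fun x hx => usableT_time h1 h2 hq hn (by have := List.mem_range.1 hx; omega)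
  have a2 : (arcsOfT p2 (filterT (usableT n p1 p2 q) (List.range n)).val).time ≤
      3 * (D + 1) ^ 2 := by
    refine arcsOfT_time h2 ?_
    rw [filterT_val]
    have := List.length_filter_le (fun x => (usableT n p1 p2 q x).val) (List.range n)
    rw [List.length_range] at this
    omega
  rw [List.length_range] at a1
  have a3 : 55 * (D + 1) ^ 2 + 1 ≤ 56 * (D + 1) ^ 2 := by
    have := Nat.one_le_pow 2 (D + 1) (by omega)
    omega
  have a4 := mul_pow hn a3
  have e6 : (D + 1) ^ (2 + 1) = (D + 1) ^ 3 := rfl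
  rw [e6] at a4
  have a5 : (D + 1) ^ 2 ≤ (D + 1) ^ 3 := pw_le (by omega)
  have a6 : D + 1 ≤ (D + 1) ^ 3 := Nat.le_self_pow (by omega) _
  omega

theorem wt1T_time {wT : ℕ → ℕ → Tick ℕ} (ht : ∀ i j, (wT i j).time ≤ D) {x y : ℕ} (hx : x ≤ D)
    (hy : y ≤ D) : (wt1T wT x y).time ≤ 4 * (D + 1) := by
  unfold wt1T
  simp only [bind_time', eqNT_time]
  have := ht x y
  split_ifs <;> (try simp only [pay_time]) <;> omega

theorem wt2T_time {wT : ℕ → ℕ → Tick ℕ} {p1 : List ℕ} (h1 : Small D D p1) (hn : n ≤ D)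
    (ht : ∀ i j, (wT i j).time ≤ D) {x y : ℕ} (hx : x ≤ D)
    (hy : y ≤ D) : (wt2T wT n p1 x y).time ≤ 13 * (D + 1) ^ 2 := by
  unfold wt2T
  simp only [bind_time', eqNT_time, repT_val]
  have a0 := ht x y
  have a3 := repT_time h1 hn hx
  have a4 := repT_time h1 hn hy
  have a5 : rep n p1 x ≤ D := rep_le'.trans hx
  have a6 : rep n p1 y ≤ D := rep_le'.trans hy
  have e3 : (D + 1) ^ 2 = D ^ 2 + 2 * D + 1 := by ring
  rw [e3] at a3 a4 ⊢
  split_ifs <;> (try simp only [pay_time]) <;> omega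

theorem zipT_time (a b : List ℕ) : (zipT a b).time ≤ a.length + 1 := by
  induction a generalizing b with
  | nil => simp [zipT]
  | cons x a ih =>
    cases b with
    | nil => simp [zipT]
    | cons y b =>
      have := ih b
      simp only [zipT, bind_time', pay_time, List.length_cons]
      omega

theorem pwT_time {wT : ℕ → ℕ → Tick ℕ} (ht : ∀ i j, (wT i j).time ≤ D)
    (hv : ∀ i j, (wT i j).val ≤ D) {P : List ℕ} (hP : P.length ≤ D) :
    (pwT wT P).time ≤ 5 * (D + 1) ^ 3 := by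
  unfold pwT
  simp only [bind_time', zipT_val, mapT_val]
  have a1 := zipT_time P P.tail
  have hl : (P.zip P.tail).length ≤ D := by
    rw [List.length_zip]
    exact (min_le_left _ _).trans hP
  have a2 : (mapT (fun e : ℕ × ℕ => wT e.1 e.2) (P.zip P.tail)).time ≤
      (P.zip P.tail).length * (D + 1) + 1 := mapT_time fun e _ => ht e.1 e.2
  have a3 : (P.zip P.tail).length * (D + 1) ≤ D * (D + 1) := Nat.mul_le_mul_right _ hl
  have a4 := sumT_time (l := (P.zip P.tail).map (fun e => (wT e.1 e.2).val)) (m := D) (by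
    intro y hy
    rw [List.mem_map] at hy
    obtain ⟨e, _, rfl⟩ := hy
    exact hv _ _)
  rw [List.length_map] at a4
  have a5 : ((P.zip P.tail).length + 1) ^ 2 * (D + 1) ≤ (D + 1) ^ 2 * (D + 1) :=
    Nat.mul_le_mul_right _ (Nat.pow_le_pow_left (by omega) 2)
  have e5 : (D + 1) ^ 2 * (D + 1) = (D + 1) ^ 3 := by ring
  have e6 : D * (D + 1) ≤ (D + 1) ^ 3 := by
    have : D * (D + 1) ≤ (D + 1) ^ 2 := by nlinarith
    exact this.trans (pw_le (by omega))
  have a6 : D + 1 ≤ (D + 1) ^ 3 := Nat.le_self_pow (by omega) _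
  omega

theorem pw_le_sq {w : ℕ → ℕ → ℕ} (hv : ∀ i j, w i j ≤ D) {P : List ℕ} (hP : P.length ≤ D) :
    pw w P ≤ D ^ 2 := by
  unfold pw prs
  have h1 := sum_le_of (l := (P.zip P.tail).map (fun e => w e.1 e.2)) (m := D) (by
    intro y hy
    rw [List.mem_map] at hy
    obtain ⟨e, _, rfl⟩ := hy
    exact hv _ _)
  rw [List.length_map, List.length_zip] at h1
  have h2 : min P.length P.tail.length * D ≤ D * D :=
    Nat.mul_le_mul_right _ ((min_le_left _ _).trans hP)
  have e : D * D = D ^ 2 := by ring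
  omega

theorem heavierT_time {wT : ℕ → ℕ → Tick ℕ} (ht : ∀ i j, (wT i j).time ≤ D)
    (hv : ∀ i j, (wT i j).val ≤ D) {A B : List ℕ} (hA : A.length ≤ D) (hB : B.length ≤ D) :
    (heavierT wT A B).time ≤ 14 * (D + 1) ^ 3 := by
  unfold heavierT
  simp only [bind_time', pwT_val, cmpT_time]
  have a1 := pwT_time ht hv hA
  have a2 := pwT_time ht hv hB
  have a3 := pw_le_sq hv hA
  have a4 := pw_le_sq hv hB
  have a5 : D ^ 2 ≤ (D + 1) ^ 3 :=
    (Nat.pow_le_pow_left (by omega) 2).trans (pw_le (by omega))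
  have a6 : D + 1 ≤ (D + 1) ^ 3 := Nat.le_self_pow (by omega) _
  split_ifs <;> simp only [pay_time] <;> omega

theorem arcsOf_le {p : List ℕ} (h : Small D D p) (hn : n ≤ D) (t : ℕ → Bool) :
    (∀ e ∈ ((List.range n).filter t).map (fun x => (x, nx p x)), e.1 ≤ D ∧ e.2 ≤ D) ∧
      (((List.range n).filter t).map (fun x => (x, nx p x))).length ≤ D := by
  constructor
  · intro e he
    rw [List.mem_map] at he
    obtain ⟨x, hx, rfl⟩ := he
    have := List.mem_range.1 (List.mem_filter.1 hx).1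
    exact ⟨by simp only; omega, nx_le h x⟩
  · rw [List.length_map]
    have := List.length_filter_le t (List.range n)
    rw [List.length_range] at this
    omega

theorem breakF_length {w : ℕ → ℕ → ℕ} (hn : n ≤ D) (F : List (ℕ × ℕ)) :
    (breakF w (List.range n) F).length ≤ D := by
  unfold breakF breakC
  exact (bd_fold _ _ (bd_init (by rw [List.length_range]; exact hn)
    (fun v hv => by have := List.mem_range.1 hv; omega))).tot

theorem atspOfT_time {wT : ℕ → ℕ → Tick ℕ} {p1 p2 : List ℕ} (h1 : Small D D p1)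
    (h2 : Small D D p2) (hn : n ≤ D) (ht : ∀ i j, (wT i j).time ≤ D)
    (hv : ∀ i j, (wT i j).val ≤ D) :
    (atspOfT wT n p1 p2).time ≤ 500 * (D + 1) ^ 4 := by
  obtain ⟨a1, hq⟩ := bitsT_time h1 h2 hn ht hv
  rw [bitsT_val] at hq
  set q := bits (fun i j => (wT i j).val) n p1 p2 with hqd
  have e : (atspOfT wT n p1 p2).time = (bitsT wT n p1 p2).time + ((arcsAT n p1).time +
      ((arcsKT n p1 q).time + ((arcsLT n p1 p2 q).time +
      ((appendT (arcsK n p1 q) (arcsL n p1 p2 q)).time + ((rangeUpT n).time +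
      ((breakFT wT (List.range n) (arcsA n p1)).time +
      ((breakFT wT (List.range n) (arcsK n p1 q ++ arcsL n p1 p2 q)).time +
      (heavierT wT (breakF (fun i j => (wT i j).val) (List.range n) (arcsA n p1))
        (breakF (fun i j => (wT i j).val) (List.range n)
          (arcsK n p1 q ++ arcsL n p1 p2 q))).time))))))) := by
    simp only [atspOfT, bind_time', bitsT_val, arcsAT_val, arcsKT_val, arcsLT_val, appendT_val,
      rangeUpT_val, breakFT_val, ← hqd]
  have b1 := arcsOf_le h1 hn (fun x => decide (nx p1 x ≠ x))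
  have b2 := arcsOf_le h1 hn (fun x => decide (kq n p1 q x = 2))
  have b3 := arcsOf_le h2 hn (fun x => decide (rep n p1 x ≠ rep n p1 (nx p2 x) ∧
    kq n p1 q x = 0 ∧ kq n p1 q (p1.idxOf (nx p2 x)) = 0))
  have hr1 : (List.range n).length ≤ D := by rw [List.length_range]; exact hn
  have hr2 : ∀ v ∈ List.range n, v ≤ D := fun v hv => by have := List.mem_range.1 hv; omega
  have a2 := arcsAT_time h1 hn
  have a3 := arcsKT_time h1 hq hn
  have a4 := arcsLT_time h1 h2 hq hn
  have a5 := appendT_time (arcsK n p1 q) (arcsL n p1 p2 q)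
  have a6 : (arcsK n p1 q).length ≤ D := b2.2
  have a7 : (arcsL n p1 p2 q).length ≤ D := b3.2
  have a8 : (breakFT wT (List.range n) (arcsA n p1)).time ≤ 40 * (D + 1) ^ 4 :=
    breakFT_time hr1 hr2 b1.1 (by
      have : (arcsA n p1).length ≤ D := b1.2
      omega) (fun e _ => ht _ _) (fun e _ => hv _ _)
  have a9 : (breakFT wT (List.range n) (arcsK n p1 q ++ arcsL n p1 p2 q)).time ≤
      40 * (D + 1) ^ 4 :=
    breakFT_time hr1 hr2 (fun e he => by
      rcases List.mem_append.1 he with h | h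
      · exact b2.1 e h
      · exact b3.1 e h) (by rw [List.length_append]; omega) (fun e _ => ht _ _)
      (fun e _ => hv _ _)
  have a10 := heavierT_time ht hv (breakF_length (w := fun i j => (wT i j).val) hn (arcsA n p1))
    (breakF_length (w := fun i j => (wT i j).val) hn (arcsK n p1 q ++ arcsL n p1 p2 q))
  have a11 := rangeUpT_time n
  have p3 : (D + 1) ^ 3 ≤ (D + 1) ^ 4 := pw_le (by omega)
  have p2' : (D + 1) ^ 2 ≤ (D + 1) ^ 4 := pw_le (by omega)
  have p1' : D + 1 ≤ (D + 1) ^ 4 := Nat.le_self_pow (by omega) _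
  rw [e]
  omega

theorem small_assign {C : ℕ} {w : ℕ → ℕ → ℕ} (hn : n ≤ D) (hw : ∀ i j, w i j ≤ C) :
    Small D D (assign n C w) :=
  ⟨by rw [assign_length]; exact hn, fun x hx => by have := assign_lt hw hx; omega⟩

theorem atspOf2T_time {C : ℕ} {wT : ℕ → ℕ → Tick ℕ} {p1 : List ℕ} (h1 : Small D D p1)
    (hn : n ≤ D) (hC : C ≤ D) (ht : ∀ i j, (wT i j).time ≤ D) (hv : ∀ i j, (wT i j).val ≤ C) :
    (atspOf2T n C wT p1).time ≤ 1139063000 * (D + 1) ^ 12 := by
  have hv2 : ∀ i j, (wt2T wT n p1 i j).val ≤ C := fun i j => by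
    rw [wt2T_val]
    unfold wt2
    split_ifs
    · exact Nat.zero_le _
    · exact hv i j
  have a1 : (assignT n C (wt2T wT n p1)).time ≤ 100 * (n + C + 13 * (D + 1) ^ 2 + 2) ^ 6 :=
    assignT_time (fun i hi j hj => wt2T_time h1 hn ht (by omega) (by omega)) hv2
  have a2 : n + C + 13 * (D + 1) ^ 2 + 2 ≤ 15 * (D + 1) ^ 2 := by
    have e3 : (D + 1) ^ 2 = D ^ 2 + 2 * D + 1 := by ring
    rw [e3]
    omega
  have a3 : 100 * (n + C + 13 * (D + 1) ^ 2 + 2) ^ 6 ≤ 100 * (15 * (D + 1) ^ 2) ^ 6 :=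
    Nat.mul_le_mul_left _ (Nat.pow_le_pow_left a2 6)
  have e1 : 100 * (15 * (D + 1) ^ 2) ^ 6 = 1139062500 * (D + 1) ^ 12 := by ring
  have h2 : Small D D (assignT n C (wt2T wT n p1)).val := by
    rw [assignT_val]
    exact small_assign hn hv2
  have a4 := atspOfT_time h1 h2 hn ht (fun i j => (hv i j).trans hC)
  have a5 : (D + 1) ^ 4 ≤ (D + 1) ^ 12 := pw_le (by omega)
  have e2 : (atspOf2T n C wT p1).time = (assignT n C (wt2T wT n p1)).time +
      (atspOfT wT n p1 (assignT n C (wt2T wT n p1)).val).time := by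
    rw [atspOf2T, bind_time']
  rw [e2]
  omega

/-- the program of box M runs in polynomial time -/
theorem atspT_time {C : ℕ} {wT : ℕ → ℕ → Tick ℕ} (hn : n ≤ D) (hC : C ≤ D)
    (ht : ∀ i j, (wT i j).time ≤ D) (hv : ∀ i j, (wT i j).val ≤ C) :
    (atspT n C wT).time ≤ 1200000000 * (D + 1) ^ 12 := by
  have hv1 : ∀ i j, (wt1T wT i j).val ≤ C := fun i j => by
    rw [wt1T_val]
    unfold wt1
    split_ifs
    · exact Nat.zero_le _
    · exact hv i j
  have a1 : (assignT n C (wt1T wT)).time ≤ 100 * (n + C + 4 * (D + 1) + 2) ^ 6 :=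
    assignT_time (fun i hi j hj => wt1T_time ht (by omega) (by omega)) hv1
  have a3 : 100 * (n + C + 4 * (D + 1) + 2) ^ 6 ≤ 100 * (6 * (D + 1)) ^ 6 :=
    Nat.mul_le_mul_left _ (Nat.pow_le_pow_left (by omega) 6)
  have e1 : 100 * (6 * (D + 1)) ^ 6 = 4665600 * (D + 1) ^ 6 := by ring
  have h1 : Small D D (assignT n C (wt1T wT)).val := by
    rw [assignT_val]
    exact small_assign hn hv1
  have a4 := atspOf2T_time h1 hn hC ht hv
  have a5 : (D + 1) ^ 6 ≤ (D + 1) ^ 12 := pw_le (by omega)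
  have e2 : (atspT n C wT).time = (assignT n C (wt1T wT)).time +
      (atspOf2T n C wT (assignT n C (wt1T wT)).val).time := by
    rw [atspT, bind_time']
  rw [e2]
  omega

end Vale.Agent.P333.M
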